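import Vale.Agent.H91.CT.ConnAll

/-!
P328 row R10a: the anticommutator hypothesis (AC) gives the gap of `KR + KC`.

Paper proof.  `M := KR + KC` is symmetric and positive semidefinite (`Ksum_dot`,
`dot_Ksum_nonneg`), and by (AC) `dot (M f) (M f) = |KR f|^2 + |KC f|^2 + 2 dot (KR f) (KC f)
≥ 2 dot f (M f)`; so every eigenvalue of `M` is `0` or `≥ 2` and `Pending.spec_gap` applies
to `g := Qrel AllRel f`; the kernel of `M` consists of constants (`all_conn`).
-/

namespace Vale.Agent.H91.CT

open Finset Vale.Agent.H90 Vale.Agent.H88.CT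

variable {m n : ℕ} {r : Fin m → ℕ} {c : Fin n → ℕ}

/-- If the quadratic form of `Ksum rel` vanishes at `f`, every complementary projection of `f`
vanishes. -/
theorem Qrel_eq_zero_of_dot_Ksum {Ω : Type*} [Fintype Ω] [DecidableEq Ω] {I : Type*} [Fintype I]
    [DecidableEq I] {rel : I → I → Ω → Ω → Prop} [∀ i j, DecidableRel (rel i j)]
    (heq : ∀ i j, Equivalence (rel i j)) (f : Ω → ℝ)
    (h0 : dot f (Ksum rel f) = 0) (i j : I) (hij : i ≠ j) : Qrel (rel i j) f = 0 := by
  rw [dot_Ksum_self heq] at h0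
  have hnn : ∀ a ∈ (univ : Finset I), 0 ≤ ∑ b, if a ≠ b then
      dot (Qrel (rel a b) f) (Qrel (rel a b) f) else 0 := by
    intro a _
    refine Finset.sum_nonneg (fun b _ => ?_)
    by_cases hab : a ≠ b
    · simp only [if_pos hab]; exact dot_self_nonneg _
    · simp only [if_neg hab]; exact le_refl _
  have h1 := (Finset.sum_eq_zero_iff_of_nonneg hnn).1 h0 i (Finset.mem_univ i)
  have hnn2 : ∀ b ∈ (univ : Finset I), 0 ≤ (if i ≠ b then
      dot (Qrel (rel i b) f) (Qrel (rel i b) f) else 0) := by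
    intro b _
    by_cases hab : i ≠ b
    · simp only [if_pos hab]; exact dot_self_nonneg _
    · simp only [if_neg hab]; exact le_refl _
  have h2 := (Finset.sum_eq_zero_iff_of_nonneg hnn2).1 h1 j (Finset.mem_univ j)
  rw [if_pos hij] at h2
  exact dot_self_eq_zero h2

/-- If every complementary projection of `f` vanishes, so does `Ksum rel f`. -/
theorem Ksum_eq_zero_of_Qrel {Ω : Type*} [Fintype Ω] [DecidableEq Ω] {I : Type*} [Fintype I]
    [DecidableEq I] {rel : I → I → Ω → Ω → Prop} [∀ i j, DecidableRel (rel i j)]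
    (f : Ω → ℝ) (hz : ∀ i j, i ≠ j → Qrel (rel i j) f = 0) : Ksum rel f = 0 := by
  unfold Ksum
  refine Finset.sum_eq_zero (fun i _ => Finset.sum_eq_zero (fun j _ => ?_))
  by_cases hij : i ≠ j
  · rw [if_pos hij]; exact hz i j hij
  · rw [if_neg hij]

/-- The sum `KR + KC` of the row-pair and the column-pair generators. -/
noncomputable def KM (f : Omega r c → ℝ) : Omega r c → ℝ := KR f + KC f

theorem KM_add (f g : Omega r c → ℝ) : KM (f + g) = KM f + KM g := by
  unfold KM KR KC
  rw [Ksum_add, Ksum_add]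
  abel

theorem KM_smul (a : ℝ) (f : Omega r c → ℝ) : KM (a • f) = a • KM f := by
  unfold KM KR KC
  rw [Ksum_smul, Ksum_smul, smul_add]

theorem KR_dot (f g : Omega r c → ℝ) : dot f (KR g) = dot (KR f) g :=
  Ksum_dot (fun i j => rowRel_equiv i j) f g

theorem KC_dot (f g : Omega r c → ℝ) : dot f (KC g) = dot (KC f) g :=
  Ksum_dot (fun a b => colRel_equiv a b) f g

theorem KM_dot (f g : Omega r c → ℝ) : dot f (KM g) = dot (KM f) g := by
  unfold KM
  rw [dot_add_right, dot_add_left, KR_dot, KC_dot]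

theorem dot_KR_nonneg (f : Omega r c → ℝ) : 0 ≤ dot f (KR f) :=
  dot_Ksum_nonneg (fun i j => rowRel_equiv i j) f

theorem dot_KC_nonneg (f : Omega r c → ℝ) : 0 ≤ dot f (KC f) :=
  dot_Ksum_nonneg (fun a b => colRel_equiv a b) f

/-- Under (AC), `M^2 ≥ 2 M` for `M = KR + KC`. -/
theorem ac_sq (h : ACHyp) (f : Omega r c → ℝ) :
    2 * dot f (KM f) ≤ dot (KM f) (KM f) := by
  have hac := h m n r c f
  have e1 : dot f (KM f) = dot f (KR f) + dot f (KC f) := by
    unfold KM; rw [dot_add_right]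
  have e2 : dot (KM f) (KM f) = dot (KR f) (KR f) + dot (KC f) (KC f)
      + 2 * dot (KR f) (KC f) := by
    unfold KM
    rw [dot_add_left, dot_add_right, dot_add_right, dot_comm (KC f) (KR f)]
    ring
  have n1 := dot_self_nonneg (KR f)
  have n2 := dot_self_nonneg (KC f)
  rw [e1, e2]
  linarith

/-- Under (AC), every eigenvalue of `KR + KC` is `0` or at least `2`. -/
theorem ac_eigen (h : ACHyp) (μ : ℝ) (g : Omega r c → ℝ) (hg : g ≠ 0)
    (hμ : KM g = μ • g) : μ = 0 ∨ 2 ≤ μ := by
  have hsq := ac_sq h g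
  rw [hμ, dot_smul_right, dot_smul_left, dot_smul_right] at hsq
  have hpos : 0 < dot g g := by
    rcases (dot_self_nonneg g).lt_or_eq with h' | h'
    · exact h'
    · exact absurd (dot_self_eq_zero h'.symm) hg
  have hnn : 0 ≤ μ * dot g g := by
    have e : dot g (KM g) = dot g (KR g) + dot g (KC g) := by
      unfold KM; rw [dot_add_right]
    have := dot_KR_nonneg g
    have := dot_KC_nonneg g
    rw [hμ, dot_smul_right] at e
    linarith
  have hμ0 : 0 ≤ μ := by
    by_contra hcon
    have : μ * dot g g < 0 := mul_neg_of_neg_of_pos (lt_of_not_ge hcon) hpos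
    linarith
  by_cases h0 : μ = 0
  · exact Or.inl h0
  right
  have hμpos : 0 < μ := lt_of_le_of_ne hμ0 (Ne.symm h0)
  by_contra hcon
  have hlt : μ < 2 := lt_of_not_ge hcon
  have h1 : 0 < μ * dot g g := mul_pos hμpos hpos
  have h2 : μ * (μ * dot g g) < 2 * (μ * dot g g) := mul_lt_mul_of_pos_right hlt h1
  linarith

/-- The kernel of `KR + KC` consists of the constant functions. -/
theorem KM_ker_const (g : Omega r c → ℝ) (hg : KM g = 0) : ∀ X Y : Omega r c, g X = g Y := by
  have e : dot g (KM g) = dot g (KR g) + dot g (KC g) := by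
    unfold KM; rw [dot_add_right]
  rw [hg, dot_zero_right] at e
  have n1 := dot_KR_nonneg g
  have n2 := dot_KC_nonneg g
  have z : dot g (KR g) = 0 := by linarith
  have hq : ∀ i j : Fin m, i ≠ j → Qrel (RowRel (r := r) (c := c) i j) g = 0 :=
    fun i j hij => Qrel_eq_zero_of_dot_Ksum (fun i j => rowRel_equiv i j) g z i j hij
  refine all_conn g ?_
  intro i j a b X Y hmv
  have hij : i ≠ j := by
    rintro rfl
    have h1 := hmv.2.1
    have h2 := hmv.2.2.2.2
    omega
  exact inv_of_Qrel_eq_zero (rowRel_equiv i j) g (hq i j hij) X Y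
    (blockRel_le_rowRel i j a b X Y hmv.1)

theorem KM_avg_all (f : Omega r c → ℝ) : KM (avgRel (AllRel (r := r) (c := c)) f) = 0 := by
  unfold KM KR KC
  rw [Ksum_eq_zero_of_Qrel _ (fun i j _ =>
      Qrel_avgRel_of_le (rowRel_equiv i j) allRel_equiv (fun _ _ _ => trivial) f),
    Ksum_eq_zero_of_Qrel _ (fun a b _ =>
      Qrel_avgRel_of_le (colRel_equiv a b) allRel_equiv (fun _ _ _ => trivial) f)]
  simp

theorem ac_gap (h : ACHyp) (f : Omega r c → ℝ) :
    2 * dot (Qrel AllRel f) (Qrel AllRel f) ≤ dot f (KR f) + dot f (KC f) := by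
  have hker : ∀ g : Omega r c → ℝ, KM g = 0 → dot (Qrel AllRel f) g = 0 := by
    intro g hg
    have hinv := KM_ker_const g hg
    rw [← Qrel_dot allRel_equiv, Qrel_eq_zero_of_inv allRel_equiv g (fun x y _ => hinv x y),
      dot_zero_right]
  have hgap := Pending.spec_gap (KM (r := r) (c := c)) KM_add KM_smul KM_dot 2
    (fun μ g hg hμ => ac_eigen h μ g hg hμ) (Qrel AllRel f) hker
  have hK : KM (Qrel AllRel f) = KM f := by
    have e : Qrel AllRel f = f + (-1 : ℝ) • avgRel AllRel f := by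
      unfold Qrel; funext x; simp [sub_eq_add_neg]
    rw [e, KM_add, KM_smul, KM_avg_all]
    simp
  have e2 : dot (Qrel AllRel f) (KM f) = dot f (KM f) := by
    have e3 : dot (avgRel AllRel f) (KM f) = 0 := by
      rw [KM_dot, KM_avg_all, dot_zero_left]
    unfold Qrel
    rw [dot_sub_left, e3, sub_zero]
  have e4 : dot f (KM f) = dot f (KR f) + dot f (KC f) := by
    unfold KM; rw [dot_add_right]
  rw [hK, e2, e4] at hgap
  exact hgap

end Vale.Agent.H91.CT
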