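import Vale.Agent.H88.CT.Defs
import Vale.Agent.H88.CT.Abstract

/-!
Contingency tables (P328): further definitions on top of `Vale.Agent.H88.CT.Defs`:
column-pair fibres, unit `2 x 2` moves, and the sums of complementary projections.
-/

namespace Vale.Agent.H91.CT

open Finset Vale.Agent.H90 Vale.Agent.H88.CT

variable {m n : ℕ} {r : Fin m → ℕ} {c : Fin n → ℕ}

/-- Fibre relation of the column pair `a, b`: the two tables agree outside columns `a, b`. -/
def ColRel (a b : Fin n) (X Y : Omega r c) : Prop :=
  ∀ k l, l ≠ a → l ≠ b → X.1 k l = Y.1 k l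

instance (a b : Fin n) : DecidableRel (ColRel (r := r) (c := c) a b) := fun X Y => by
  unfold ColRel; infer_instance

/-- The trivial relation (its averaging operator is the mean over the class `Omega r c`). -/
def AllRel (_ _ : Omega r c) : Prop := True

instance : DecidableRel (AllRel (r := r) (c := c)) := fun _ _ => by
  unfold AllRel; infer_instance

/-- Unit move: `Y` is `X` plus one at `(i, a)` and `(j, b)`, minus one at `(i, b)` and `(j, a)`. -/
def Move (i j : Fin m) (a b : Fin n) (X Y : Omega r c) : Prop :=
  BlockRel i j a b X Y ∧ Y.1 i a = X.1 i a + 1 ∧ Y.1 j b = X.1 j b + 1 ∧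
    X.1 i b = Y.1 i b + 1 ∧ X.1 j a = Y.1 j a + 1

instance (i j : Fin m) (a b : Fin n) : DecidableRel (Move (r := r) (c := c) i j a b) :=
  fun X Y => by unfold Move; infer_instance

/-- Unit moves in rows `i, j` between two of the three columns `a, b, d`. -/
def Step3 (i j : Fin m) (a b d : Fin n) (X Y : Omega r c) : Prop :=
  ∃ u v : Fin n, (u = a ∨ u = b ∨ u = d) ∧ (v = a ∨ v = b ∨ v = d) ∧ u ≠ v ∧ Move i j u v X Y

/-- Unit moves in columns `a, b` between two of the three rows `i, j, k`. -/
def Step3' (a b : Fin n) (i j k : Fin m) (X Y : Omega r c) : Prop :=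
  ∃ u v : Fin m, (u = i ∨ u = j ∨ u = k) ∧ (v = i ∨ v = j ∨ v = k) ∧ u ≠ v ∧ Move u v a b X Y

/-- Sum over ordered pairs of distinct columns of the complementary projections of the
`2 x 2` blocks in rows `i, j`. -/
noncomputable def KB (i j : Fin m) (f : Omega r c → ℝ) : Omega r c → ℝ :=
  Ksum (fun a b => BlockRel (r := r) (c := c) i j a b) f

/-- Sum over ordered pairs of distinct rows of the complementary projections of the
`2 x 2` blocks in columns `a, b`. -/
noncomputable def KB' (a b : Fin n) (f : Omega r c → ℝ) : Omega r c → ℝ :=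
  Ksum (fun i j => BlockRel (r := r) (c := c) i j a b) f

/-- Sum over ordered pairs of distinct rows of the row-pair complementary projections. -/
noncomputable def KR (f : Omega r c → ℝ) : Omega r c → ℝ :=
  Ksum (fun i j => RowRel (r := r) (c := c) i j) f

/-- Sum over ordered pairs of distinct columns of the column-pair complementary projections. -/
noncomputable def KC (f : Omega r c → ℝ) : Omega r c → ℝ :=
  Ksum (fun a b => ColRel (r := r) (c := c) a b) f

/-- The anticommutator hypothesis (AC): `{A, B} ≥ A + B` for the row-pair generator `A` and the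
column-pair generator `B` (unordered pairs), written with sums over ordered pairs. -/
def ACHyp : Prop :=
  ∀ (m n : ℕ) (r : Fin m → ℕ) (c : Fin n → ℕ) (f : Omega r c → ℝ),
    dot f (KR f) + dot f (KC f) ≤ dot (KR f) (KC f)

end Vale.Agent.H91.CT
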