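import Vale.Agent.H91.CT.Rel
import Vale.Agent.H12.MixCore
import Vale.Agent.H88.CT.Mix

/-!
P328 row R9a: the heat-bath kernels are symmetric and stochastic, and their Dirichlet forms
are the sums of squares of the complementary projections.
-/

namespace Vale.Agent.H91.CT

open Finset Vale.Agent.H90 Vale.Agent.H88.CT

variable {m n : ℕ} {r : Fin m → ℕ} {c : Fin n → ℕ}

section hb

variable (rel : Omega r c → Omega r c → Prop) [DecidableRel rel]

theorem hb_nonneg (X Y : Omega r c) : 0 ≤ hb rel X Y :=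
  hbG_nonneg rel X Y

theorem hb_symm (h : Equivalence rel) (X Y : Omega r c) : hb rel X Y = hb rel Y X :=
  hbG_symm h X Y

theorem hb_row (h : Equivalence rel) (X : Omega r c) : ∑ Y, hb rel X Y = 1 :=
  hbG_row h X

/-- The Dirichlet form of a heat-bath kernel is the sum of squares of the complementary
projection (variance identity inside every class). -/
theorem hb_dirichlet (h : Equivalence rel) (f : Omega r c → ℝ) :
    (1 / 2 : ℝ) * ∑ X, ∑ Y, hb rel X Y * (f X - f Y) ^ 2
      = ∑ X, (f X - avgRel rel f X) ^ 2 := by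
  rw [Vale.Agent.H12.MixCore.dirichlet_eq (hb rel) (hb_symm rel h) (hb_row rel h) f]
  have e1 : ∀ X, (hb rel).mulVec f X = avgRel rel f X := by
    intro X
    exact hbG_mulVec (rel := rel) f X
  simp only [e1]
  have e2 := dot_Qrel_self h f
  unfold dot Qrel at e2
  simp only [Pi.sub_apply] at e2
  rw [← Finset.sum_sub_distrib]
  calc ∑ X, (f X ^ 2 - f X * avgRel rel f X)
      = ∑ X, f X * (f X - avgRel rel f X) := Finset.sum_congr rfl (fun X _ => by ring)
    _ = ∑ X, (f X - avgRel rel f X) * (f X - avgRel rel f X) := e2.symm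
    _ = ∑ X, (f X - avgRel rel f X) ^ 2 := Finset.sum_congr rfl (fun X _ => by ring)

end hb

section functionals

/-- The Dirichlet form of a kernel, as a functional of the kernel. -/
noncomputable def dirF (f : Omega r c → ℝ) (K : Matrix (Omega r c) (Omega r c) ℝ) : ℝ :=
  (1 / 2 : ℝ) * ∑ X, ∑ Y, K X Y * (f X - f Y) ^ 2

theorem dirF_zero (f : Omega r c → ℝ) : dirF f 0 = 0 := by
  unfold dirF
  simp

theorem dirF_add (f : Omega r c → ℝ) (K L : Matrix (Omega r c) (Omega r c) ℝ) :
    dirF f (K + L) = dirF f K + dirF f L := by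
  unfold dirF
  simp only [Matrix.add_apply, add_mul, Finset.sum_add_distrib]
  ring

theorem dirF_smul (f : Omega r c → ℝ) (w : ℝ) (K : Matrix (Omega r c) (Omega r c) ℝ) :
    dirF f (w • K) = w * dirF f K := by
  unfold dirF
  have h1 : ∀ X, ∑ Y, (w • K) X Y * (f X - f Y) ^ 2 = w * ∑ Y, K X Y * (f X - f Y) ^ 2 := by
    intro X
    rw [Finset.mul_sum]
    refine Finset.sum_congr rfl (fun Y _ => ?_)
    rw [Matrix.smul_apply, smul_eq_mul]
    ring
  simp only [h1]
  rw [← Finset.mul_sum]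
  ring

theorem dirF_sum {ι : Type*} (f : Omega r c → ℝ) (s : Finset ι)
    (K : ι → Matrix (Omega r c) (Omega r c) ℝ) :
    dirF f (∑ i ∈ s, K i) = ∑ i ∈ s, dirF f (K i) := by
  classical
  induction s using Finset.induction_on with
  | empty => simp [dirF_zero]
  | insert a s ha ih => rw [Finset.sum_insert ha, Finset.sum_insert ha, dirF_add, ih]

theorem dirF_ite (f : Omega r c → ℝ) (p : Prop) [Decidable p]
    (K : Matrix (Omega r c) (Omega r c) ℝ) :
    dirF f (if p then K else 0) = if p then dirF f K else 0 := by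
  split_ifs
  · rfl
  · exact dirF_zero f

/-- Entries of a scaled nested sum of kernels over ordered pairs. -/
theorem pair_apply (w : ℝ) (K : Fin m → Fin m → Matrix (Omega r c) (Omega r c) ℝ)
    (X Y : Omega r c) :
    (w • ∑ i : Fin m, ∑ j : Fin m, if i ≠ j then K i j else 0) X Y
      = w * ∑ i : Fin m, ∑ j : Fin m, if i ≠ j then K i j X Y else 0 := by
  rw [Matrix.smul_apply, smul_eq_mul]
  congr 1
  simp only [Matrix.sum_apply]
  refine Finset.sum_congr rfl (fun i _ => Finset.sum_congr rfl (fun j _ => ?_))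
  split_ifs
  · rfl
  · rfl

theorem quad_apply (w : ℝ)
    (K : Fin m → Fin m → Fin n → Fin n → Matrix (Omega r c) (Omega r c) ℝ)
    (X Y : Omega r c) :
    (w • ∑ i : Fin m, ∑ j : Fin m, ∑ a : Fin n, ∑ b : Fin n,
        if i ≠ j ∧ a ≠ b then K i j a b else 0) X Y
      = w * ∑ i : Fin m, ∑ j : Fin m, ∑ a : Fin n, ∑ b : Fin n,
          if i ≠ j ∧ a ≠ b then K i j a b X Y else 0 := by
  rw [Matrix.smul_apply, smul_eq_mul]
  congr 1
  simp only [Matrix.sum_apply]
  refine Finset.sum_congr rfl (fun i _ => Finset.sum_congr rfl (fun j _ =>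
    Finset.sum_congr rfl (fun a _ => Finset.sum_congr rfl (fun b _ => ?_))))
  split_ifs
  · rfl
  · rfl

/-- The number of ordered pairs of distinct elements of `Fin k`. -/
theorem count_ne (k : ℕ) :
    ∑ a : Fin k, ∑ b : Fin k, (if a ≠ b then (1 : ℝ) else 0) = (k : ℝ) * ((k : ℝ) - 1) := by
  have h1 : ∀ a : Fin k, ∑ b : Fin k, (if a ≠ b then (1 : ℝ) else 0) = (k : ℝ) - 1 := by
    intro a
    have h2 : ∀ b : Fin k, (if a ≠ b then (1 : ℝ) else 0) = 1 - (if a = b then (1 : ℝ) else 0) := by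
      intro b
      by_cases hab : a = b
      · rw [if_neg (not_not.mpr hab), if_pos hab, sub_self]
      · rw [if_pos hab, if_neg hab, sub_zero]
    simp only [h2]
    rw [Finset.sum_sub_distrib, Finset.sum_ite_eq, if_pos (Finset.mem_univ a), Finset.sum_const,
      Finset.card_univ, Fintype.card_fin, nsmul_eq_mul, mul_one]
  simp only [h1]
  rw [Finset.sum_const, Finset.card_univ, Fintype.card_fin, nsmul_eq_mul]

theorem count_quad (m n : ℕ) :
    ∑ i : Fin m, ∑ j : Fin m, ∑ a : Fin n, ∑ b : Fin n,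
        (if i ≠ j ∧ a ≠ b then (1 : ℝ) else 0)
      = (m : ℝ) * ((m : ℝ) - 1) * ((n : ℝ) * ((n : ℝ) - 1)) := by
  have hsplit : ∀ (i j : Fin m) (a b : Fin n), (if i ≠ j ∧ a ≠ b then (1 : ℝ) else 0)
      = (if i ≠ j then (1 : ℝ) else 0) * (if a ≠ b then (1 : ℝ) else 0) := by
    intro i j a b
    by_cases h1 : i ≠ j
    · by_cases h2 : a ≠ b
      · rw [if_pos ⟨h1, h2⟩, if_pos h1, if_pos h2, mul_one]
      · rw [if_neg (fun h => h2 h.2), if_neg h2, mul_zero]
    · rw [if_neg (fun h => h1 h.1), if_neg h1, zero_mul]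
  simp only [hsplit]
  have h3 : ∀ i j : Fin m, ∑ a : Fin n, ∑ b : Fin n,
      (if i ≠ j then (1 : ℝ) else 0) * (if a ≠ b then (1 : ℝ) else 0)
      = (if i ≠ j then (1 : ℝ) else 0) * ((n : ℝ) * ((n : ℝ) - 1)) := by
    intro i j
    rw [← count_ne n, Finset.mul_sum]
    refine Finset.sum_congr rfl (fun a _ => ?_)
    rw [Finset.mul_sum]
  simp only [h3]
  rw [← count_ne m, Finset.sum_mul]
  refine Finset.sum_congr rfl (fun i _ => ?_)
  rw [Finset.sum_mul]

theorem pair_weight_nonneg (k : ℕ) : 0 ≤ (k : ℝ) * ((k : ℝ) - 1) := by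
  rcases k with _ | k
  · simp
  · have h : (0 : ℝ) ≤ (k : ℝ) := Nat.cast_nonneg k
    push_cast
    nlinarith

theorem pair_weight_pos (k : ℕ) (hk : 2 ≤ k) : 0 < (k : ℝ) * ((k : ℝ) - 1) := by
  have h : (2 : ℝ) ≤ (k : ℝ) := by exact_mod_cast hk
  nlinarith

end functionals

theorem blockChain_apply (X Y : Omega r c) :
    blockChain r c X Y = (1 / ((m : ℝ) * (m - 1) * ((n : ℝ) * (n - 1)))) *
      ∑ i : Fin m, ∑ j : Fin m, ∑ a : Fin n, ∑ b : Fin n,
        if i ≠ j ∧ a ≠ b then hb (BlockRel (r := r) (c := c) i j a b) X Y else 0 := by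
  unfold blockChain
  exact quad_apply _ (fun i j a b => hb (BlockRel (r := r) (c := c) i j a b)) X Y

theorem blockChain_nonneg (X Y : Omega r c) : 0 ≤ blockChain r c X Y := by
  rw [blockChain_apply]
  refine mul_nonneg ?_ ?_
  · exact div_nonneg zero_le_one (mul_nonneg (pair_weight_nonneg m) (pair_weight_nonneg n))
  · refine Finset.sum_nonneg (fun i _ => Finset.sum_nonneg (fun j _ =>
      Finset.sum_nonneg (fun a _ => Finset.sum_nonneg (fun b _ => ?_))))
    split_ifs
    · exact hb_nonneg _ X Y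
    · exact le_refl _

theorem blockChain_symm (X Y : Omega r c) : blockChain r c X Y = blockChain r c Y X := by
  rw [blockChain_apply, blockChain_apply]
  congr 1
  refine Finset.sum_congr rfl (fun i _ => Finset.sum_congr rfl (fun j _ =>
    Finset.sum_congr rfl (fun a _ => Finset.sum_congr rfl (fun b _ => ?_))))
  split_ifs
  · exact hb_symm _ (blockRel_equiv i j a b) X Y
  · rfl

theorem blockChain_row (hm : 2 ≤ m) (hn : 2 ≤ n) (X : Omega r c) :
    ∑ Y, blockChain r c X Y = 1 := by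
  simp only [blockChain_apply]
  rw [← Finset.mul_sum]
  have hswap : ∑ Y : Omega r c, ∑ i : Fin m, ∑ j : Fin m, ∑ a : Fin n, ∑ b : Fin n,
      (if i ≠ j ∧ a ≠ b then hb (BlockRel (r := r) (c := c) i j a b) X Y else 0)
      = ∑ i : Fin m, ∑ j : Fin m, ∑ a : Fin n, ∑ b : Fin n,
        (if i ≠ j ∧ a ≠ b then (1 : ℝ) else 0) := by
    rw [Finset.sum_comm]
    refine Finset.sum_congr rfl (fun i _ => ?_)
    rw [Finset.sum_comm]
    refine Finset.sum_congr rfl (fun j _ => ?_)
    rw [Finset.sum_comm]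
    refine Finset.sum_congr rfl (fun a _ => ?_)
    rw [Finset.sum_comm]
    refine Finset.sum_congr rfl (fun b _ => ?_)
    split_ifs
    · exact hb_row _ (blockRel_equiv i j a b) X
    · simp
  rw [hswap, count_quad]
  have hpos : 0 < (m : ℝ) * ((m : ℝ) - 1) * ((n : ℝ) * ((n : ℝ) - 1)) :=
    mul_pos (pair_weight_pos m hm) (pair_weight_pos n hn)
  exact one_div_mul_cancel (ne_of_gt hpos)

theorem blockChain_dirichlet (f : Omega r c → ℝ) :
    (1 / 2 : ℝ) * ∑ X, ∑ Y, blockChain r c X Y * (f X - f Y) ^ 2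
      = (1 / ((m : ℝ) * (m - 1) * ((n : ℝ) * (n - 1)))) *
        ∑ i : Fin m, ∑ j : Fin m, ∑ a : Fin n, ∑ b : Fin n,
          if i ≠ j ∧ a ≠ b then ∑ X, (f X - avgRel (BlockRel i j a b) f X) ^ 2 else 0 := by
  change dirF f (blockChain r c) = _
  unfold blockChain
  rw [dirF_smul]
  congr 1
  rw [dirF_sum]
  refine Finset.sum_congr rfl (fun i _ => ?_)
  rw [dirF_sum]
  refine Finset.sum_congr rfl (fun j _ => ?_)
  rw [dirF_sum]
  refine Finset.sum_congr rfl (fun a _ => ?_)
  rw [dirF_sum]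
  refine Finset.sum_congr rfl (fun b _ => ?_)
  rw [dirF_ite]
  split_ifs
  · exact hb_dirichlet _ (blockRel_equiv i j a b) f
  · rfl

theorem rowPairChain_dirichlet (f : Omega r c → ℝ) :
    (1 / 2 : ℝ) * ∑ X, ∑ Y, rowPairChain r c X Y * (f X - f Y) ^ 2
      = (1 / ((m : ℝ) * (m - 1))) *
        ∑ i : Fin m, ∑ j : Fin m,
          if i ≠ j then ∑ X, (f X - avgRel (RowRel i j) f X) ^ 2 else 0 := by
  change dirF f (rowPairChain r c) = _
  unfold rowPairChain
  rw [dirF_smul]
  congr 1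
  rw [dirF_sum]
  refine Finset.sum_congr rfl (fun i _ => ?_)
  rw [dirF_sum]
  refine Finset.sum_congr rfl (fun j _ => ?_)
  rw [dirF_ite]
  split_ifs
  · exact hb_dirichlet _ (rowRel_equiv i j) f
  · rfl

end Vale.Agent.H91.CT
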