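import Vale.Agent.H91.CT.Rel

/-!
P328 row R4a: connectivity.  Unit `2 x 2` moves connect every block class and every two-row
fibre (`ConnAll.lean`: every two-column fibre and every class `Omega r c`).

Paper proof of `all_conn`: induction on `∑ |X k l - Y k l|`.  If `X ≠ Y` pick `(i, a)` with
`X i a > Y i a`; the row sums give `b` with `X i b < Y i b`, the column sums give `j` with
`X j a < Y j a`.  Then `Y' := Y + e_ia + e_jb - e_ib - e_ja` is a table (`Y i b ≥ 1`,
`Y j a ≥ 1`), `Move i j a b Y Y'`, and `Y'` is closer to `X` by at least `2`.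
For `row_conn` the same inside the two rows (`j` is forced); for `block_conn` inside the block.

This file is self-contained (it uses none of the stubs of `Rel.lean`).  Reusable pieces:
`connTab X i j a b` (the table `X + e_ia + e_jb - e_ib - e_ja`) and `connTab_move`.
-/

namespace Vale.Agent.H91.CT

open Finset Vale.Agent.H90 Vale.Agent.H88.CT

variable {m n : ℕ} {r : Fin m → ℕ} {c : Fin n → ℕ}

section aux

variable {ι : Type*} [Fintype ι] [DecidableEq ι]

theorem conn_sum_split (a b : ι) (hab : a ≠ b) (f : ι → ℕ) :
    (∑ l, f l) = f a + f b + ∑ l ∈ (univ.erase a).erase b, f l := by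
  rw [← Finset.add_sum_erase univ f (mem_univ a),
    ← Finset.add_sum_erase (univ.erase a) f (by simp [hab.symm] : b ∈ univ.erase a)]
  ring

theorem conn_rest_eq (a b : ι) (f g : ι → ℕ) (h : ∀ l, l ≠ a → l ≠ b → f l = g l) :
    (∑ l ∈ (univ.erase a).erase b, f l) = ∑ l ∈ (univ.erase a).erase b, g l := by
  apply Finset.sum_congr rfl
  intro l hl
  simp only [mem_erase, mem_univ, and_true] at hl
  exact h l hl.2 hl.1

/-- Two functions that agree off `a, b` and have the same sum on `a, b` have the same sum. -/
theorem conn_sum_eq (a b : ι) (hab : a ≠ b) (f g : ι → ℕ)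
    (h : ∀ l, l ≠ a → l ≠ b → f l = g l) (hs : f a + f b = g a + g b) :
    (∑ l, f l) = ∑ l, g l := by
  rw [conn_sum_split a b hab f, conn_sum_split a b hab g, conn_rest_eq a b f g h, hs]

/-- Two functions that agree off `a, b` and have the same sum have the same sum on `a, b`. -/
theorem conn_two_eq (a b : ι) (hab : a ≠ b) (f g : ι → ℕ)
    (h : ∀ l, l ≠ a → l ≠ b → f l = g l) (hs : (∑ l, f l) = ∑ l, g l) :
    f a + f b = g a + g b := by
  rw [conn_sum_split a b hab f, conn_sum_split a b hab g, conn_rest_eq a b f g h] at hs
  omega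

end aux

/-- The matrix `X + e_ia + e_jb - e_ib - e_ja` (truncated subtraction). -/
def connFun (X : Fin m → Fin n → ℕ) (i j : Fin m) (a b : Fin n) : Fin m → Fin n → ℕ :=
  fun k l =>
    if k = i then (if l = a then X k l + 1 else if l = b then X k l - 1 else X k l)
    else if k = j then (if l = b then X k l + 1 else if l = a then X k l - 1 else X k l)
    else X k l

theorem connFun_ia (X : Fin m → Fin n → ℕ) (i j : Fin m) (a b : Fin n) :
    connFun X i j a b i a = X i a + 1 := by
  simp [connFun]

theorem connFun_ib (X : Fin m → Fin n → ℕ) (i j : Fin m) (a b : Fin n) (hab : a ≠ b) :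
    connFun X i j a b i b = X i b - 1 := by
  simp [connFun, hab.symm]

theorem connFun_ja (X : Fin m → Fin n → ℕ) (i j : Fin m) (a b : Fin n) (hij : i ≠ j)
    (hab : a ≠ b) : connFun X i j a b j a = X j a - 1 := by
  simp [connFun, hij.symm, hab]

theorem connFun_jb (X : Fin m → Fin n → ℕ) (i j : Fin m) (a b : Fin n) (hij : i ≠ j) :
    connFun X i j a b j b = X j b + 1 := by
  simp [connFun, hij.symm]

theorem connFun_row (X : Fin m → Fin n → ℕ) (i j : Fin m) (a b : Fin n) (k : Fin m)
    (hki : k ≠ i) (hkj : k ≠ j) (l : Fin n) : connFun X i j a b k l = X k l := by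
  simp [connFun, hki, hkj]

theorem connFun_col (X : Fin m → Fin n → ℕ) (i j : Fin m) (a b : Fin n) (l : Fin n)
    (hla : l ≠ a) (hlb : l ≠ b) (k : Fin m) : connFun X i j a b k l = X k l := by
  simp only [connFun, hla, hlb, if_false]
  split_ifs <;> rfl

/-- The table `X + e_ia + e_jb - e_ib - e_ja`, for `X i b ≥ 1` and `X j a ≥ 1`. -/
def connTab (X : Omega r c) (i j : Fin m) (a b : Fin n) (hij : i ≠ j) (hab : a ≠ b)
    (h1 : 1 ≤ X.1 i b) (h2 : 1 ≤ X.1 j a) : Omega r c :=
  Subtype.mk (connFun X.1 i j a b) (by
    constructor
    · intro k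
      rw [← X.2.1 k]
      by_cases hki : k = i
      · subst hki
        apply conn_sum_eq a b hab
        · intro l hla hlb
          exact connFun_col X.1 k j a b l hla hlb k
        · rw [connFun_ia, connFun_ib _ _ _ _ _ hab]
          omega
      · by_cases hkj : k = j
        · subst hkj
          apply conn_sum_eq a b hab
          · intro l hla hlb
            exact connFun_col X.1 i k a b l hla hlb k
          · rw [connFun_ja _ _ _ _ _ hij hab, connFun_jb _ _ _ _ _ hij]
            omega
        · apply Finset.sum_congr rfl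
          intro l _
          exact connFun_row X.1 i j a b k hki hkj l
    · intro l
      rw [← X.2.2 l]
      by_cases hla : l = a
      · subst hla
        apply conn_sum_eq i j hij (fun k => connFun X.1 i j l b k l) (fun k => X.1 k l)
        · intro k hki hkj
          exact connFun_row X.1 i j l b k hki hkj l
        · show connFun X.1 i j l b i l + connFun X.1 i j l b j l = X.1 i l + X.1 j l
          rw [connFun_ia, connFun_ja _ _ _ _ _ hij hab]
          omega
      · by_cases hlb : l = b
        · subst hlb
          apply conn_sum_eq i j hij (fun k => connFun X.1 i j a l k l) (fun k => X.1 k l)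
          · intro k hki hkj
            exact connFun_row X.1 i j a l k hki hkj l
          · show connFun X.1 i j a l i l + connFun X.1 i j a l j l = X.1 i l + X.1 j l
            rw [connFun_ib _ _ _ _ _ hab, connFun_jb _ _ _ _ _ hij]
            omega
        · apply Finset.sum_congr rfl
          intro k _
          exact connFun_col X.1 i j a b l hla hlb k)

/-- `connTab X i j a b` is obtained from `X` by the unit move `Move i j a b`. -/
theorem connTab_move (X : Omega r c) (i j : Fin m) (a b : Fin n) (hij : i ≠ j) (hab : a ≠ b)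
    (h1 : 1 ≤ X.1 i b) (h2 : 1 ≤ X.1 j a) :
    Move i j a b X (connTab X i j a b hij hab h1 h2) := by
  refine ⟨?_, ?_, ?_, ?_, ?_⟩
  · intro k l hkl
    show X.1 k l = connFun X.1 i j a b k l
    by_cases hk : k = i ∨ k = j
    · have hl : ¬ (l = a ∨ l = b) := fun h => hkl ⟨hk, h⟩
      push Not at hl
      exact (connFun_col X.1 i j a b l hl.1 hl.2 k).symm
    · push Not at hk
      exact (connFun_row X.1 i j a b k hk.1 hk.2 l).symm
  · exact connFun_ia X.1 i j a b
  · exact connFun_jb X.1 i j a b hij
  · show X.1 i b = connFun X.1 i j a b i b + 1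
    rw [connFun_ib _ _ _ _ _ hab]
    omega
  · show X.1 j a = connFun X.1 i j a b j a + 1
    rw [connFun_ja _ _ _ _ _ hij hab]
    omega

/-- The four margin equations of a block fibre. -/
theorem blockRel_eqs (i j : Fin m) (hij : i ≠ j) (a b : Fin n) (hab : a ≠ b)
    (X Y : Omega r c) (h : BlockRel i j a b X Y) :
    X.1 i a + X.1 i b = Y.1 i a + Y.1 i b ∧ X.1 j a + X.1 j b = Y.1 j a + Y.1 j b ∧
      X.1 i a + X.1 j a = Y.1 i a + Y.1 j a ∧ X.1 i b + X.1 j b = Y.1 i b + Y.1 j b := by
  refine ⟨?_, ?_, ?_, ?_⟩
  · exact conn_two_eq a b hab (X.1 i) (Y.1 i)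
      (fun l hla hlb => h i l (fun hh => hh.2.elim hla hlb)) (by rw [X.2.1 i, Y.2.1 i])
  · exact conn_two_eq a b hab (X.1 j) (Y.1 j)
      (fun l hla hlb => h j l (fun hh => hh.2.elim hla hlb)) (by rw [X.2.1 j, Y.2.1 j])
  · exact conn_two_eq i j hij (fun k => X.1 k a) (fun k => Y.1 k a)
      (fun k hki hkj => h k a (fun hh => hh.1.elim hki hkj)) (by rw [X.2.2 a, Y.2.2 a])
  · exact conn_two_eq i j hij (fun k => X.1 k b) (fun k => Y.1 k b)
      (fun k hki hkj => h k b (fun hh => hh.1.elim hki hkj)) (by rw [X.2.2 b, Y.2.2 b])

theorem block_conn_aux {α : Type*} (i j : Fin m) (hij : i ≠ j) (a b : Fin n) (hab : a ≠ b)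
    (g : Omega r c → α) (hg : ∀ X Y : Omega r c, Move i j a b X Y → g X = g Y) :
    ∀ (d : ℕ) (X Y : Omega r c), BlockRel i j a b X Y → Y.1 i a = X.1 i a + d → g X = g Y := by
  intro d
  induction d with
  | zero =>
    intro X Y hXY hd
    obtain ⟨e1, e2, e3, e4⟩ := blockRel_eqs i j hij a b hab X Y hXY
    have hXYeq : X = Y := by
      apply Subtype.ext
      funext k l
      by_cases hkl : (k = i ∨ k = j) ∧ (l = a ∨ l = b)
      · rcases hkl with ⟨rfl | rfl, rfl | rfl⟩ <;> omega
      · exact hXY k l hkl
    rw [hXYeq]
  | succ d ih =>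
    intro X Y hXY hd
    obtain ⟨e1, e2, e3, e4⟩ := blockRel_eqs i j hij a b hab X Y hXY
    have h1 : 1 ≤ X.1 i b := by omega
    have h2 : 1 ≤ X.1 j a := by omega
    have hm := connTab_move X i j a b hij hab h1 h2
    rw [hg X _ hm]
    apply ih
    · intro k l hkl
      rw [← hXY k l hkl]
      exact (hm.1 k l hkl).symm
    · rw [hm.2.1]
      omega

theorem block_conn {α : Type*} (i j : Fin m) (hij : i ≠ j) (a b : Fin n) (hab : a ≠ b)
    (g : Omega r c → α) (hg : ∀ X Y : Omega r c, Move i j a b X Y → g X = g Y) :
    ∀ X Y : Omega r c, BlockRel i j a b X Y → g X = g Y := by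
  intro X Y hXY
  rcases le_total (X.1 i a) (Y.1 i a) with h | h
  · exact block_conn_aux i j hij a b hab g hg (Y.1 i a - X.1 i a) X Y hXY (by omega)
  · exact (block_conn_aux i j hij a b hab g hg (X.1 i a - Y.1 i a) Y X
      (fun k l hkl => (hXY k l hkl).symm) (by omega)).symm

theorem row_conn {α : Type*} (i j : Fin m) (hij : i ≠ j) (g : Omega r c → α)
    (hg : ∀ (a b : Fin n) (X Y : Omega r c), Move i j a b X Y → g X = g Y) :
    ∀ X Y : Omega r c, RowRel i j X Y → g X = g Y := by
  have key : ∀ (d : ℕ) (X Y : Omega r c), RowRel i j X Y →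
      (∑ l, (X.1 i l - Y.1 i l)) = d → g X = g Y := by
    intro d
    induction d using Nat.strong_induction_on with
    | _ d ih =>
      intro X Y hXY hd
      have hcol : ∀ l, X.1 i l + X.1 j l = Y.1 i l + Y.1 j l := fun l =>
        conn_two_eq i j hij (fun k => X.1 k l) (fun k => Y.1 k l)
          (fun k hki hkj => congrFun (hXY k hki hkj) l) (by rw [X.2.2 l, Y.2.2 l])
      have hsum : (∑ l, X.1 i l) = ∑ l, Y.1 i l := by rw [X.2.1 i, Y.2.1 i]
      by_cases hle : ∀ l, X.1 i l ≤ Y.1 i l
      · have hrow : ∀ l, X.1 i l = Y.1 i l := by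
          have h0 := (Finset.sum_eq_sum_iff_of_le (fun l _ => hle l)).1 hsum
          intro l
          exact h0 l (mem_univ l)
        have hXYeq : X = Y := by
          apply Subtype.ext
          funext k l
          by_cases hki : k = i
          · subst hki
            exact hrow l
          · by_cases hkj : k = j
            · subst hkj
              have h3 := hcol l
              have h4 := hrow l
              omega
            · exact congrFun (hXY k hki hkj) l
        rw [hXYeq]
      · push Not at hle
        obtain ⟨a, ha⟩ := hle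
        have hex : ∃ b, X.1 i b < Y.1 i b := by
          by_contra hcon
          push Not at hcon
          have h0 := (Finset.sum_eq_sum_iff_of_le (fun l _ => hcon l)).1 hsum.symm
          have h5 := h0 a (mem_univ a)
          omega
        obtain ⟨b, hb⟩ := hex
        have hab : a ≠ b := by
          rintro rfl
          omega
        have h1 : 1 ≤ X.1 i a := by omega
        have h2 : 1 ≤ X.1 j b := by
          have h3 := hcol b
          omega
        have hm := connTab_move X i j b a hij hab.symm h1 h2
        rw [hg b a X _ hm]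
        refine ih _ ?_ _ Y ?_ rfl
        · rw [← hd]
          apply Finset.sum_lt_sum
          · intro l _
            by_cases hla : l = a
            · subst hla
              have h6 := hm.2.2.2.1
              omega
            · by_cases hlb : l = b
              · subst hlb
                have h6 := hm.2.1
                omega
              · have h6 := hm.1 i l (fun hh => hh.2.elim hlb hla)
                omega
          · refine ⟨a, mem_univ a, ?_⟩
            have h6 := hm.2.2.2.1
            omega
        · intro k hki hkj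
          funext l
          rw [← congrFun (hXY k hki hkj) l]
          exact (hm.1 k l (fun hh => hh.1.elim hki hkj)).symm
  intro X Y hXY
  exact key _ X Y hXY rfl

end Vale.Agent.H91.CT
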