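import Vale.Agent.H91.CT.Conn
import Vale.Agent.H69.CT.Conn

/-!
P328 row R4b: connectivity.  Unit 2 x 2 moves connect every two-column fibre and every
class Omega r c.

Proof of all_conn: a function invariant under all unit moves is invariant under every row-pair
relation (row_conn, Conn.lean), hence constant (Vale.Agent.H69.CT.rowRel_inv_const).
Proof of col_conn: induction on the L1 distance D X Y (Vale.Agent.H69.CT.D).  If X ≠ Y,
Vale.Agent.H69.CT.exists_step gives rows i, j and columns u, v with X i u > Y i u,
X j u < Y j u, X j v > Y j v such that the switched table sw X i j u v is closer to Y; inside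
a two-column fibre u and v are the two columns of the fibre, the switch is a unit move in
these two columns (sw_move1 / sw_move2), and the switched table stays in the fibre.
-/

namespace Vale.Agent.H91.CT

open Finset Vale.Agent.H90 Vale.Agent.H88.CT

variable {m n : ℕ} {r : Fin m → ℕ} {c : Fin n → ℕ}

namespace ConnAllAux

open Vale.Agent.H69.CT

theorem swFun_ia (X : Fin m → Fin n → ℕ) (i j : Fin m) (a b : Fin n) :
    swFun X i j a b i a = X i a - 1 := by
  simp [swFun]

theorem swFun_jb (X : Fin m → Fin n → ℕ) (i j : Fin m) (a b : Fin n) (hij : i ≠ j) :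
    swFun X i j a b j b = X j b - 1 := by
  simp [swFun, hij.symm]

theorem swFun_ib (X : Fin m → Fin n → ℕ) (i j : Fin m) (a b : Fin n) (hij : i ≠ j)
    (hab : a ≠ b) : swFun X i j a b i b = X i b + 1 := by
  simp [swFun, hij, hab.symm]

theorem swFun_ja (X : Fin m → Fin n → ℕ) (i j : Fin m) (a b : Fin n) (hij : i ≠ j)
    (hab : a ≠ b) : swFun X i j a b j a = X j a + 1 := by
  simp [swFun, hij.symm, hab]

/-- The switch of helper69 is a unit move in rows j, i and columns a, b. -/
theorem sw_move1 (X : Omega r c) (i j : Fin m) (a b : Fin n) (hij : i ≠ j) (hab : a ≠ b)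
    (h1 : 1 ≤ X.1 i a) (h2 : 1 ≤ X.1 j b) :
    Move j i a b X (sw X i j a b hij hab h1 h2) := by
  refine ⟨?_, ?_, ?_, ?_, ?_⟩
  · intro k l hkl
    exact (sw_of_not X i j a b hij hab h1 h2 k l (fun hh => hkl ⟨hh.1.symm, hh.2⟩)).symm
  · exact swFun_ja X.1 i j a b hij hab
  · exact swFun_ib X.1 i j a b hij hab
  · show X.1 j b = swFun X.1 i j a b j b + 1
    rw [swFun_jb X.1 i j a b hij]; omega
  · show X.1 i a = swFun X.1 i j a b i a + 1
    rw [swFun_ia]; omega

/-- The switch of helper69 is a unit move in rows i, j and columns b, a. -/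
theorem sw_move2 (X : Omega r c) (i j : Fin m) (a b : Fin n) (hij : i ≠ j) (hab : a ≠ b)
    (h1 : 1 ≤ X.1 i a) (h2 : 1 ≤ X.1 j b) :
    Move i j b a X (sw X i j a b hij hab h1 h2) := by
  refine ⟨?_, ?_, ?_, ?_, ?_⟩
  · intro k l hkl
    exact (sw_of_not X i j a b hij hab h1 h2 k l (fun hh => hkl ⟨hh.1, hh.2.symm⟩)).symm
  · exact swFun_ib X.1 i j a b hij hab
  · exact swFun_ja X.1 i j a b hij hab
  · show X.1 i a = swFun X.1 i j a b i a + 1
    rw [swFun_ia]; omega
  · show X.1 j b = swFun X.1 i j a b j b + 1
    rw [swFun_jb X.1 i j a b hij]; omega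

end ConnAllAux

theorem col_conn {α : Type*} (a b : Fin n) (hab : a ≠ b) (g : Omega r c → α)
    (hg : ∀ (i j : Fin m) (X Y : Omega r c), Move i j a b X Y → g X = g Y) :
    ∀ X Y : Omega r c, ColRel a b X Y → g X = g Y := by
  intro X Y
  induction' hN : Vale.Agent.H69.CT.D X Y using Nat.strong_induction_on with N ih generalizing X
  intro hC
  by_cases hXY : X = Y
  · rw [hXY]
  · obtain ⟨i', j', a', b', hij', hab', h1, h2, ha, hb, hc, hlt⟩ :=
      Vale.Agent.H69.CT.exists_step X Y hXY
    have ha' : a' = a ∨ a' = b := by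
      by_contra hcon
      have hcon1 : a' ≠ a := fun h => hcon (Or.inl h)
      have hcon2 : a' ≠ b := fun h => hcon (Or.inr h)
      have := hC i' a' hcon1 hcon2
      omega
    have hb' : b' = a ∨ b' = b := by
      by_contra hcon
      have hcon1 : b' ≠ a := fun h => hcon (Or.inl h)
      have hcon2 : b' ≠ b := fun h => hcon (Or.inr h)
      have := hC j' b' hcon1 hcon2
      omega
    have hZY : ColRel a b (Vale.Agent.H69.CT.sw X i' j' a' b' hij' hab' h1 h2) Y := by
      intro k l hla hlb
      rw [← hC k l hla hlb]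
      refine Vale.Agent.H69.CT.sw_of_not X i' j' a' b' hij' hab' h1 h2 k l (fun hh => ?_)
      rcases hh.2 with h | h
      · rcases ha' with h' | h'
        · exact hla (h.trans h')
        · exact hlb (h.trans h')
      · rcases hb' with h' | h'
        · exact hla (h.trans h')
        · exact hlb (h.trans h')
    have hgXZ : g X = g (Vale.Agent.H69.CT.sw X i' j' a' b' hij' hab' h1 h2) := by
      rcases ha' with h | h <;> rcases hb' with h' | h'
      · exact absurd (h.trans h'.symm) hab'
      · subst h; subst h'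
        exact hg j' i' X _ (ConnAllAux.sw_move1 X i' j' _ _ hij' hab' h1 h2)
      · subst h; subst h'
        exact hg i' j' X _ (ConnAllAux.sw_move2 X i' j' _ _ hij' hab' h1 h2)
      · exact absurd (h.trans h'.symm) hab'
    rw [hgXZ]
    exact ih _ (by rw [← hN]; exact hlt) _ rfl hZY

theorem all_conn {α : Type*} (g : Omega r c → α)
    (hg : ∀ (i j : Fin m) (a b : Fin n) (X Y : Omega r c), Move i j a b X Y → g X = g Y) :
    ∀ X Y : Omega r c, g X = g Y :=
  Vale.Agent.H69.CT.rowRel_inv_const g
    (fun i j hij X Y h => row_conn i j hij g (fun a b X Y h => hg i j a b X Y h) X Y h)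

end Vale.Agent.H91.CT
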