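import Vale.Agent.H86.CT.Block3
import Vale.Agent.H91.CT.Conn

/-!
P328 row R5: the cyclic inequality for the three 2 x 2 blocks of three columns in a row pair
(the one-dimensional three-site inequality).

Proof.  The one-dimensional three-column Poincare inequality inside a row pair,
Vale.Agent.H86.CT.block3_ineq (the variance of a function on a class of the 2 x 3 block
relation is at most the sum of its three mean conditional variances), is exactly the
hypothesis of Vale.Agent.H88.CT.cyclic_of_poincare with T = Block3Rel i j a b d and the three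
block relations (a,b), (b,d), (d,a).  So neither lip_step nor interval_coupling is needed here.
-/

namespace Vale.Agent.H91.CT

open Finset Vale.Agent.H90 Vale.Agent.H88.CT

variable {m n : ℕ} {r : Fin m → ℕ} {c : Fin n → ℕ}

theorem block_cyclic (i j : Fin m) (hij : i ≠ j) (a b d : Fin n) (hab : a ≠ b) (hbd : b ≠ d)
    (had : a ≠ d) (f : Omega r c → ℝ) :
    0 ≤ dot (Qrel (BlockRel i j a b) f) (Qrel (BlockRel i j b d) f)
      + dot (Qrel (BlockRel i j b d) f) (Qrel (BlockRel i j d a) f)
      + dot (Qrel (BlockRel i j d a) f) (Qrel (BlockRel i j a b) f) := by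
  refine cyclic_of_poincare (R1 := BlockRel (r := r) (c := c) i j a b)
    (R2 := BlockRel (r := r) (c := c) i j b d) (R3 := BlockRel (r := r) (c := c) i j d a)
    (T := Block3Rel (r := r) (c := c) i j a b d)
    (blockRel_equiv i j a b) (blockRel_equiv i j b d) (blockRel_equiv i j d a)
    (block3Rel_equiv i j a b d)
    (blockRel_le_block3_ab i j a b d) (blockRel_le_block3_bd i j a b d)
    (blockRel_le_block3_da i j a b d) ?_ f
  intro g
  have hg := Vale.Agent.H86.CT.block3_ineq (r := r) (c := c) i j hij a b d hab hbd had g
  rw [sum_sq_eq_dot, sum_sq_eq_dot, sum_sq_eq_dot, sum_sq_eq_dot] at hg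
  exact hg

end Vale.Agent.H91.CT
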