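import Vale.Agent.H91.CT.Rel

/-!
P328 row R1b: commutation squares of disjoint pairs (row pairs, column pairs, blocks in the
same two rows, blocks in the same two columns), and uniqueness.

Paper proof of `rowRel_sq`: `W` := rows `k, l` of `Z`, all other rows of `X`.  Row sums are
clear; column sums: `Y` and `Z` agree outside rows `k, l` and have the same column sums, so
the sums over the rows `k, l` agree (take sums over the finset `{k, l}` so that `k = l` needs
no separate case), and `X, Y` agree on the rows `k, l`.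

Formal proof: one mixing lemma (`SquaresAux.mix_margins`): if `X = Y` where a predicate `P` holds
and `Y = Z` where it fails, then the table equal to `Z` on `P` and to `X` off `P` satisfies
entrywise `W + Y = X + Z`, hence has the margins of the class.
-/

namespace Vale.Agent.H91.CT

open Finset Vale.Agent.H90 Vale.Agent.H88.CT

variable {m n : ℕ} {r : Fin m → ℕ} {c : Fin n → ℕ}

namespace SquaresAux

/-- Mixing two tables along a predicate: if `X = Y` where `P` holds and `Y = Z` where it fails,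
then the table equal to `Z` where `P` holds and to `X` elsewhere has the same margins. -/
theorem mix_margins (X Y Z : Omega r c) (P : Fin m → Fin n → Prop) [∀ q l, Decidable (P q l)]
    (h1 : ∀ q l, P q l → X.1 q l = Y.1 q l) (h2 : ∀ q l, ¬ P q l → Y.1 q l = Z.1 q l) :
    (∀ q, ∑ l, (if P q l then Z.1 q l else X.1 q l) = r q)
      ∧ (∀ l, ∑ q, (if P q l then Z.1 q l else X.1 q l) = c l) := by
  have key : ∀ q l, (if P q l then Z.1 q l else X.1 q l) + Y.1 q l = X.1 q l + Z.1 q l := by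
    intro q l
    by_cases hP : P q l
    · rw [if_pos hP, ← h1 q l hP]; ring
    · rw [if_neg hP, h2 q l hP]
  constructor
  · intro q
    have h : ∑ l, (if P q l then Z.1 q l else X.1 q l) + ∑ l, Y.1 q l
        = ∑ l, X.1 q l + ∑ l, Z.1 q l := by
      rw [← Finset.sum_add_distrib, ← Finset.sum_add_distrib]
      exact Finset.sum_congr rfl (fun l _ => key q l)
    rw [X.2.1 q, Y.2.1 q, Z.2.1 q] at h
    omega
  · intro l
    have h : ∑ q, (if P q l then Z.1 q l else X.1 q l) + ∑ q, Y.1 q l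
        = ∑ q, X.1 q l + ∑ q, Z.1 q l := by
      rw [← Finset.sum_add_distrib, ← Finset.sum_add_distrib]
      exact Finset.sum_congr rfl (fun q _ => key q l)
    rw [X.2.2 l, Y.2.2 l, Z.2.2 l] at h
    omega

/-- The mixed table. -/
def mix (X Y Z : Omega r c) (P : Fin m → Fin n → Prop) [∀ q l, Decidable (P q l)]
    (h1 : ∀ q l, P q l → X.1 q l = Y.1 q l) (h2 : ∀ q l, ¬ P q l → Y.1 q l = Z.1 q l) :
    Omega r c :=
  ⟨fun q l => if P q l then Z.1 q l else X.1 q l, mix_margins X Y Z P h1 h2⟩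

theorem mix_apply (X Y Z : Omega r c) (P : Fin m → Fin n → Prop) [∀ q l, Decidable (P q l)]
    (h1 : ∀ q l, P q l → X.1 q l = Y.1 q l) (h2 : ∀ q l, ¬ P q l → Y.1 q l = Z.1 q l)
    (q : Fin m) (l : Fin n) :
    (mix X Y Z P h1 h2).1 q l = if P q l then Z.1 q l else X.1 q l := rfl

theorem mix_pos (X Y Z : Omega r c) (P : Fin m → Fin n → Prop) [∀ q l, Decidable (P q l)]
    (h1 : ∀ q l, P q l → X.1 q l = Y.1 q l) (h2 : ∀ q l, ¬ P q l → Y.1 q l = Z.1 q l)
    (q : Fin m) (l : Fin n) (hP : P q l) : (mix X Y Z P h1 h2).1 q l = Z.1 q l := by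
  rw [mix_apply, if_pos hP]

theorem mix_neg (X Y Z : Omega r c) (P : Fin m → Fin n → Prop) [∀ q l, Decidable (P q l)]
    (h1 : ∀ q l, P q l → X.1 q l = Y.1 q l) (h2 : ∀ q l, ¬ P q l → Y.1 q l = Z.1 q l)
    (q : Fin m) (l : Fin n) (hP : ¬ P q l) : (mix X Y Z P h1 h2).1 q l = X.1 q l := by
  rw [mix_apply, if_neg hP]

end SquaresAux

open SquaresAux

/-- Commutation square of two disjoint row pairs. -/
theorem rowRel_sq (i j k l : Fin m) (hik : i ≠ k) (hil : i ≠ l) (hjk : j ≠ k) (hjl : j ≠ l)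
    (X Y Z : Omega r c) (h1 : RowRel i j X Y) (h2 : RowRel k l Y Z) :
    ∃ W : Omega r c, RowRel k l X W ∧ RowRel i j W Z := by
  have hA : ∀ q l', (q = k ∨ q = l) → X.1 q l' = Y.1 q l' := by
    intro q l' hP
    have : X.1 q = Y.1 q := by
      apply h1 q
      · rcases hP with rfl | rfl
        · exact hik.symm
        · exact hil.symm
      · rcases hP with rfl | rfl
        · exact hjk.symm
        · exact hjl.symm
    rw [this]
  have hB : ∀ q l', ¬ (q = k ∨ q = l) → Y.1 q l' = Z.1 q l' := by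
    intro q l' hP
    rw [not_or] at hP
    rw [h2 q hP.1 hP.2]
  refine ⟨mix X Y Z (fun q _ => q = k ∨ q = l) hA hB, ?_, ?_⟩
  · intro q hq1 hq2
    funext l'
    exact (mix_neg X Y Z (fun q _ => q = k ∨ q = l) hA hB q l' (not_or.2 ⟨hq1, hq2⟩)).symm
  · intro q hq1 hq2
    funext l'
    by_cases hP : q = k ∨ q = l
    · exact mix_pos X Y Z (fun q _ => q = k ∨ q = l) hA hB q l' hP
    · rw [mix_neg X Y Z (fun q _ => q = k ∨ q = l) hA hB q l' hP, h1 q hq1 hq2]
      exact hB q l' hP

theorem rowRel_uniq (i j k l : Fin m) (hik : i ≠ k) (hil : i ≠ l) (hjk : j ≠ k) (hjl : j ≠ l)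
    (X Y : Omega r c) (h1 : RowRel i j X Y) (h2 : RowRel k l X Y) : X = Y := by
  apply Subtype.ext
  funext q
  by_cases hq : q = i ∨ q = j
  · apply h2 q
    · rcases hq with rfl | rfl
      · exact hik
      · exact hjk
    · rcases hq with rfl | rfl
      · exact hil
      · exact hjl
  · rw [not_or] at hq
    exact h1 q hq.1 hq.2

/-- Commutation square of two disjoint column pairs. -/
theorem colRel_sq (a b k l : Fin n) (hak : a ≠ k) (hal : a ≠ l) (hbk : b ≠ k) (hbl : b ≠ l)
    (X Y Z : Omega r c) (h1 : ColRel a b X Y) (h2 : ColRel k l Y Z) :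
    ∃ W : Omega r c, ColRel k l X W ∧ ColRel a b W Z := by
  have hA : ∀ (q : Fin m) (l' : Fin n), (l' = k ∨ l' = l) → X.1 q l' = Y.1 q l' := by
    intro q l' hP
    apply h1 q l'
    · rcases hP with rfl | rfl
      · exact hak.symm
      · exact hal.symm
    · rcases hP with rfl | rfl
      · exact hbk.symm
      · exact hbl.symm
  have hB : ∀ (q : Fin m) (l' : Fin n), ¬ (l' = k ∨ l' = l) → Y.1 q l' = Z.1 q l' := by
    intro q l' hP
    rw [not_or] at hP
    exact h2 q l' hP.1 hP.2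
  refine ⟨mix X Y Z (fun _ l' => l' = k ∨ l' = l) hA hB, ?_, ?_⟩
  · intro q l' hq1 hq2
    exact (mix_neg X Y Z (fun _ l' => l' = k ∨ l' = l) hA hB q l' (not_or.2 ⟨hq1, hq2⟩)).symm
  · intro q l' hq1 hq2
    by_cases hP : l' = k ∨ l' = l
    · exact mix_pos X Y Z (fun _ l' => l' = k ∨ l' = l) hA hB q l' hP
    · rw [mix_neg X Y Z (fun _ l' => l' = k ∨ l' = l) hA hB q l' hP, h1 q l' hq1 hq2]
      exact hB q l' hP

theorem colRel_uniq (a b k l : Fin n) (hak : a ≠ k) (hal : a ≠ l) (hbk : b ≠ k) (hbl : b ≠ l)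
    (X Y : Omega r c) (h1 : ColRel a b X Y) (h2 : ColRel k l X Y) : X = Y := by
  apply Subtype.ext
  funext q l'
  by_cases hq : l' = a ∨ l' = b
  · apply h2 q l'
    · rcases hq with rfl | rfl
      · exact hak
      · exact hbk
    · rcases hq with rfl | rfl
      · exact hal
      · exact hbl
  · rw [not_or] at hq
    exact h1 q l' hq.1 hq.2

/-- Commutation square of two blocks in the same two rows with disjoint column pairs. -/
theorem blockRel_sq (i j : Fin m) (a b k l : Fin n) (hak : a ≠ k) (hal : a ≠ l) (hbk : b ≠ k)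
    (hbl : b ≠ l) (X Y Z : Omega r c) (h1 : BlockRel i j a b X Y) (h2 : BlockRel i j k l Y Z) :
    ∃ W : Omega r c, BlockRel i j k l X W ∧ BlockRel i j a b W Z := by
  have hA : ∀ (q : Fin m) (l' : Fin n), ((q = i ∨ q = j) ∧ (l' = k ∨ l' = l)) →
      X.1 q l' = Y.1 q l' := by
    intro q l' hP
    apply h1 q l'
    rintro ⟨-, h⟩
    rcases hP.2 with rfl | rfl <;> rcases h with h | h
    · exact hak h.symm
    · exact hbk h.symm
    · exact hal h.symm
    · exact hbl h.symm
  have hB : ∀ (q : Fin m) (l' : Fin n), ¬ ((q = i ∨ q = j) ∧ (l' = k ∨ l' = l)) →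
      Y.1 q l' = Z.1 q l' := fun q l' hP => h2 q l' hP
  refine ⟨mix X Y Z (fun q l' => (q = i ∨ q = j) ∧ (l' = k ∨ l' = l)) hA hB, ?_, ?_⟩
  · intro q l' hql
    exact (mix_neg X Y Z (fun q l' => (q = i ∨ q = j) ∧ (l' = k ∨ l' = l)) hA hB q l' hql).symm
  · intro q l' hql
    by_cases hP : (q = i ∨ q = j) ∧ (l' = k ∨ l' = l)
    · exact mix_pos X Y Z (fun q l' => (q = i ∨ q = j) ∧ (l' = k ∨ l' = l)) hA hB q l' hP
    · rw [mix_neg X Y Z (fun q l' => (q = i ∨ q = j) ∧ (l' = k ∨ l' = l)) hA hB q l' hP,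
        h1 q l' hql]
      exact hB q l' hP

theorem blockRel_uniq (i j : Fin m) (a b k l : Fin n) (hak : a ≠ k) (hal : a ≠ l) (hbk : b ≠ k)
    (hbl : b ≠ l) (X Y : Omega r c) (h1 : BlockRel i j a b X Y) (h2 : BlockRel i j k l X Y) :
    X = Y := by
  apply Subtype.ext
  funext q l'
  by_cases hl : l' = a ∨ l' = b
  · apply h2 q l'
    rintro ⟨-, h⟩
    rcases hl with rfl | rfl <;> rcases h with h | h
    · exact hak h
    · exact hal h
    · exact hbk h
    · exact hbl h
  · apply h1 q l'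
    rintro ⟨-, h⟩
    exact hl h

/-- Commutation square of two blocks in the same two columns with disjoint row pairs. -/
theorem blockRel_sq' (a b : Fin n) (i j k l : Fin m) (hik : i ≠ k) (hil : i ≠ l) (hjk : j ≠ k)
    (hjl : j ≠ l) (X Y Z : Omega r c) (h1 : BlockRel i j a b X Y) (h2 : BlockRel k l a b Y Z) :
    ∃ W : Omega r c, BlockRel k l a b X W ∧ BlockRel i j a b W Z := by
  have hA : ∀ (q : Fin m) (l' : Fin n), ((q = k ∨ q = l) ∧ (l' = a ∨ l' = b)) →
      X.1 q l' = Y.1 q l' := by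
    intro q l' hP
    apply h1 q l'
    rintro ⟨h, -⟩
    rcases hP.1 with rfl | rfl <;> rcases h with h | h
    · exact hik h.symm
    · exact hjk h.symm
    · exact hil h.symm
    · exact hjl h.symm
  have hB : ∀ (q : Fin m) (l' : Fin n), ¬ ((q = k ∨ q = l) ∧ (l' = a ∨ l' = b)) →
      Y.1 q l' = Z.1 q l' := fun q l' hP => h2 q l' hP
  refine ⟨mix X Y Z (fun q l' => (q = k ∨ q = l) ∧ (l' = a ∨ l' = b)) hA hB, ?_, ?_⟩
  · intro q l' hql
    exact (mix_neg X Y Z (fun q l' => (q = k ∨ q = l) ∧ (l' = a ∨ l' = b)) hA hB q l' hql).symm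
  · intro q l' hql
    by_cases hP : (q = k ∨ q = l) ∧ (l' = a ∨ l' = b)
    · exact mix_pos X Y Z (fun q l' => (q = k ∨ q = l) ∧ (l' = a ∨ l' = b)) hA hB q l' hP
    · rw [mix_neg X Y Z (fun q l' => (q = k ∨ q = l) ∧ (l' = a ∨ l' = b)) hA hB q l' hP,
        h1 q l' hql]
      exact hB q l' hP

theorem blockRel_uniq' (a b : Fin n) (i j k l : Fin m) (hik : i ≠ k) (hil : i ≠ l) (hjk : j ≠ k)
    (hjl : j ≠ l) (X Y : Omega r c) (h1 : BlockRel i j a b X Y) (h2 : BlockRel k l a b X Y) :
    X = Y := by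
  apply Subtype.ext
  funext q l'
  by_cases hq : q = i ∨ q = j
  · apply h2 q l'
    rintro ⟨h, -⟩
    rcases hq with rfl | rfl <;> rcases h with h | h
    · exact hik h
    · exact hil h
    · exact hjk h
    · exact hjl h
  · apply h1 q l'
    rintro ⟨h, -⟩
    exact hq h

end Vale.Agent.H91.CT
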