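import Vale.Agent.H91.CT.Cyclic
import Vale.Agent.H91.CT.Squares

/-!
P328 row R6 (F1, unconditional): in every class and for every pair of rows, the sum over the
column pairs of the complementary projections of the 2 x 2 blocks dominates the complementary
projection of the row pair.

Paper proof.  Ksum_gap (Vale.Agent.H90) for rel a b := BlockRel i j a b (blockRel_equiv,
blockRel_symm_col, blockRel_sq, blockRel_uniq, block_cyclic) applied to
g := Qrel (RowRel i j) f.  g is orthogonal to the kernel of KB i j because that kernel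
consists of RowRel i j-invariant functions (Qrel_eq_zero_of_Ksum, inv_of_Qrel_eq_zero,
row_conn), and KB i j g = KB i j f, dot g (KB i j f) = dot f (KB i j f) because
avgRel (RowRel i j) f is invariant under the block relations.
-/

namespace Vale.Agent.H91.CT

open Finset Vale.Agent.H90 Vale.Agent.H88.CT

variable {m n : ℕ} {r : Fin m → ℕ} {c : Fin n → ℕ}

namespace F1Aux

/-- A unit move needs two different columns. -/
theorem move_col_ne (i j : Fin m) (a b : Fin n) (X Y : Omega r c) (h : Move i j a b X Y) :
    a ≠ b := by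
  intro hab
  subst hab
  have h1 := h.2.1
  have h2 := h.2.2.2.1
  omega

/-- The block generator of a row pair kills the row-pair average. -/
theorem KB_avg (i j : Fin m) (f : Omega r c → ℝ) : KB i j (avgRel (RowRel i j) f) = 0 := by
  unfold KB Ksum
  refine Finset.sum_eq_zero (fun a _ => Finset.sum_eq_zero (fun b _ => ?_))
  by_cases hab : a ≠ b
  · rw [if_pos hab]
    exact Qrel_avgRel_of_le (blockRel_equiv i j a b) (rowRel_equiv i j)
      (blockRel_le_rowRel i j a b) f
  · rw [if_neg hab]

/-- Functions in the kernel of the block generator of a row pair are invariant under the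
row-pair relation. -/
theorem inv_of_KB (i j : Fin m) (hij : i ≠ j) (g : Omega r c → ℝ) (hg : KB i j g = 0) :
    ∀ X Y : Omega r c, RowRel i j X Y → g X = g Y := by
  refine row_conn i j hij g ?_
  intro a b X Y hmv
  have hab : a ≠ b := move_col_ne i j a b X Y hmv
  have hQ : Qrel (BlockRel (r := r) (c := c) i j a b) g = 0 :=
    Qrel_eq_zero_of_Ksum (rel := fun a b => BlockRel (r := r) (c := c) i j a b)
      (fun a b => blockRel_equiv i j a b) g hg a b hab
  exact inv_of_Qrel_eq_zero (blockRel_equiv i j a b) g hQ X Y (move_blockRel i j a b X Y hmv)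

end F1Aux

theorem block_ge_row (i j : Fin m) (hij : i ≠ j) (f : Omega r c → ℝ) :
    2 * dot (Qrel (RowRel i j) f) (Qrel (RowRel i j) f) ≤ dot f (KB i j f) := by
  have hker : ∀ g : Omega r c → ℝ,
      Ksum (fun a b => BlockRel (r := r) (c := c) i j a b) g = 0 →
        dot (Qrel (RowRel i j) f) g = 0 := by
    intro g hg
    have hinv := F1Aux.inv_of_KB i j hij g hg
    rw [← Qrel_dot (rowRel_equiv i j), Qrel_eq_zero_of_inv (rowRel_equiv i j) g hinv,
      dot_zero_right]
  have hgap := Ksum_gap (rel := fun a b => BlockRel (r := r) (c := c) i j a b)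
    (fun a b => blockRel_equiv i j a b) (fun a b x y => blockRel_symm_col i j a b x y)
    (fun a b k l hak hal hbk hbl x y z h1 h2 =>
      blockRel_sq i j a b k l hak hal hbk hbl x y z h1 h2)
    (fun a b k l hak hal hbk hbl x y h1 h2 => blockRel_uniq i j a b k l hak hal hbk hbl x y h1 h2)
    (fun a b d hab hbd had g => block_cyclic i j hij a b d hab hbd had g)
    (Qrel (RowRel i j) f) hker
  have hz : KB i j (avgRel (RowRel i j) f) = 0 := F1Aux.KB_avg i j f
  have hK : KB i j (Qrel (RowRel i j) f) = KB i j f := by
    have e : Qrel (RowRel i j) f = f + (-1 : ℝ) • avgRel (RowRel i j) f := by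
      unfold Qrel; funext x; simp [sub_eq_add_neg]
    rw [e]
    unfold KB
    rw [Ksum_add, Ksum_smul]
    have hz' : Ksum (fun a b => BlockRel (r := r) (c := c) i j a b)
        (avgRel (RowRel i j) f) = 0 := hz
    rw [hz']
    simp
  have e2 : dot (Qrel (RowRel i j) f) (KB i j f) = dot f (KB i j f) := by
    have e3 : dot (avgRel (RowRel i j) f) (KB i j f) = 0 := by
      have e4 : dot (avgRel (RowRel i j) f) (KB i j f)
          = dot (KB i j (avgRel (RowRel i j) f)) f :=
        Ksum_dot (rel := fun a b => BlockRel (r := r) (c := c) i j a b)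
          (fun a b => blockRel_equiv i j a b) (avgRel (RowRel i j) f) f
      rw [e4, hz, dot_zero_left]
    unfold Qrel
    rw [dot_sub_left, e3, sub_zero]
  have hgap' : 2 * dot (Qrel (RowRel i j) f) (Qrel (RowRel i j) f)
      ≤ dot (Qrel (RowRel i j) f) (KB i j (Qrel (RowRel i j) f)) := hgap
  rw [hK, e2] at hgap'
  exact hgap'

/-- The same inequality written with sums of squares. -/
theorem block_ge_row_sq (i j : Fin m) (hij : i ≠ j) (f : Omega r c → ℝ) :
    2 * ∑ X, (f X - avgRel (RowRel i j) f X) ^ 2
      ≤ ∑ a : Fin n, ∑ b : Fin n,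
          if a ≠ b then ∑ X, (f X - avgRel (BlockRel i j a b) f X) ^ 2 else 0 := by
  have h := block_ge_row i j hij f
  have e : dot f (KB i j f) = ∑ a : Fin n, ∑ b : Fin n,
      if a ≠ b then ∑ X, (f X - avgRel (BlockRel i j a b) f X) ^ 2 else 0 := by
    unfold KB
    rw [dot_Ksum_self (fun a b => blockRel_equiv i j a b)]
    refine Finset.sum_congr rfl (fun a _ => Finset.sum_congr rfl (fun b _ => ?_))
    by_cases hab : a ≠ b
    · simp only [hab, if_true, ne_eq, not_false_eq_true]; rw [sum_sq_eq_dot]
    · simp only [hab, if_false]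
  rw [sum_sq_eq_dot, ← e]
  exact h

end Vale.Agent.H91.CT
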