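import Vale.Agent.H88.CT.Defs
import Vale.Agent.H12.MixCore

/-!
P328 row R9b: from a Poincare inequality with constant `2 / (m (m-1) n (n-1))` to the mixing
time of the lazy chain (via `Vale.Agent.H12.MixCore.l1_bound` and `|Omega| ≤ (N+1)^(m n)`).

Arithmetic: `γ = 2 / (m (m-1) n (n-1))`, `γ / 2 ≥ 1 / (m^2 n^2)`,
`(1 - γ/2)^t ≤ (1 - 1/(m^2 n^2))^t ≤ 2^(- (m n (log2 N + 1) + 2 k))`,
`|Omega| ≤ (N+1)^(m n) ≤ 2^(m n (log2 N + 1))`, so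
`(sum |..|)^2 ≤ 4^(-k)`, i.e. `sum |..| ≤ (1/2)^k`.
-/

namespace Vale.Agent.H91.CT

open Finset Vale.Agent.H88.CT Vale.Agent.H12

variable {m n : ℕ} {r : Fin m → ℕ} {c : Fin n → ℕ}

/-- `(1 - 1/M)^(M L) ≤ 2^(-L)`. -/
theorem pow_half_bound (M L : ℕ) (hM : 0 < M) :
    (1 - 1 / (M : ℝ)) ^ (M * L) ≤ (1 / 2 : ℝ) ^ L := by
  have hMr : (1 : ℝ) ≤ M := by exact_mod_cast hM
  have hb : (0 : ℝ) ≤ 1 - 1 / (M : ℝ) := by
    have : 1 / (M : ℝ) ≤ 1 := by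
      rw [div_le_one (by linarith)]; exact hMr
    linarith
  have h1 : (1 - 1 / (M : ℝ)) ^ M ≤ 1 / 2 := by
    have h2 : 1 - 1 / (M : ℝ) ≤ Real.exp (-(1 / (M : ℝ))) := Real.one_sub_le_exp_neg _
    have h3 : (1 - 1 / (M : ℝ)) ^ M ≤ Real.exp (-(1 / (M : ℝ))) ^ M :=
      pow_le_pow_left₀ hb h2 M
    have h4 : Real.exp (-(1 / (M : ℝ))) ^ M = Real.exp (-1) := by
      rw [← Real.exp_nat_mul]
      congr 1
      field_simp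
    have h5 : Real.exp (-1) ≤ 1 / 2 := by
      rw [Real.exp_neg]
      have : (2 : ℝ) ≤ Real.exp 1 := by
        have := Real.add_one_le_exp (1 : ℝ)
        linarith
      rw [one_div]
      exact inv_anti₀ (by norm_num) this
    linarith
  rw [pow_mul]
  exact pow_le_pow_left₀ (pow_nonneg hb M) h1 L

theorem card_Omega_le : Fintype.card (Omega r c) ≤ (∑ i, r i + 1) ^ (m * n) := by
  have hinj : Function.Injective (fun X : Omega r c => fun (i : Fin m) (j : Fin n) =>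
      (⟨X.1 i j, Nat.lt_succ_of_le ((entry_le_row X i j).trans
        (Finset.single_le_sum (f := fun i => r i) (fun _ _ => Nat.zero_le _)
          (Finset.mem_univ i)))⟩ : Fin (∑ i, r i + 1))) := by
    intro X Y h
    apply Subtype.ext
    funext i j
    have := congrFun (congrFun h i) j
    exact Fin.mk.inj_iff.1 this
  have h := Fintype.card_le_of_injective _ hinj
  simp only [Fintype.card_pi, Fintype.card_fin, Finset.prod_const, Finset.card_univ] at h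
  calc Fintype.card (Omega r c) ≤ ((∑ i, r i + 1) ^ n) ^ m := h
    _ = (∑ i, r i + 1) ^ (m * n) := by rw [← pow_mul, Nat.mul_comm]

theorem mixing_of_poincare (hm : 2 ≤ m) (hn : 2 ≤ n)
    (K : Matrix (Omega r c) (Omega r c) ℝ) (hsymm : ∀ X Y, K X Y = K Y X)
    (hnn : ∀ X Y, 0 ≤ K X Y) (hrow : ∀ X, ∑ Y, K X Y = 1)
    (hP : ∀ f : Omega r c → ℝ, ∑ X, f X = 0 →
      2 / ((m : ℝ) * (m - 1) * ((n : ℝ) * (n - 1))) * ∑ X, f X ^ 2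
        ≤ (1 / 2 : ℝ) * ∑ X, ∑ Y, K X Y * (f X - f Y) ^ 2)
    (k t : ℕ) (ht : m ^ 2 * n ^ 2 * (m * n * (Nat.log 2 (∑ i, r i) + 1) + 2 * k) ≤ t)
    (X : Omega r c) :
    (1 / 2 : ℝ) * ∑ Y, |(MixCore.lazy K ^ t) X Y - 1 / (Fintype.card (Omega r c) : ℝ)|
      ≤ (1 / 2 : ℝ) ^ k := by
  have hm' : (2 : ℝ) ≤ m := by exact_mod_cast hm
  have hn' : (2 : ℝ) ≤ n := by exact_mod_cast hn
  obtain ⟨D, hD⟩ : ∃ D : ℝ, D = (m : ℝ) * (m - 1) * ((n : ℝ) * (n - 1)) := ⟨_, rfl⟩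
  rw [← hD] at hP
  have hD4 : 4 ≤ D := by
    have h1 : 2 ≤ (m : ℝ) * (m - 1) := by nlinarith
    have h2 : 2 ≤ (n : ℝ) * (n - 1) := by nlinarith
    rw [hD]
    nlinarith
  have hMpos : 0 < m ^ 2 * n ^ 2 := by positivity
  have hDM : D ≤ ((m ^ 2 * n ^ 2 : ℕ) : ℝ) := by
    push_cast
    rw [hD]
    have h1 : (m : ℝ) * (m - 1) ≤ (m : ℝ) ^ 2 := by nlinarith
    have h2 : (n : ℝ) * (n - 1) ≤ (n : ℝ) ^ 2 := by nlinarith
    have h3 : 0 ≤ (n : ℝ) * (n - 1) := by nlinarith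
    have h4 : 0 ≤ (m : ℝ) ^ 2 := by positivity
    calc (m : ℝ) * (m - 1) * ((n : ℝ) * (n - 1)) ≤ (m : ℝ) ^ 2 * ((n : ℝ) * (n - 1)) :=
          mul_le_mul_of_nonneg_right h1 h3
      _ ≤ (m : ℝ) ^ 2 * (n : ℝ) ^ 2 := mul_le_mul_of_nonneg_left h2 h4
  have hγ : 2 / D ≤ 2 := by
    rw [div_le_iff₀ (by linarith)]
    linarith
  have h := MixCore.l1_bound K hsymm hnn hrow (2 / D) hγ hP t X
  have e : 1 - 2 / D / 2 = 1 - 1 / D := by ring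
  rw [e] at h
  obtain ⟨M, hM⟩ : ∃ M : ℕ, M = m ^ 2 * n ^ 2 := ⟨_, rfl⟩
  obtain ⟨ℓ, hℓ⟩ : ∃ ℓ : ℕ, ℓ = Nat.log 2 (∑ i, r i) := ⟨_, rfl⟩
  obtain ⟨L, hL⟩ : ∃ L : ℕ, L = m * n * (ℓ + 1) + 2 * k := ⟨_, rfl⟩
  rw [← hM, ← hℓ, ← hL] at ht
  rw [← hM] at hDM hMpos
  have hMr : (1 : ℝ) ≤ M := by exact_mod_cast hMpos
  have hDpos : 0 < D := by linarith
  have hb0 : 0 ≤ 1 - 1 / D := by
    have : 1 / D ≤ 1 := by
      rw [div_le_one hDpos]; linarith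
    linarith
  have hb1 : 1 - 1 / D ≤ 1 - 1 / (M : ℝ) := by
    have : 1 / (M : ℝ) ≤ 1 / D := one_div_le_one_div_of_le hDpos hDM
    linarith
  have hb2 : 1 - 1 / (M : ℝ) ≤ 1 := by
    have : 0 ≤ 1 / (M : ℝ) := by positivity
    linarith
  have hpow : (1 - 1 / D) ^ t ≤ (1 / 2 : ℝ) ^ L := by
    calc (1 - 1 / D) ^ t ≤ (1 - 1 / (M : ℝ)) ^ t := pow_le_pow_left₀ hb0 hb1 t
      _ ≤ (1 - 1 / (M : ℝ)) ^ (M * L) := pow_le_pow_of_le_one (hb0.trans hb1) hb2 ht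
      _ ≤ (1 / 2 : ℝ) ^ L := pow_half_bound M L hMpos
  have hcard : (Fintype.card (Omega r c) : ℝ) ≤ (2 : ℝ) ^ (m * n * (ℓ + 1)) := by
    have h1 : Fintype.card (Omega r c) ≤ (∑ i, r i + 1) ^ (m * n) := card_Omega_le
    have h2 : ∑ i, r i + 1 ≤ 2 ^ (ℓ + 1) := by
      rw [hℓ]
      exact Nat.lt_pow_succ_log_self (by norm_num) _
    have h3 : (∑ i, r i + 1) ^ (m * n) ≤ (2 ^ (ℓ + 1)) ^ (m * n) := Nat.pow_le_pow_left h2 _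
    have h4 : (2 ^ (ℓ + 1)) ^ (m * n) = 2 ^ (m * n * (ℓ + 1)) := by
      rw [← pow_mul, Nat.mul_comm]
    have h5 : Fintype.card (Omega r c) ≤ 2 ^ (m * n * (ℓ + 1)) := h1.trans (h3.trans h4.le)
    exact_mod_cast h5
  obtain ⟨S, hS⟩ : ∃ S : ℝ,
      S = ∑ Y, |(MixCore.lazy K ^ t) X Y - 1 / (Fintype.card (Omega r c) : ℝ)| := ⟨_, rfl⟩
  rw [← hS] at h ⊢
  have hS0 : 0 ≤ S := by
    rw [hS]
    exact Finset.sum_nonneg (fun _ _ => abs_nonneg _)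
  have hk : (0 : ℝ) ≤ (1 / 2 : ℝ) ^ k := by positivity
  have h2 : S ^ 2 ≤ ((1 / 2 : ℝ) ^ k) ^ 2 := by
    calc S ^ 2 ≤ (Fintype.card (Omega r c) : ℝ) * (1 - 1 / D) ^ t := h
      _ ≤ (2 : ℝ) ^ (m * n * (ℓ + 1)) * (1 / 2 : ℝ) ^ L :=
          mul_le_mul hcard hpow (pow_nonneg hb0 t) (by positivity)
      _ = ((1 / 2 : ℝ) ^ k) ^ 2 := by
          rw [hL, pow_add, ← mul_assoc, ← mul_pow, ← pow_mul, Nat.mul_comm k 2]
          norm_num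
  have h3 : S ≤ (1 / 2 : ℝ) ^ k := (sq_le_sq₀ hS0 hk).1 h2
  linarith

end Vale.Agent.H91.CT
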