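import Vale.Agent.H91.CT.ConnAll
import Vale.Agent.H91.CT.Squares

/-!
P328 row R8: under the three-row hypothesis (fibre form) the row-pair generator has gap:
the sum over ordered row pairs of the squared norms of Q_ij f is at least twice the squared
norm of f minus its mean.

Paper proof.  Ksum_gap (Vale.Agent.H90) for rel i j := RowRel i j (rowRel_equiv,
rowRel_symm, rowRel_sq, rowRel_uniq; the cyclic inequality from TripleHyp by
Vale.Agent.H88.CT.cyclic_of_poincare with T = TriRel i j k), applied to
g := Qrel AllRel f; the kernel of KR consists of constants (all_conn, as every unit move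
is inside a row pair).
-/

namespace Vale.Agent.H91.CT

open Finset Vale.Agent.H90 Vale.Agent.H88.CT

variable {m n : ℕ} {r : Fin m → ℕ} {c : Fin n → ℕ}

namespace RowsAux

/-- A unit move needs two different rows. -/
theorem move_ne (i j : Fin m) (a b : Fin n) (X Y : Omega r c) (h : Move i j a b X Y) :
    i ≠ j := by
  intro hij
  subst hij
  have h1 := h.2.1
  have h2 := h.2.2.2.2
  omega

/-- The cyclic inequality for three rows, from the three-row hypothesis. -/
theorem row_cyclic (h : TripleHyp) (i j k : Fin m) (hij : i ≠ j) (hjk : j ≠ k) (hik : i ≠ k)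
    (f : Omega r c → ℝ) :
    0 ≤ dot (Qrel (RowRel i j) f) (Qrel (RowRel j k) f)
      + dot (Qrel (RowRel j k) f) (Qrel (RowRel k i) f)
      + dot (Qrel (RowRel k i) f) (Qrel (RowRel i j) f) := by
  refine cyclic_of_poincare (R1 := RowRel (r := r) (c := c) i j)
    (R2 := RowRel (r := r) (c := c) j k) (R3 := RowRel (r := r) (c := c) k i)
    (T := TriRel (r := r) (c := c) i j k)
    (rowRel_equiv i j) (rowRel_equiv j k) (rowRel_equiv k i) (triRel_equiv i j k)
    (rowRel_le_triRel_ij i j k) (rowRel_le_triRel_jk i j k) (rowRel_le_triRel_ki i j k) ?_ f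
  intro g
  have hg := h m n r c i j k hij hjk hik g
  rw [sum_sq_eq_dot, sum_sq_eq_dot, sum_sq_eq_dot, sum_sq_eq_dot] at hg
  exact hg

/-- The row-pair generator kills the class mean. -/
theorem KR_avg (f : Omega r c → ℝ) : KR (avgRel AllRel f) = 0 := by
  unfold KR Ksum
  refine Finset.sum_eq_zero (fun i _ => Finset.sum_eq_zero (fun j _ => ?_))
  by_cases hij : i ≠ j
  · rw [if_pos hij]
    exact Qrel_avgRel_of_le (rowRel_equiv i j) allRel_equiv (fun _ _ _ => trivial) f
  · rw [if_neg hij]

/-- Functions in the kernel of the row-pair generator are constant. -/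
theorem const_of_KR (g : Omega r c → ℝ) (hg : KR g = 0) : ∀ X Y : Omega r c, g X = g Y := by
  refine all_conn g ?_
  intro i j a b X Y hmv
  have hij : i ≠ j := move_ne i j a b X Y hmv
  have hQ : Qrel (RowRel (r := r) (c := c) i j) g = 0 :=
    Qrel_eq_zero_of_Ksum (rel := fun i j => RowRel (r := r) (c := c) i j)
      (fun i j => rowRel_equiv i j) g hg i j hij
  exact inv_of_Qrel_eq_zero (rowRel_equiv i j) g hQ X Y
    (blockRel_le_rowRel i j a b X Y (move_blockRel i j a b X Y hmv))

end RowsAux

theorem row_gap (h : TripleHyp) (f : Omega r c → ℝ) :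
    2 * dot (Qrel AllRel f) (Qrel AllRel f) ≤ dot f (KR f) := by
  have hker : ∀ g : Omega r c → ℝ,
      Ksum (fun i j => RowRel (r := r) (c := c) i j) g = 0 → dot (Qrel AllRel f) g = 0 := by
    intro g hg
    have hconst := RowsAux.const_of_KR g hg
    rw [← Qrel_dot allRel_equiv,
      Qrel_eq_zero_of_inv allRel_equiv g (fun x y _ => hconst x y), dot_zero_right]
  have hgap := Ksum_gap (rel := fun i j => RowRel (r := r) (c := c) i j)
    (fun i j => rowRel_equiv i j) (fun i j x y => rowRel_symm i j x y)
    (fun i j k l hik hil hjk hjl x y z h1 h2 => rowRel_sq i j k l hik hil hjk hjl x y z h1 h2)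
    (fun i j k l hik hil hjk hjl x y h1 h2 => rowRel_uniq i j k l hik hil hjk hjl x y h1 h2)
    (fun i j k hij hjk hik g => RowsAux.row_cyclic h i j k hij hjk hik g)
    (Qrel AllRel f) hker
  have hz : KR (avgRel AllRel f) = 0 := RowsAux.KR_avg f
  have hK : KR (Qrel AllRel f) = KR f := by
    have e : Qrel AllRel f = f + (-1 : ℝ) • avgRel AllRel f := by
      unfold Qrel; funext x; simp [sub_eq_add_neg]
    rw [e]
    unfold KR
    rw [Ksum_add, Ksum_smul]
    have hz' : Ksum (fun i j => RowRel (r := r) (c := c) i j) (avgRel AllRel f) = 0 := hz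
    rw [hz']
    simp
  have e2 : dot (Qrel AllRel f) (KR f) = dot f (KR f) := by
    have e3 : dot (avgRel AllRel f) (KR f) = 0 := by
      have e4 : dot (avgRel AllRel f) (KR f) = dot (KR (avgRel AllRel f)) f :=
        Ksum_dot (rel := fun i j => RowRel (r := r) (c := c) i j)
          (fun i j => rowRel_equiv i j) (avgRel AllRel f) f
      rw [e4, hz, dot_zero_left]
    unfold Qrel
    rw [dot_sub_left, e3, sub_zero]
  have hgap' : 2 * dot (Qrel AllRel f) (Qrel AllRel f)
      ≤ dot (Qrel AllRel f) (KR (Qrel AllRel f)) := hgap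
  rw [hK, e2] at hgap'
  exact hgap'

end Vale.Agent.H91.CT
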