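import Vale.Agent.H91.CT.Rel

/-!
P328 row R7: the three-row hypothesis on 3 x n classes implies its fibre form in every class.

Proof.  Fix X0 : Omega r c and distinct rows i, j, k.  With r3 = ![r i, r j, r k] and
c3 l = X0 i l + X0 j l + X0 k l, the map put (replace the three rows of X0 by the rows of a
3 x n table) is an injection of Omega r3 c3 into Omega r c whose image is the TriRel i j k
class of X0; the relation RowRel i j on the class corresponds to the relation of having the same
row 2 on Omega r3 c3, RowRel j k to the same row 0 and RowRel k i to the same row 1, and the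
classes of these relations stay inside the image.  So averages and sums of squares transport
(avgRel_embed, sum_class_embed), ThreeRowGap applied to f composed with put gives the
inequality summed over the class of X0 (class_ineq), and summation over the classes
(sum_le_of_class) gives the claim.
-/

namespace Vale.Agent.H91.CT

open Finset Vale.Agent.H90 Vale.Agent.H88.CT

namespace TransferAux

section generic

variable {Ω : Type*} [Fintype Ω] [DecidableEq Ω]

/-- Averaging over the classes of an equivalence relation does not change the total sum. -/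
theorem sum_avgRel (T : Ω → Ω → Prop) [DecidableRel T] (hT : Equivalence T) (A : Ω → ℝ) :
    ∑ X, avgRel T A X = ∑ X, A X := by
  have h := avgRel_dot hT (fun _ => (1 : ℝ)) A
  have h1 : avgRel T (fun _ : Ω => (1 : ℝ)) = fun _ => 1 :=
    avgRel_eq_self hT _ (fun _ _ _ => rfl)
  rw [h1] at h
  unfold dot at h
  simpa using h

/-- An inequality between sums that holds on every class holds for the total sums. -/
theorem sum_le_of_class (T : Ω → Ω → Prop) [DecidableRel T] (hT : Equivalence T)
    (A B : Ω → ℝ)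
    (h : ∀ X0 : Ω, ∑ X ∈ univ.filter (fun X => T X0 X), A X
        ≤ ∑ X ∈ univ.filter (fun X => T X0 X), B X) :
    ∑ X, A X ≤ ∑ X, B X := by
  rw [← sum_avgRel T hT A, ← sum_avgRel T hT B]
  refine Finset.sum_le_sum (fun X _ => ?_)
  unfold avgRel
  exact div_le_div_of_nonneg_right (h X) (Nat.cast_nonneg _)

theorem avgRel_true (g : Ω → ℝ) (Z : Ω) :
    avgRel (fun _ _ : Ω => True) g Z = (∑ W, g W) / (Fintype.card Ω : ℝ) := by
  unfold avgRel
  have e : univ.filter (fun _ : Ω => True) = univ :=
    Finset.filter_true_of_mem (fun _ _ => trivial)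
  rw [e, Finset.card_univ]

variable {Ω' : Type*} [Fintype Ω'] [DecidableEq Ω']

/-- Transport of an average along an injection whose image is closed under the relation. -/
theorem avgRel_embed (φ : Ω' → Ω) (hφ : Function.Injective φ)
    (R : Ω → Ω → Prop) [DecidableRel R] (R' : Ω' → Ω' → Prop) [DecidableRel R']
    (ha : ∀ Z Z', R' Z Z' ↔ R (φ Z) (φ Z'))
    (hb : ∀ Z Y, R (φ Z) Y → ∃ Z', φ Z' = Y)
    (f : Ω → ℝ) (Z : Ω') :
    avgRel R f (φ Z) = avgRel R' (fun W => f (φ W)) Z := by
  have hset : univ.filter (fun Y => R (φ Z) Y) = (univ.filter (fun W => R' Z W)).image φ := by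
    ext Y
    simp only [mem_filter, mem_univ, true_and, mem_image]
    constructor
    · intro hY
      obtain ⟨W, hW⟩ := hb Z Y hY
      refine ⟨W, ?_, hW⟩
      rw [ha, hW]
      exact hY
    · rintro ⟨W, hW, rfl⟩
      exact (ha Z W).1 hW
  unfold avgRel
  rw [hset, Finset.sum_image (fun x _ y _ hxy => hφ hxy), Finset.card_image_of_injective _ hφ]

/-- A sum over the image of an injection. -/
theorem sum_class_embed (φ : Ω' → Ω) (hφ : Function.Injective φ) (S : Finset Ω)
    (hS : ∀ Y, Y ∈ S ↔ ∃ Z, φ Z = Y) (G : Ω → ℝ) :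
    ∑ X ∈ S, G X = ∑ Z, G (φ Z) := by
  have hset : S = univ.image φ := by
    ext Y
    simp only [mem_image, mem_univ, true_and]
    exact hS Y
  rw [hset, Finset.sum_image (fun x _ y _ hxy => hφ hxy)]

end generic

variable {m n : ℕ}

/-- The row sums of the three rows. -/
def r3 (r : Fin m → ℕ) (i j k : Fin m) : Fin 3 → ℕ := ![r i, r j, r k]

/-- Replace the rows i, j, k of a matrix by the three rows of a 3 x n matrix. -/
def putFun (X0 : Fin m → Fin n → ℕ) (i j k : Fin m) (Z : Fin 3 → Fin n → ℕ) :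
    Fin m → Fin n → ℕ :=
  fun q l => if q = i then Z 0 l else if q = j then Z 1 l else if q = k then Z 2 l else X0 q l

theorem putFun_i (X0 : Fin m → Fin n → ℕ) (i j k : Fin m) (Z : Fin 3 → Fin n → ℕ) :
    putFun X0 i j k Z i = Z 0 := by
  funext l
  simp [putFun]

theorem putFun_j (X0 : Fin m → Fin n → ℕ) (i j k : Fin m) (hij : i ≠ j)
    (Z : Fin 3 → Fin n → ℕ) : putFun X0 i j k Z j = Z 1 := by
  funext l
  simp [putFun, hij.symm]

theorem putFun_k (X0 : Fin m → Fin n → ℕ) (i j k : Fin m) (hjk : j ≠ k) (hik : i ≠ k)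
    (Z : Fin 3 → Fin n → ℕ) : putFun X0 i j k Z k = Z 2 := by
  funext l
  simp [putFun, hik.symm, hjk.symm]

theorem putFun_other (X0 : Fin m → Fin n → ℕ) (i j k : Fin m) (Z : Fin 3 → Fin n → ℕ)
    (q : Fin m) (h1 : q ≠ i) (h2 : q ≠ j) (h3 : q ≠ k) : putFun X0 i j k Z q = X0 q := by
  funext l
  simp [putFun, h1, h2, h3]

theorem putFun_add (X0 : Fin m → Fin n → ℕ) (i j k : Fin m) (hij : i ≠ j) (hjk : j ≠ k)
    (hik : i ≠ k) (Z : Fin 3 → Fin n → ℕ) (q : Fin m) (l : Fin n) :
    putFun X0 i j k Z q l + ((if q = i then X0 i l else 0) + (if q = j then X0 j l else 0)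
        + (if q = k then X0 k l else 0))
      = X0 q l + ((if q = i then Z 0 l else 0) + (if q = j then Z 1 l else 0)
        + (if q = k then Z 2 l else 0)) := by
  by_cases h1 : q = i
  · subst h1
    rw [putFun_i]
    simp [hij, hik]
    omega
  · by_cases h2 : q = j
    · subst h2
      rw [putFun_j X0 i q k hij]
      simp [h1, hjk]
      omega
    · by_cases h3 : q = k
      · subst h3
        rw [putFun_k X0 i j q hjk hik]
        simp [h1, h2]
        omega
      · rw [putFun_other X0 i j k Z q h1 h2 h3]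
        simp [h1, h2, h3]

theorem putFun_col (X0 : Fin m → Fin n → ℕ) (i j k : Fin m) (hij : i ≠ j) (hjk : j ≠ k)
    (hik : i ≠ k) (Z : Fin 3 → Fin n → ℕ) (l : Fin n) :
    ∑ q, putFun X0 i j k Z q l + (X0 i l + X0 j l + X0 k l)
      = ∑ q, X0 q l + (Z 0 l + Z 1 l + Z 2 l) := by
  have h := Finset.sum_congr (s₁ := (Finset.univ : Finset (Fin m))) rfl
    (fun q _ => putFun_add X0 i j k hij hjk hik Z q l)
  simp only [Finset.sum_add_distrib, Finset.sum_ite_eq', Finset.mem_univ, if_true] at h
  exact h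

variable {r : Fin m → ℕ} {c : Fin n → ℕ}

/-- The column sums of the three rows of X0. -/
def c3 (X0 : Omega r c) (i j k : Fin m) : Fin n → ℕ :=
  fun l => X0.1 i l + X0.1 j l + X0.1 k l

/-- The embedding of the three-row class: replace the rows i, j, k of X0. -/
def put (X0 : Omega r c) (i j k : Fin m) (hij : i ≠ j) (hjk : j ≠ k) (hik : i ≠ k)
    (Z : Omega (r3 r i j k) (c3 X0 i j k)) : Omega r c :=
  Subtype.mk (putFun X0.1 i j k Z.1) (by
    constructor
    · intro q
      by_cases h1 : q = i
      · subst h1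
        rw [putFun_i]
        exact Z.2.1 0
      · by_cases h2 : q = j
        · subst h2
          rw [putFun_j X0.1 i q k hij]
          exact Z.2.1 1
        · by_cases h3 : q = k
          · subst h3
            rw [putFun_k X0.1 i j q hjk hik]
            exact Z.2.1 2
          · rw [putFun_other X0.1 i j k Z.1 q h1 h2 h3]
            exact X0.2.1 q
    · intro l
      have h := putFun_col X0.1 i j k hij hjk hik Z.1 l
      have hZ := Z.2.2 l
      rw [Fin.sum_univ_three] at hZ
      have hX := X0.2.2 l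
      unfold c3 at hZ
      omega)

theorem put_val (X0 : Omega r c) (i j k : Fin m) (hij : i ≠ j) (hjk : j ≠ k) (hik : i ≠ k)
    (Z : Omega (r3 r i j k) (c3 X0 i j k)) :
    (put X0 i j k hij hjk hik Z).1 = putFun X0.1 i j k Z.1 := rfl

theorem put_inj (X0 : Omega r c) (i j k : Fin m) (hij : i ≠ j) (hjk : j ≠ k) (hik : i ≠ k) :
    Function.Injective (put X0 i j k hij hjk hik) := by
  intro Z Z' h
  have h' : putFun X0.1 i j k Z.1 = putFun X0.1 i j k Z'.1 := congrArg Subtype.val h
  apply Subtype.ext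
  funext q
  have e0 : Z.1 0 = Z'.1 0 := by
    have := congrFun h' i
    rw [putFun_i, putFun_i] at this
    exact this
  have e1 : Z.1 1 = Z'.1 1 := by
    have := congrFun h' j
    rw [putFun_j X0.1 i j k hij, putFun_j X0.1 i j k hij] at this
    exact this
  have e2 : Z.1 2 = Z'.1 2 := by
    have := congrFun h' k
    rw [putFun_k X0.1 i j k hjk hik, putFun_k X0.1 i j k hjk hik] at this
    exact this
  fin_cases q
  · exact e0
  · exact e1
  · exact e2

/-- Every put table is in the class of X0. -/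
theorem tri_put (X0 : Omega r c) (i j k : Fin m) (hij : i ≠ j) (hjk : j ≠ k) (hik : i ≠ k)
    (Z : Omega (r3 r i j k) (c3 X0 i j k)) : TriRel i j k X0 (put X0 i j k hij hjk hik Z) := by
  intro q h1 h2 h3
  rw [put_val, putFun_other X0.1 i j k Z.1 q h1 h2 h3]

theorem putFun_of_tri (X0 Y : Omega r c) (i j k : Fin m) (hij : i ≠ j) (hjk : j ≠ k)
    (hik : i ≠ k) (hT : TriRel i j k X0 Y) :
    putFun X0.1 i j k ![Y.1 i, Y.1 j, Y.1 k] = Y.1 := by
  funext q
  by_cases h1 : q = i
  · subst h1
    rw [putFun_i]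
    rfl
  · by_cases h2 : q = j
    · subst h2
      rw [putFun_j X0.1 i q k hij]
      rfl
    · by_cases h3 : q = k
      · subst h3
        rw [putFun_k X0.1 i j q hjk hik]
        rfl
      · rw [putFun_other X0.1 i j k _ q h1 h2 h3]
        exact hT q h1 h2 h3

/-- Every table of the class of X0 is a put table. -/
theorem exists_put (X0 Y : Omega r c) (i j k : Fin m) (hij : i ≠ j) (hjk : j ≠ k) (hik : i ≠ k)
    (hT : TriRel i j k X0 Y) : ∃ Z, put X0 i j k hij hjk hik Z = Y := by
  have hval := putFun_of_tri X0 Y i j k hij hjk hik hT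
  have hrow : ∀ q : Fin 3, ∑ l, ![Y.1 i, Y.1 j, Y.1 k] q l = r3 r i j k q := by
    intro q
    fin_cases q
    · exact Y.2.1 i
    · exact Y.2.1 j
    · exact Y.2.1 k
  have hcol : ∀ l, ∑ q : Fin 3, ![Y.1 i, Y.1 j, Y.1 k] q l = c3 X0 i j k l := by
    intro l
    rw [Fin.sum_univ_three]
    have h := putFun_col X0.1 i j k hij hjk hik ![Y.1 i, Y.1 j, Y.1 k] l
    rw [hval] at h
    have hX := X0.2.2 l
    have hY := Y.2.2 l
    unfold c3
    omega
  refine ⟨Subtype.mk ![Y.1 i, Y.1 j, Y.1 k] ⟨hrow, hcol⟩, ?_⟩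
  exact Subtype.ext hval

theorem mem_class_iff (X0 : Omega r c) (i j k : Fin m) (hij : i ≠ j) (hjk : j ≠ k)
    (hik : i ≠ k) (Y : Omega r c) :
    Y ∈ univ.filter (fun X => TriRel i j k X0 X) ↔ ∃ Z, put X0 i j k hij hjk hik Z = Y := by
  simp only [mem_filter, mem_univ, true_and]
  constructor
  · intro hT
    exact exists_put X0 Y i j k hij hjk hik hT
  · rintro ⟨Z, rfl⟩
    exact tri_put X0 i j k hij hjk hik Z

/-- The class of a put table under a relation finer than TriRel stays in the image. -/
theorem exists_of_rel (X0 : Omega r c) (i j k : Fin m) (hij : i ≠ j) (hjk : j ≠ k)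
    (hik : i ≠ k) (R : Omega r c → Omega r c → Prop)
    (hle : ∀ X Y, R X Y → TriRel i j k X Y)
    (Z : Omega (r3 r i j k) (c3 X0 i j k)) (Y : Omega r c)
    (h : R (put X0 i j k hij hjk hik Z) Y) : ∃ Z', put X0 i j k hij hjk hik Z' = Y :=
  exists_put X0 Y i j k hij hjk hik
    ((triRel_equiv i j k).trans (tri_put X0 i j k hij hjk hik Z) (hle _ _ h))

theorem rel_ij (X0 : Omega r c) (i j k : Fin m) (hij : i ≠ j) (hjk : j ≠ k) (hik : i ≠ k)
    (Z Z' : Omega (r3 r i j k) (c3 X0 i j k)) :
    Z.1 2 = Z'.1 2 ↔ RowRel i j (put X0 i j k hij hjk hik Z) (put X0 i j k hij hjk hik Z') := by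
  constructor
  · intro h q hqi hqj
    rw [put_val, put_val]
    by_cases h3 : q = k
    · subst h3
      rw [putFun_k X0.1 i j q hjk hik, putFun_k X0.1 i j q hjk hik]
      exact h
    · rw [putFun_other X0.1 i j k Z.1 q hqi hqj h3, putFun_other X0.1 i j k Z'.1 q hqi hqj h3]
  · intro h
    have := h k (fun e => hik e.symm) (fun e => hjk e.symm)
    rw [put_val, put_val, putFun_k X0.1 i j k hjk hik, putFun_k X0.1 i j k hjk hik] at this
    exact this

theorem rel_jk (X0 : Omega r c) (i j k : Fin m) (hij : i ≠ j) (hjk : j ≠ k) (hik : i ≠ k)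
    (Z Z' : Omega (r3 r i j k) (c3 X0 i j k)) :
    Z.1 0 = Z'.1 0 ↔ RowRel j k (put X0 i j k hij hjk hik Z) (put X0 i j k hij hjk hik Z') := by
  constructor
  · intro h q hqj hqk
    rw [put_val, put_val]
    by_cases h1 : q = i
    · subst h1
      rw [putFun_i, putFun_i]
      exact h
    · rw [putFun_other X0.1 i j k Z.1 q h1 hqj hqk, putFun_other X0.1 i j k Z'.1 q h1 hqj hqk]
  · intro h
    have := h i hij hik
    rw [put_val, put_val, putFun_i, putFun_i] at this
    exact this

theorem rel_ki (X0 : Omega r c) (i j k : Fin m) (hij : i ≠ j) (hjk : j ≠ k) (hik : i ≠ k)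
    (Z Z' : Omega (r3 r i j k) (c3 X0 i j k)) :
    Z.1 1 = Z'.1 1 ↔ RowRel k i (put X0 i j k hij hjk hik Z) (put X0 i j k hij hjk hik Z') := by
  constructor
  · intro h q hqk hqi
    rw [put_val, put_val]
    by_cases h2 : q = j
    · subst h2
      rw [putFun_j X0.1 i q k hij, putFun_j X0.1 i q k hij]
      exact h
    · rw [putFun_other X0.1 i j k Z.1 q hqi h2 hqk, putFun_other X0.1 i j k Z'.1 q hqi h2 hqk]
  · intro h
    have := h j hjk (fun e => hij e.symm)
    rw [put_val, put_val, putFun_j X0.1 i j k hij, putFun_j X0.1 i j k hij] at this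
    exact this

/-- The three-row inequality summed over one class of the row triple. -/
theorem class_ineq (h : ThreeRowGap) (i j k : Fin m) (hij : i ≠ j) (hjk : j ≠ k) (hik : i ≠ k)
    (f : Omega r c → ℝ) (X0 : Omega r c) :
    ∑ X ∈ univ.filter (fun X => TriRel i j k X0 X), (f X - avgRel (TriRel i j k) f X) ^ 2
      ≤ ∑ X ∈ univ.filter (fun X => TriRel i j k X0 X),
          ((f X - avgRel (RowRel i j) f X) ^ 2 + (f X - avgRel (RowRel j k) f X) ^ 2
            + (f X - avgRel (RowRel k i) f X) ^ 2) := by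
  have hφ := put_inj X0 i j k hij hjk hik
  have hS := mem_class_iff X0 i j k hij hjk hik
  rw [sum_class_embed (put X0 i j k hij hjk hik) hφ _ hS,
    sum_class_embed (put X0 i j k hij hjk hik) hφ _ hS]
  have eT : ∀ Z, avgRel (TriRel i j k) f (put X0 i j k hij hjk hik Z)
      = (∑ W, f (put X0 i j k hij hjk hik W))
        / (Fintype.card (Omega (r3 r i j k) (c3 X0 i j k)) : ℝ) := by
    intro Z
    rw [avgRel_embed (put X0 i j k hij hjk hik) hφ (TriRel i j k) (fun _ _ => True)
      (fun Z Z' => ⟨fun _ => (triRel_equiv i j k).trans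
        ((triRel_equiv i j k).symm (tri_put X0 i j k hij hjk hik Z))
        (tri_put X0 i j k hij hjk hik Z'), fun _ => trivial⟩)
      (exists_of_rel X0 i j k hij hjk hik _ (fun _ _ hh => hh)) f Z, avgRel_true]
  have e2 : ∀ Z, avgRel (RowRel i j) f (put X0 i j k hij hjk hik Z)
      = avgRel (fun X Y : Omega (r3 r i j k) (c3 X0 i j k) => X.1 2 = Y.1 2)
          (fun W => f (put X0 i j k hij hjk hik W)) Z := fun Z =>
    avgRel_embed (put X0 i j k hij hjk hik) hφ (RowRel i j) _
      (rel_ij X0 i j k hij hjk hik)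
      (exists_of_rel X0 i j k hij hjk hik _ (rowRel_le_triRel_ij i j k)) f Z
  have e0 : ∀ Z, avgRel (RowRel j k) f (put X0 i j k hij hjk hik Z)
      = avgRel (fun X Y : Omega (r3 r i j k) (c3 X0 i j k) => X.1 0 = Y.1 0)
          (fun W => f (put X0 i j k hij hjk hik W)) Z := fun Z =>
    avgRel_embed (put X0 i j k hij hjk hik) hφ (RowRel j k) _
      (rel_jk X0 i j k hij hjk hik)
      (exists_of_rel X0 i j k hij hjk hik _ (rowRel_le_triRel_jk i j k)) f Z
  have e1 : ∀ Z, avgRel (RowRel k i) f (put X0 i j k hij hjk hik Z)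
      = avgRel (fun X Y : Omega (r3 r i j k) (c3 X0 i j k) => X.1 1 = Y.1 1)
          (fun W => f (put X0 i j k hij hjk hik W)) Z := fun Z =>
    avgRel_embed (put X0 i j k hij hjk hik) hφ (RowRel k i) _
      (rel_ki X0 i j k hij hjk hik)
      (exists_of_rel X0 i j k hij hjk hik _ (rowRel_le_triRel_ki i j k)) f Z
  have hg := h n (r3 r i j k) (c3 X0 i j k) (fun W => f (put X0 i j k hij hjk hik W))
  rw [Fin.sum_univ_three] at hg
  simp only [eT, e0, e1, e2]
  rw [Finset.sum_add_distrib, Finset.sum_add_distrib]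
  linarith [hg]

end TransferAux

theorem tripleHyp_of_threeRowGap (h : ThreeRowGap) : TripleHyp := by
  intro m n r c i j k hij hjk hik f
  have key := TransferAux.sum_le_of_class (TriRel (r := r) (c := c) i j k) (triRel_equiv i j k)
    (fun X => (f X - avgRel (TriRel i j k) f X) ^ 2)
    (fun X => (f X - avgRel (RowRel i j) f X) ^ 2 + (f X - avgRel (RowRel j k) f X) ^ 2
            + (f X - avgRel (RowRel k i) f X) ^ 2)
    (fun X0 => TransferAux.class_ineq h i j k hij hjk hik f X0)
  rw [Finset.sum_add_distrib, Finset.sum_add_distrib] at key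
  exact key

end Vale.Agent.H91.CT
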