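import Vale.Agent.H91.CT.F1

/-!
P328 row R10b: F1 for columns, by transposition.  `X ↦ Xᵀ` is a bijection
`Omega r c ≃ Omega c r` which turns `ColRel a b` into `RowRel a b` and `BlockRel i j a b` into
`BlockRel a b i j`; transport `block_ge_row_sq` along it.
-/

namespace Vale.Agent.H91.CT

open Finset Vale.Agent.H90 Vale.Agent.H88.CT

variable {m n : ℕ} {r : Fin m → ℕ} {c : Fin n → ℕ}

/-- Transposition of contingency tables, as an equivalence between the two classes. -/
def transposeEquiv (r : Fin m → ℕ) (c : Fin n → ℕ) : Omega r c ≃ Omega c r where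
  toFun X := ⟨fun j i => X.1 i j, ⟨X.2.2, X.2.1⟩⟩
  invFun X := ⟨fun i j => X.1 j i, ⟨X.2.2, X.2.1⟩⟩
  left_inv _ := rfl
  right_inv _ := rfl

/-- The averaging operator is transported by an equivalence that respects the relations. -/
theorem avgRel_comp_equiv {Ω Ω' : Type*} [Fintype Ω] [Fintype Ω'] (e : Ω ≃ Ω')
    (rel : Ω → Ω → Prop) [DecidableRel rel] (rel' : Ω' → Ω' → Prop) [DecidableRel rel']
    (h : ∀ x y, rel x y ↔ rel' (e x) (e y)) (g : Ω' → ℝ) (x : Ω) :
    avgRel rel (fun y => g (e y)) x = avgRel rel' g (e x) := by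
  unfold avgRel
  have hs : ∑ y ∈ univ.filter (fun y => rel x y), g (e y)
      = ∑ y ∈ univ.filter (fun y => rel' (e x) y), g y := by
    refine Finset.sum_equiv e ?_ ?_
    · intro y
      simp [h]
    · intro y _
      rfl
  have hc : (univ.filter (fun y => rel x y)).card
      = (univ.filter (fun y => rel' (e x) y)).card := by
    refine Finset.card_equiv e ?_
    intro y
    simp [h]
  rw [hs, hc]

/-- Sums of squared deviations from the fibre averages are transported by an equivalence that
respects the relations. -/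
theorem sum_sq_transport {Ω Ω' : Type*} [Fintype Ω] [Fintype Ω'] (e : Ω ≃ Ω')
    (rel : Ω → Ω → Prop) [DecidableRel rel] (rel' : Ω' → Ω' → Prop) [DecidableRel rel']
    (h : ∀ x y, rel x y ↔ rel' (e x) (e y)) (f : Ω → ℝ) :
    ∑ x, (f x - avgRel rel f x) ^ 2
      = ∑ x', (f (e.symm x') - avgRel rel' (fun y' => f (e.symm y')) x') ^ 2 := by
  rw [← Equiv.sum_comp e
    (fun x' => (f (e.symm x') - avgRel rel' (fun y' => f (e.symm y')) x') ^ 2)]
  refine Finset.sum_congr rfl ?_
  intro x _
  have h1 := avgRel_comp_equiv e rel rel' h (fun y' => f (e.symm y')) x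
  simp only [Equiv.symm_apply_apply] at h1 ⊢
  rw [h1]

theorem colRel_iff_transpose (a b : Fin n) (X Y : Omega r c) :
    ColRel a b X Y ↔ RowRel a b (transposeEquiv r c X) (transposeEquiv r c Y) := by
  constructor
  · intro h k hka hkb
    funext i
    exact h i k hka hkb
  · intro h k l hla hlb
    exact congrFun (h l hla hlb) k

theorem blockRel_iff_transpose (i j : Fin m) (a b : Fin n) (X Y : Omega r c) :
    BlockRel i j a b X Y ↔ BlockRel a b i j (transposeEquiv r c X) (transposeEquiv r c Y) := by
  constructor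
  · intro h k l hkl
    exact h l k (fun hh => hkl ⟨hh.2, hh.1⟩)
  · intro h k l hkl
    exact h l k (fun hh => hkl ⟨hh.2, hh.1⟩)

theorem block_ge_col_sq (a b : Fin n) (hab : a ≠ b) (f : Omega r c → ℝ) :
    2 * ∑ X, (f X - avgRel (ColRel a b) f X) ^ 2
      ≤ ∑ i : Fin m, ∑ j : Fin m,
          if i ≠ j then ∑ X, (f X - avgRel (BlockRel i j a b) f X) ^ 2 else 0 := by
  have key := block_ge_row_sq (r := c) (c := r) a b hab
    (fun X' => f ((transposeEquiv r c).symm X'))
  rw [sum_sq_transport (transposeEquiv r c) (ColRel a b) (RowRel a b)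
    (colRel_iff_transpose a b) f]
  refine key.trans (le_of_eq ?_)
  refine Finset.sum_congr rfl (fun i _ => Finset.sum_congr rfl (fun j _ => ?_))
  split_ifs with hij
  · exact (sum_sq_transport (transposeEquiv r c) (BlockRel i j a b) (BlockRel a b i j)
      (blockRel_iff_transpose i j a b) f).symm
  · rfl

end Vale.Agent.H91.CT
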