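import Vale.Agent.H91.CT.F1
import Vale.Agent.H91.CT.Transfer
import Vale.Agent.H91.CT.Rows
import Vale.Agent.H91.CT.Chain
import Vale.Agent.H91.CT.Mixing
import Vale.Agent.H91.CT.AC
import Vale.Agent.H91.CT.Transpose

/-!
P328 row R11: assembly.  Poincare inequalities for the `2 x 2` heat-bath chain from the
three-row hypothesis and from the anticommutator hypothesis, and the mixing bounds.
-/

namespace Vale.Agent.H91.CT

open Finset Vale.Agent.H90 Vale.Agent.H88.CT Vale.Agent.H12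

variable {m n : ℕ} {r : Fin m → ℕ} {c : Fin n → ℕ}

/-- The sum of squares of the complementary projection of a block. -/
noncomputable def SB (f : Omega r c → ℝ) (i j : Fin m) (a b : Fin n) : ℝ :=
  ∑ X, (f X - avgRel (BlockRel i j a b) f X) ^ 2

theorem SB_nonneg (f : Omega r c → ℝ) (i j : Fin m) (a b : Fin n) : 0 ≤ SB f i j a b :=
  Finset.sum_nonneg (fun _ _ => sq_nonneg _)

/-- The total block sum (over ordered pairs of distinct rows and of distinct columns). -/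
noncomputable def SBtot (f : Omega r c → ℝ) : ℝ :=
  ∑ i : Fin m, ∑ j : Fin m, ∑ a : Fin n, ∑ b : Fin n,
    if i ≠ j ∧ a ≠ b then SB f i j a b else 0

theorem SBtot_rows (f : Omega r c → ℝ) :
    SBtot f = ∑ i : Fin m, ∑ j : Fin m,
      if i ≠ j then (∑ a : Fin n, ∑ b : Fin n, if a ≠ b then SB f i j a b else 0) else 0 := by
  unfold SBtot
  refine Finset.sum_congr rfl (fun i _ => Finset.sum_congr rfl (fun j _ => ?_))
  by_cases hij : i ≠ j
  · simp only [hij, true_and, if_true, ne_eq, not_false_eq_true]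
  · simp only [hij, false_and, if_false, Finset.sum_const_zero]

theorem SBtot_cols (f : Omega r c → ℝ) :
    SBtot f = ∑ a : Fin n, ∑ b : Fin n,
      if a ≠ b then (∑ i : Fin m, ∑ j : Fin m, if i ≠ j then SB f i j a b else 0) else 0 := by
  have e : SBtot f = ∑ a : Fin n, ∑ b : Fin n, ∑ i : Fin m, ∑ j : Fin m,
      if i ≠ j ∧ a ≠ b then SB f i j a b else 0 := by
    unfold SBtot
    calc (∑ i : Fin m, ∑ j : Fin m, ∑ a : Fin n, ∑ b : Fin n,
          if i ≠ j ∧ a ≠ b then SB f i j a b else 0)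
        = ∑ i : Fin m, ∑ a : Fin n, ∑ j : Fin m, ∑ b : Fin n,
          if i ≠ j ∧ a ≠ b then SB f i j a b else 0 :=
          Finset.sum_congr rfl (fun i _ => Finset.sum_comm)
      _ = ∑ a : Fin n, ∑ i : Fin m, ∑ j : Fin m, ∑ b : Fin n,
          if i ≠ j ∧ a ≠ b then SB f i j a b else 0 := Finset.sum_comm
      _ = ∑ a : Fin n, ∑ i : Fin m, ∑ b : Fin n, ∑ j : Fin m,
          if i ≠ j ∧ a ≠ b then SB f i j a b else 0 :=
          Finset.sum_congr rfl (fun a _ => Finset.sum_congr rfl (fun i _ => Finset.sum_comm))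
      _ = ∑ a : Fin n, ∑ b : Fin n, ∑ i : Fin m, ∑ j : Fin m,
          if i ≠ j ∧ a ≠ b then SB f i j a b else 0 :=
          Finset.sum_congr rfl (fun a _ => Finset.sum_comm)
  rw [e]
  refine Finset.sum_congr rfl (fun a _ => Finset.sum_congr rfl (fun b _ => ?_))
  by_cases hab : a ≠ b
  · simp only [hab, and_true, if_true, ne_eq, not_false_eq_true]
  · simp only [hab, and_false, if_false, Finset.sum_const_zero]

theorem dot_KR_self (f : Omega r c → ℝ) :
    dot f (KR f) = ∑ i : Fin m, ∑ j : Fin m,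
      if i ≠ j then ∑ X, (f X - avgRel (RowRel i j) f X) ^ 2 else 0 := by
  unfold KR
  rw [dot_Ksum_self (fun i j => rowRel_equiv i j)]
  refine Finset.sum_congr rfl (fun i _ => Finset.sum_congr rfl (fun j _ => ?_))
  by_cases hij : i ≠ j
  · simp only [hij, if_true, ne_eq, not_false_eq_true]; rw [sum_sq_eq_dot]
  · simp only [hij, if_false]

theorem dot_KC_self (f : Omega r c → ℝ) :
    dot f (KC f) = ∑ a : Fin n, ∑ b : Fin n,
      if a ≠ b then ∑ X, (f X - avgRel (ColRel a b) f X) ^ 2 else 0 := by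
  unfold KC
  rw [dot_Ksum_self (fun a b => colRel_equiv a b)]
  refine Finset.sum_congr rfl (fun a _ => Finset.sum_congr rfl (fun b _ => ?_))
  by_cases hab : a ≠ b
  · simp only [hab, if_true, ne_eq, not_false_eq_true]; rw [sum_sq_eq_dot]
  · simp only [hab, if_false]

/-- F1 summed over the row pairs: the block generator dominates the row-pair generator. -/
theorem SBtot_ge_KR (f : Omega r c → ℝ) : 2 * dot f (KR f) ≤ SBtot f := by
  rw [SBtot_rows, dot_KR_self, Finset.mul_sum]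
  refine Finset.sum_le_sum (fun i _ => ?_)
  rw [Finset.mul_sum]
  refine Finset.sum_le_sum (fun j _ => ?_)
  by_cases hij : i ≠ j
  · simp only [hij, if_true, ne_eq, not_false_eq_true]
    exact block_ge_row_sq i j hij f
  · simp only [hij, if_false, mul_zero, le_refl]

/-- F1 for columns summed over the column pairs. -/
theorem SBtot_ge_KC (f : Omega r c → ℝ) : 2 * dot f (KC f) ≤ SBtot f := by
  rw [SBtot_cols, dot_KC_self, Finset.mul_sum]
  refine Finset.sum_le_sum (fun a _ => ?_)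
  rw [Finset.mul_sum]
  refine Finset.sum_le_sum (fun b _ => ?_)
  by_cases hab : a ≠ b
  · simp only [hab, if_true, ne_eq, not_false_eq_true]
    exact block_ge_col_sq a b hab f
  · simp only [hab, if_false, mul_zero, le_refl]

theorem Qrel_allRel_of_sum_zero (f : Omega r c → ℝ) (hf : ∑ X, f X = 0) :
    Qrel AllRel f = f := by
  unfold Qrel
  have : avgRel AllRel f = 0 := by
    funext X
    unfold avgRel
    have e : univ.filter (fun Y : Omega r c => AllRel X Y) = univ := by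
      ext Y; simp [AllRel]
    rw [e, hf]
    simp
  rw [this, sub_zero]

theorem dot_self_eq_sum_sq (f : Omega r c → ℝ) : dot f f = ∑ X, f X ^ 2 := by
  unfold dot
  exact Finset.sum_congr rfl (fun X _ => by ring)

theorem blockChain_dirichlet' (f : Omega r c → ℝ) :
    (1 / 2 : ℝ) * ∑ X, ∑ Y, blockChain r c X Y * (f X - f Y) ^ 2
      = (1 / ((m : ℝ) * (m - 1) * ((n : ℝ) * (n - 1)))) * SBtot f :=
  blockChain_dirichlet f

theorem denom_nonneg (m n : ℕ) : 0 ≤ (m : ℝ) * (m - 1) * ((n : ℝ) * (n - 1)) := by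
  have h : ∀ k : ℕ, 0 ≤ (k : ℝ) * (k - 1) := by
    intro k
    rcases Nat.eq_zero_or_pos k with h0 | h0
    · subst h0; simp
    · have : (1 : ℝ) ≤ k := by exact_mod_cast h0
      exact mul_nonneg (by linarith) (by linarith)
  exact mul_nonneg (h m) (h n)

/-- Unconditional comparison of the Dirichlet forms of the `2 x 2` heat-bath chain and of the
row-pair heat-bath chain. -/
theorem compare_chains (f : Omega r c → ℝ) :
    2 / ((n : ℝ) * (n - 1)) * ((1 / 2 : ℝ) * ∑ X, ∑ Y, rowPairChain r c X Y * (f X - f Y) ^ 2)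
      ≤ (1 / 2 : ℝ) * ∑ X, ∑ Y, blockChain r c X Y * (f X - f Y) ^ 2 := by
  rw [blockChain_dirichlet', rowPairChain_dirichlet, ← dot_KR_self]
  have h := SBtot_ge_KR f
  have hd := denom_nonneg m n
  have e : 2 / ((n : ℝ) * (n - 1)) * (1 / ((m : ℝ) * (m - 1)) * dot f (KR f))
      = 1 / ((m : ℝ) * (m - 1) * ((n : ℝ) * (n - 1))) * (2 * dot f (KR f)) := by
    generalize (m : ℝ) * (m - 1) = A
    generalize (n : ℝ) * (n - 1) = B
    rw [one_div, one_div, mul_inv, div_eq_mul_inv]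
    ring
  rw [e]
  exact mul_le_mul_of_nonneg_left h (by positivity)

/-- Poincare inequality of the `2 x 2` heat-bath chain from the three-row hypothesis. -/
theorem poincare_of_tripleHyp (h : TripleHyp) (f : Omega r c → ℝ) (hf : ∑ X, f X = 0) :
    4 / ((m : ℝ) * (m - 1) * ((n : ℝ) * (n - 1))) * ∑ X, f X ^ 2
      ≤ (1 / 2 : ℝ) * ∑ X, ∑ Y, blockChain r c X Y * (f X - f Y) ^ 2 := by
  rw [blockChain_dirichlet']
  have h1 := SBtot_ge_KR f
  have h2 := row_gap h f
  rw [Qrel_allRel_of_sum_zero f hf, dot_self_eq_sum_sq] at h2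
  have hd := denom_nonneg m n
  have e : 4 / ((m : ℝ) * (m - 1) * ((n : ℝ) * (n - 1))) * ∑ X, f X ^ 2
      = 1 / ((m : ℝ) * (m - 1) * ((n : ℝ) * (n - 1))) * (4 * ∑ X, f X ^ 2) := by ring
  rw [e]
  exact mul_le_mul_of_nonneg_left (by linarith) (by positivity)

/-- Poincare inequality of the `2 x 2` heat-bath chain from the anticommutator hypothesis. -/
theorem poincare_of_AC (h : ACHyp) (f : Omega r c → ℝ) (hf : ∑ X, f X = 0) :
    2 / ((m : ℝ) * (m - 1) * ((n : ℝ) * (n - 1))) * ∑ X, f X ^ 2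
      ≤ (1 / 2 : ℝ) * ∑ X, ∑ Y, blockChain r c X Y * (f X - f Y) ^ 2 := by
  rw [blockChain_dirichlet']
  have h1 := SBtot_ge_KR f
  have h1' := SBtot_ge_KC f
  have h2 := ac_gap h f
  rw [Qrel_allRel_of_sum_zero f hf, dot_self_eq_sum_sq] at h2
  have hd := denom_nonneg m n
  have e : 2 / ((m : ℝ) * (m - 1) * ((n : ℝ) * (n - 1))) * ∑ X, f X ^ 2
      = 1 / ((m : ℝ) * (m - 1) * ((n : ℝ) * (n - 1))) * (2 * ∑ X, f X ^ 2) := by ring
  rw [e]
  exact mul_le_mul_of_nonneg_left (by linarith) (by positivity)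

/-- Mixing of the lazy `2 x 2` heat-bath chain from a Poincare inequality. -/
theorem mixing_block (hm : 2 ≤ m) (hn : 2 ≤ n)
    (hP : ∀ f : Omega r c → ℝ, ∑ X, f X = 0 →
      2 / ((m : ℝ) * (m - 1) * ((n : ℝ) * (n - 1))) * ∑ X, f X ^ 2
        ≤ (1 / 2 : ℝ) * ∑ X, ∑ Y, blockChain r c X Y * (f X - f Y) ^ 2)
    (k t : ℕ) (ht : m ^ 2 * n ^ 2 * (m * n * (Nat.log 2 (∑ i, r i) + 1) + 2 * k) ≤ t)
    (X : Omega r c) :
    (1 / 2 : ℝ) * ∑ Y, |(MixCore.lazy (blockChain r c) ^ t) X Y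
        - 1 / (Fintype.card (Omega r c) : ℝ)| ≤ (1 / 2 : ℝ) ^ k :=
  mixing_of_poincare hm hn (blockChain r c) blockChain_symm blockChain_nonneg
    (blockChain_row hm hn) hP k t ht X

theorem poincare_weaken (f : Omega r c → ℝ)
    (h4 : 4 / ((m : ℝ) * (m - 1) * ((n : ℝ) * (n - 1))) * ∑ X, f X ^ 2
      ≤ (1 / 2 : ℝ) * ∑ X, ∑ Y, blockChain r c X Y * (f X - f Y) ^ 2) :
    2 / ((m : ℝ) * (m - 1) * ((n : ℝ) * (n - 1))) * ∑ X, f X ^ 2
      ≤ (1 / 2 : ℝ) * ∑ X, ∑ Y, blockChain r c X Y * (f X - f Y) ^ 2 := by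
  have hd := denom_nonneg m n
  have hs : 0 ≤ ∑ X, f X ^ 2 := Finset.sum_nonneg (fun _ _ => sq_nonneg _)
  have : 2 / ((m : ℝ) * (m - 1) * ((n : ℝ) * (n - 1))) * ∑ X, f X ^ 2
      ≤ 4 / ((m : ℝ) * (m - 1) * ((n : ℝ) * (n - 1))) * ∑ X, f X ^ 2 := by
    apply mul_le_mul_of_nonneg_right _ hs
    apply div_le_div_of_nonneg_right (by norm_num) hd
  linarith

/-- Main conditional theorem, three-row route. -/
theorem main_threeRow (h : ThreeRowGap) (hm : 2 ≤ m) (hn : 2 ≤ n) (r : Fin m → ℕ)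
    (c : Fin n → ℕ) :
    (∀ f : Omega r c → ℝ, ∑ X, f X = 0 →
      4 / ((m : ℝ) * (m - 1) * ((n : ℝ) * (n - 1))) * ∑ X, f X ^ 2
        ≤ (1 / 2 : ℝ) * ∑ X, ∑ Y, blockChain r c X Y * (f X - f Y) ^ 2) ∧
    ∀ (k t : ℕ), m ^ 2 * n ^ 2 * (m * n * (Nat.log 2 (∑ i, r i) + 1) + 2 * k) ≤ t →
      ∀ X : Omega r c,
        (1 / 2 : ℝ) * ∑ Y, |(MixCore.lazy (blockChain r c) ^ t) X Y
          - 1 / (Fintype.card (Omega r c) : ℝ)| ≤ (1 / 2 : ℝ) ^ k := by
  have hT := tripleHyp_of_threeRowGap h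
  refine ⟨fun f hf => poincare_of_tripleHyp hT f hf, fun k t ht X => ?_⟩
  exact mixing_block hm hn
    (fun f hf => poincare_weaken f (poincare_of_tripleHyp hT f hf)) k t ht X

/-- Main conditional theorem, anticommutator route. -/
theorem main_AC (h : ACHyp) (hm : 2 ≤ m) (hn : 2 ≤ n) (r : Fin m → ℕ) (c : Fin n → ℕ) :
    (∀ f : Omega r c → ℝ, ∑ X, f X = 0 →
      2 / ((m : ℝ) * (m - 1) * ((n : ℝ) * (n - 1))) * ∑ X, f X ^ 2
        ≤ (1 / 2 : ℝ) * ∑ X, ∑ Y, blockChain r c X Y * (f X - f Y) ^ 2) ∧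
    ∀ (k t : ℕ), m ^ 2 * n ^ 2 * (m * n * (Nat.log 2 (∑ i, r i) + 1) + 2 * k) ≤ t →
      ∀ X : Omega r c,
        (1 / 2 : ℝ) * ∑ Y, |(MixCore.lazy (blockChain r c) ^ t) X Y
          - 1 / (Fintype.card (Omega r c) : ℝ)| ≤ (1 / 2 : ℝ) ^ k := by
  refine ⟨fun f hf => poincare_of_AC h f hf, fun k t ht X => ?_⟩
  exact mixing_block hm hn (fun f hf => poincare_of_AC h f hf) k t ht X

end Vale.Agent.H91.CT
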