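import Vale.Agent.H91.CT.Loc
import Vale.Agent.H91.CT.Chain

/-!
P328 row L4: the lift hypotheses give the anticommutator inequality (AC).

Paper proof.  Fix `f`.  For every `i ≠ j` take the lifts `w i j a b` of `LiftHyp`, for every
`a ≠ b` the lifts `w' a b i j` of `LiftHypCol`.  By `loc_global`, for `i ≠ j`, `a ≠ b`:
`2 dot (Q_ij f) (Q^ab f) ≥ |Q_ij f|^2 + |Q^ab f|^2 - |w i j a b|^2 - |w' a b i j|^2`.
Sum over the ordered pairs: the left side is `2 dot (KR f) (KC f)` (`dot_Ksum_left/right`);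
on the right, `sum_{a ≠ b} |Q_ij f|^2 = n (n - 1) |Q_ij f|^2` and
`sum_{a ≠ b} |w i j a b|^2 ≤ (n (n - 1) - 2) |Q_ij f|^2`, so the row part is at least
`2 sum_{i ≠ j} |Q_ij f|^2 = 2 dot f (KR f)` (`dot_Ksum_self`), same for the columns.
-/

namespace Vale.Agent.H91.CT

open Finset Vale.Agent.H90 Vale.Agent.H88.CT

/-- The summation step, for weighted sums over two finite index types. -/
private theorem lift_sum_ineq {ι κ : Type*} [Fintype ι] [Fintype κ]
    (e : ι → ℝ) (e' : κ → ℝ) (R : ι → ℝ) (C : κ → ℝ) (U V D : ι → κ → ℝ)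
    (h1 : ∀ p q, e p * e' q * (R p + C q - U p q - V p q) ≤ e p * e' q * (2 * D p q))
    (h2 : ∀ p, e p * ∑ q, e' q * U p q ≤ e p * (((∑ q, e' q) - 2) * R p))
    (h3 : ∀ q, e' q * ∑ p, e p * V p q ≤ e' q * (((∑ p, e p) - 2) * C q)) :
    (∑ p, e p * R p) + (∑ q, e' q * C q) ≤ ∑ p, e p * ∑ q, e' q * D p q := by
  have hT : ∑ p, ∑ q, e p * e' q * (R p + C q - U p q - V p q)
      ≤ ∑ p, ∑ q, e p * e' q * (2 * D p q) :=
    Finset.sum_le_sum (fun p _ => Finset.sum_le_sum (fun q _ => h1 p q))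
  have hR : ∑ p, ∑ q, e p * e' q * (2 * D p q) = 2 * ∑ p, e p * ∑ q, e' q * D p q := by
    rw [Finset.mul_sum]
    refine Finset.sum_congr rfl (fun p _ => ?_)
    rw [Finset.mul_sum, Finset.mul_sum]
    refine Finset.sum_congr rfl (fun q _ => ?_)
    ring
  have t1 : ∑ p, ∑ q, e' q * (e p * R p) = (∑ q, e' q) * (∑ p, e p * R p) := by
    rw [Finset.mul_sum]
    refine Finset.sum_congr rfl (fun p _ => ?_)
    rw [Finset.sum_mul]
  have t2 : ∑ p, ∑ q, e p * (e' q * C q) = (∑ p, e p) * (∑ q, e' q * C q) := by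
    rw [Finset.sum_mul]
    refine Finset.sum_congr rfl (fun p _ => ?_)
    rw [Finset.mul_sum]
  have t3 : ∑ p, ∑ q, e p * (e' q * U p q) = ∑ p, e p * ∑ q, e' q * U p q := by
    refine Finset.sum_congr rfl (fun p _ => ?_)
    rw [Finset.mul_sum]
  have t4 : ∑ p, ∑ q, e' q * (e p * V p q) = ∑ q, e' q * ∑ p, e p * V p q := by
    rw [Finset.sum_comm]
    refine Finset.sum_congr rfl (fun q _ => ?_)
    rw [Finset.mul_sum]
  have hL : ∑ p, ∑ q, e p * e' q * (R p + C q - U p q - V p q)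
      = (∑ q, e' q) * (∑ p, e p * R p) + (∑ p, e p) * (∑ q, e' q * C q)
        - (∑ p, e p * ∑ q, e' q * U p q) - (∑ q, e' q * ∑ p, e p * V p q) := by
    have e1 : ∀ p q, e p * e' q * (R p + C q - U p q - V p q)
        = e' q * (e p * R p) + e p * (e' q * C q) - e p * (e' q * U p q)
          - e' q * (e p * V p q) := by
      intro p q; ring
    rw [← t1, ← t2, ← t3, ← t4]
    simp only [e1, Finset.sum_add_distrib, Finset.sum_sub_distrib]
  have hU : ∑ p, e p * ∑ q, e' q * U p q ≤ ((∑ q, e' q) - 2) * ∑ p, e p * R p := by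
    calc ∑ p, e p * ∑ q, e' q * U p q ≤ ∑ p, e p * (((∑ q, e' q) - 2) * R p) :=
          Finset.sum_le_sum (fun p _ => h2 p)
      _ = ((∑ q, e' q) - 2) * ∑ p, e p * R p := by
          rw [Finset.mul_sum]
          refine Finset.sum_congr rfl (fun p _ => ?_)
          ring
  have hV : ∑ q, e' q * ∑ p, e p * V p q ≤ ((∑ p, e p) - 2) * ∑ q, e' q * C q := by
    calc ∑ q, e' q * ∑ p, e p * V p q ≤ ∑ q, e' q * (((∑ p, e p) - 2) * C q) :=
          Finset.sum_le_sum (fun q _ => h3 q)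
      _ = ((∑ p, e p) - 2) * ∑ q, e' q * C q := by
          rw [Finset.mul_sum]
          refine Finset.sum_congr rfl (fun q _ => ?_)
          ring
  rw [hL, hR] at hT
  have x1 : ((∑ q, e' q) - 2) * ∑ p, e p * R p
      = (∑ q, e' q) * (∑ p, e p * R p) - 2 * ∑ p, e p * R p := by ring
  have x2 : ((∑ p, e p) - 2) * ∑ q, e' q * C q
      = (∑ p, e p) * (∑ q, e' q * C q) - 2 * ∑ q, e' q * C q := by ring
  rw [x1] at hU
  rw [x2] at hV
  linarith

/-- The indicator weight of ordered pairs of distinct indices. -/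
private noncomputable def offW {k : ℕ} (p : Fin k × Fin k) : ℝ := if p.1 ≠ p.2 then 1 else 0

private theorem offW_sum (k : ℕ) : ∑ p : Fin k × Fin k, offW p = (k : ℝ) * ((k : ℝ) - 1) := by
  rw [← count_ne k, Fintype.sum_prod_type]
  rfl

private theorem offW_sum_mul {k : ℕ} (F : Fin k → Fin k → ℝ) :
    ∑ p : Fin k × Fin k, offW p * F p.1 p.2 = ∑ a, ∑ b, if a ≠ b then F a b else 0 := by
  rw [Fintype.sum_prod_type]
  refine Finset.sum_congr rfl (fun a _ => Finset.sum_congr rfl (fun b _ => ?_))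
  unfold offW
  by_cases hab : a ≠ b
  · simp only [if_pos hab, one_mul]
  · simp only [if_neg hab, zero_mul]

theorem acHyp_of_lift (h : LiftHyp) (h' : LiftHypCol) : ACHyp := by
  intro m n r c f
  -- the lifts for the row pairs
  have hW : ∀ i j : Fin m, ∃ w : Fin n → Fin n → Omega r c → ℝ, i ≠ j →
      ((∀ a b : Fin n, a ≠ b →
        avgRel (TauRowRel i j a b) (w a b) = 0 ∧
        avgRel (BlockRel i j a b) (w a b)
          = avgRel (BlockRel i j a b) f - avgRel (RowRel i j) f) ∧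
      ∑ a : Fin n, ∑ b : Fin n, (if a ≠ b then dot (w a b) (w a b) else 0)
        ≤ ((n : ℝ) * (n - 1) - 2) * dot (Qrel (RowRel i j) f) (Qrel (RowRel i j) f)) := by
    intro i j
    by_cases hij : i ≠ j
    · obtain ⟨w, hw⟩ := h m n r c i j hij f
      exact ⟨w, fun _ => hw⟩
    · exact ⟨fun _ _ _ => 0, fun hh => absurd hh hij⟩
  choose W hW using hW
  -- the lifts for the column pairs
  have hW' : ∀ a b : Fin n, ∃ w : Fin m → Fin m → Omega r c → ℝ, a ≠ b →
      ((∀ i j : Fin m, i ≠ j →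
        avgRel (TauColRel i j a b) (w i j) = 0 ∧
        avgRel (BlockRel i j a b) (w i j)
          = avgRel (BlockRel i j a b) f - avgRel (ColRel a b) f) ∧
      ∑ i : Fin m, ∑ j : Fin m, (if i ≠ j then dot (w i j) (w i j) else 0)
        ≤ ((m : ℝ) * (m - 1) - 2) * dot (Qrel (ColRel a b) f) (Qrel (ColRel a b) f)) := by
    intro a b
    by_cases hab : a ≠ b
    · obtain ⟨w, hw⟩ := h' m n r c a b hab f
      exact ⟨w, fun _ => hw⟩
    · exact ⟨fun _ _ _ => 0, fun hh => absurd hh hab⟩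
  choose W' hW' using hW'
  -- the three sums
  have eR : dot f (KR f) = ∑ p : Fin m × Fin m, offW p *
      dot (Qrel (RowRel (r := r) (c := c) p.1 p.2) f) (Qrel (RowRel p.1 p.2) f) := by
    rw [offW_sum_mul (fun i j => dot (Qrel (RowRel (r := r) (c := c) i j) f)
      (Qrel (RowRel i j) f))]
    exact dot_Ksum_self (fun i j => rowRel_equiv i j) f
  have eC : dot f (KC f) = ∑ q : Fin n × Fin n, offW q *
      dot (Qrel (ColRel (r := r) (c := c) q.1 q.2) f) (Qrel (ColRel q.1 q.2) f) := by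
    rw [offW_sum_mul (fun a b => dot (Qrel (ColRel (r := r) (c := c) a b) f)
      (Qrel (ColRel a b) f))]
    exact dot_Ksum_self (fun a b => colRel_equiv a b) f
  have eD : dot (KR f) (KC f) = ∑ p : Fin m × Fin m, offW p *
      ∑ q : Fin n × Fin n, offW q *
        dot (Qrel (RowRel (r := r) (c := c) p.1 p.2) f) (Qrel (ColRel q.1 q.2) f) := by
    rw [offW_sum_mul (fun i j => ∑ q : Fin n × Fin n, offW q *
        dot (Qrel (RowRel (r := r) (c := c) i j) f) (Qrel (ColRel q.1 q.2) f))]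
    unfold KR
    rw [dot_Ksum_left]
    refine Finset.sum_congr rfl (fun i _ => Finset.sum_congr rfl (fun j _ => ?_))
    by_cases hij : i ≠ j
    · rw [if_pos hij, if_pos hij]
      rw [offW_sum_mul (fun a b => dot (Qrel (RowRel (r := r) (c := c) i j) f)
        (Qrel (ColRel a b) f))]
      unfold KC
      rw [dot_Ksum_right]
    · rw [if_neg hij, if_neg hij]
  rw [eR, eC, eD]
  refine lift_sum_ineq offW offW _ _
    (fun p q => dot (W p.1 p.2 q.1 q.2) (W p.1 p.2 q.1 q.2))
    (fun p q => dot (W' q.1 q.2 p.1 p.2) (W' q.1 q.2 p.1 p.2)) _ ?_ ?_ ?_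
  · rintro ⟨i, j⟩ ⟨a, b⟩
    by_cases hij : i ≠ j
    · by_cases hab : a ≠ b
      · have e1 : offW (i, j) = 1 := if_pos hij
        have e2 : offW (a, b) = 1 := if_pos hab
        rw [e1, e2, one_mul, one_mul, one_mul]
        obtain ⟨hw1, hw2⟩ := (hW i j hij).1 a b hab
        obtain ⟨hw3, hw4⟩ := (hW' a b hab).1 i j hij
        exact loc_global i j hij a b hab f (W i j a b) (W' a b i j) hw1 hw2 hw3 hw4
      · have e2 : offW (a, b) = 0 := if_neg hab
        rw [e2, mul_zero, zero_mul, zero_mul]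
    · have e1 : offW (i, j) = 0 := if_neg hij
      rw [e1, zero_mul, zero_mul, zero_mul]
  · rintro ⟨i, j⟩
    by_cases hij : i ≠ j
    · have e1 : offW (i, j) = 1 := if_pos hij
      rw [e1, one_mul, one_mul, offW_sum]
      have := (hW i j hij).2
      rw [offW_sum_mul (fun a b => dot (W i j a b) (W i j a b))]
      exact this
    · have e1 : offW (i, j) = 0 := if_neg hij
      rw [e1, zero_mul, zero_mul]
  · rintro ⟨a, b⟩
    by_cases hab : a ≠ b
    · have e1 : offW (a, b) = 1 := if_pos hab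
      rw [e1, one_mul, one_mul, offW_sum]
      have := (hW' a b hab).2
      rw [offW_sum_mul (fun i j => dot (W' a b i j) (W' a b i j))]
      exact this
    · have e1 : offW (a, b) = 0 := if_neg hab
      rw [e1, zero_mul, zero_mul]

end Vale.Agent.H91.CT
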