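import Vale.Agent.H91.CT.TauDefs
import Vale.Agent.H91.CT.Transpose

/-!
P328 row L3: the lift hypothesis for column pairs follows from the one for row pairs by
transposition (`transposeEquiv`, `avgRel_comp_equiv`, `colRel_iff_transpose`,
`blockRel_iff_transpose` of Transpose.lean; the level is symmetric:
`tau i j a b X = tau a b i j Xᵀ`).
-/

namespace Vale.Agent.H91.CT

open Finset Vale.Agent.H90 Vale.Agent.H88.CT

/-- The level of a block is symmetric under transposition. -/
theorem tau_transpose {m n : ℕ} {r : Fin m → ℕ} {c : Fin n → ℕ} (i j : Fin m) (a b : Fin n)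
    (X : Omega r c) : tau a b i j (transposeEquiv r c X) = tau i j a b X := rfl

theorem tauColRel_iff_transpose {m n : ℕ} {r : Fin m → ℕ} {c : Fin n → ℕ} (i j : Fin m)
    (a b : Fin n) (X Y : Omega r c) :
    TauColRel i j a b X Y ↔ TauRowRel a b i j (transposeEquiv r c X) (transposeEquiv r c Y) := by
  unfold TauColRel TauRowRel
  rw [colRel_iff_transpose a b X Y, tau_transpose, tau_transpose]

/-- `dot (Qrel rel f) (Qrel rel f)` as a sum of squares. -/
theorem dot_Qrel_self_eq_sum_sq {Ω : Type*} [Fintype Ω] (rel : Ω → Ω → Prop) [DecidableRel rel]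
    (f : Ω → ℝ) : dot (Qrel rel f) (Qrel rel f) = ∑ x, (f x - avgRel rel f x) ^ 2 := by
  unfold dot Qrel
  refine Finset.sum_congr rfl ?_
  intro x _
  simp only [Pi.sub_apply]
  ring

/-- Transport of the squared norm of `Qrel` along an equivalence respecting the relations. -/
theorem dot_Qrel_transport {Ω Ω' : Type*} [Fintype Ω] [Fintype Ω'] (e : Ω ≃ Ω')
    (rel : Ω → Ω → Prop) [DecidableRel rel] (rel' : Ω' → Ω' → Prop) [DecidableRel rel']
    (h : ∀ x y, rel x y ↔ rel' (e x) (e y)) (f : Ω → ℝ) :
    dot (Qrel rel f) (Qrel rel f)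
      = dot (Qrel rel' (fun y' => f (e.symm y'))) (Qrel rel' (fun y' => f (e.symm y'))) := by
  rw [dot_Qrel_self_eq_sum_sq, dot_Qrel_self_eq_sum_sq]
  exact sum_sq_transport e rel rel' h f

/-- Transport of the squared norm of a function along an equivalence. -/
theorem dot_comp_equiv {Ω Ω' : Type*} [Fintype Ω] [Fintype Ω'] (e : Ω ≃ Ω') (g : Ω' → ℝ) :
    dot (fun x => g (e x)) (fun x => g (e x)) = dot g g := by
  unfold dot
  exact Equiv.sum_comp e (fun x' => g x' * g x')

theorem liftHypCol_of_liftHyp (h : LiftHyp) : LiftHypCol := by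
  intro m n r c a b hab f
  obtain ⟨w', hw1, hw2⟩ := h n m c r a b hab (fun X' => f ((transposeEquiv r c).symm X'))
  refine ⟨fun i j X => w' i j (transposeEquiv r c X), ?_, ?_⟩
  · intro i j hij
    obtain ⟨h0, hB⟩ := hw1 i j hij
    constructor
    · funext X
      have h1 := avgRel_comp_equiv (transposeEquiv r c) (TauColRel i j a b) (TauRowRel a b i j)
        (tauColRel_iff_transpose i j a b) (w' i j) X
      rw [h1, h0]
      rfl
    · funext X
      have h1 := avgRel_comp_equiv (transposeEquiv r c) (BlockRel i j a b) (BlockRel a b i j)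
        (blockRel_iff_transpose i j a b) (w' i j) X
      have h2 := avgRel_comp_equiv (transposeEquiv r c) (BlockRel i j a b) (BlockRel a b i j)
        (blockRel_iff_transpose i j a b) (fun X' => f ((transposeEquiv r c).symm X')) X
      have h3 := avgRel_comp_equiv (transposeEquiv r c) (ColRel a b) (RowRel a b)
        (colRel_iff_transpose a b) (fun X' => f ((transposeEquiv r c).symm X')) X
      simp only [Equiv.symm_apply_apply] at h2 h3
      rw [h1, hB]
      simp only [Pi.sub_apply]
      rw [h2, h3]
  · have hsum : ∑ i : Fin m, ∑ j : Fin m,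
        (if i ≠ j then dot (fun X => w' i j (transposeEquiv r c X))
          (fun X => w' i j (transposeEquiv r c X)) else 0)
        = ∑ i : Fin m, ∑ j : Fin m, (if i ≠ j then dot (w' i j) (w' i j) else 0) := by
      refine Finset.sum_congr rfl (fun i _ => Finset.sum_congr rfl (fun j _ => ?_))
      rw [dot_comp_equiv (transposeEquiv r c) (w' i j)]
    rw [hsum, dot_Qrel_transport (transposeEquiv r c) (ColRel a b) (RowRel a b)
      (colRel_iff_transpose a b) f]
    exact hw2

end Vale.Agent.H91.CT
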