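import Mathlib

/-!
P328 row R2: the coupling of the uniform laws on two integer intervals of `k` and `k + 1`
points, in the form of an inequality between averages.
-/

namespace Vale.Agent.H91.CT

open Finset

/-- If `|F i - G i| ≤ L` and `|F i - G (i + 1)| ≤ L` for all `i < k`, then the average of `F`
over `{0, …, k - 1}` and the average of `G` over `{0, …, k}` differ by at most `L`.
(Coupling: `i ↦ i` with weight `(k - i) / (k (k + 1))`, `i ↦ i + 1` with weight
`(i + 1) / (k (k + 1))`.) -/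
theorem interval_coupling (k : ℕ) (hk : 0 < k) (F G : ℕ → ℝ) (L : ℝ)
    (h0 : ∀ i, i < k → |F i - G i| ≤ L) (h1 : ∀ i, i < k → |F i - G (i + 1)| ≤ L) :
    |(∑ i ∈ range k, F i) / (k : ℝ) - (∑ i ∈ range (k + 1), G i) / ((k : ℝ) + 1)| ≤ L := by
  have hk' : (0 : ℝ) < k := by exact_mod_cast hk
  have hk1 : (0 : ℝ) < (k : ℝ) + 1 := by linarith
  have hkk : (0 : ℝ) < (k : ℝ) * ((k : ℝ) + 1) := mul_pos hk' hk1
  have e1 : ∑ i ∈ range k, ((i : ℝ) + 1) * G (i + 1) = ∑ j ∈ range (k + 1), (j : ℝ) * G j := by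
    rw [Finset.sum_range_succ' (fun j => (j : ℝ) * G j) k]
    simp
  have e2 : ∑ i ∈ range k, ((k : ℝ) - i) * G i = ∑ j ∈ range (k + 1), ((k : ℝ) - j) * G j := by
    rw [Finset.sum_range_succ]
    simp
  have e3 : ∑ j ∈ range (k + 1), ((k : ℝ) - j) * G j + ∑ j ∈ range (k + 1), (j : ℝ) * G j
      = k * ∑ j ∈ range (k + 1), G j := by
    rw [← Finset.sum_add_distrib, Finset.mul_sum]
    apply Finset.sum_congr rfl
    intros
    ring
  have key : (∑ i ∈ range k, F i) / (k : ℝ) - (∑ i ∈ range (k + 1), G i) / ((k : ℝ) + 1)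
      = ∑ i ∈ range k, (((k : ℝ) - i) / (k * (k + 1)) * (F i - G i)
          + ((i : ℝ) + 1) / (k * (k + 1)) * (F i - G (i + 1))) := by
    have : ∑ i ∈ range k, (((k : ℝ) - i) / (k * (k + 1)) * (F i - G i)
          + ((i : ℝ) + 1) / (k * (k + 1)) * (F i - G (i + 1)))
        = (∑ i ∈ range k, F i) / k
          - (∑ i ∈ range k, ((k : ℝ) - i) * G i + ∑ i ∈ range k, ((i : ℝ) + 1) * G (i + 1))
              / (k * (k + 1)) := by
      rw [← Finset.sum_add_distrib, Finset.sum_div, Finset.sum_div, ← Finset.sum_sub_distrib]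
      apply Finset.sum_congr rfl
      intro i _
      field_simp
      ring
    rw [this, e1, e2, e3]
    field_simp
  rw [key]
  calc |∑ i ∈ range k, (((k : ℝ) - i) / (k * (k + 1)) * (F i - G i)
          + ((i : ℝ) + 1) / (k * (k + 1)) * (F i - G (i + 1)))|
      ≤ ∑ i ∈ range k, |((k : ℝ) - i) / (k * (k + 1)) * (F i - G i)
          + ((i : ℝ) + 1) / (k * (k + 1)) * (F i - G (i + 1))| := Finset.abs_sum_le_sum_abs _ _
    _ ≤ ∑ i ∈ range k, L / k := by
        apply Finset.sum_le_sum
        intro i hi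
        have hik : i < k := Finset.mem_range.mp hi
        have hik' : (i : ℝ) < k := by exact_mod_cast hik
        have hi0 : (0 : ℝ) ≤ i := Nat.cast_nonneg i
        have ha : 0 ≤ ((k : ℝ) - i) / (k * (k + 1)) := div_nonneg (by linarith) hkk.le
        have hb : 0 ≤ ((i : ℝ) + 1) / (k * (k + 1)) := div_nonneg (by linarith) hkk.le
        have hab : ((k : ℝ) - i) / (k * (k + 1)) + ((i : ℝ) + 1) / (k * (k + 1)) = 1 / k := by
          field_simp
          ring
        calc |((k : ℝ) - i) / (k * (k + 1)) * (F i - G i)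
              + ((i : ℝ) + 1) / (k * (k + 1)) * (F i - G (i + 1))|
            ≤ |((k : ℝ) - i) / (k * (k + 1)) * (F i - G i)|
              + |((i : ℝ) + 1) / (k * (k + 1)) * (F i - G (i + 1))| := abs_add_le _ _
          _ = ((k : ℝ) - i) / (k * (k + 1)) * |F i - G i|
              + ((i : ℝ) + 1) / (k * (k + 1)) * |F i - G (i + 1)| := by
              rw [abs_mul, abs_mul, abs_of_nonneg ha, abs_of_nonneg hb]
          _ ≤ ((k : ℝ) - i) / (k * (k + 1)) * L + ((i : ℝ) + 1) / (k * (k + 1)) * L :=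
              add_le_add (mul_le_mul_of_nonneg_left (h0 i hik) ha)
                (mul_le_mul_of_nonneg_left (h1 i hik) hb)
          _ = L / k := by
              rw [← add_mul, hab]
              ring
    _ = L := by
        rw [Finset.sum_const, Finset.card_range, nsmul_eq_mul]
        field_simp

/-- Same interval: the identity coupling. -/
theorem interval_coupling_same (k : ℕ) (hk : 0 < k) (F G : ℕ → ℝ) (L : ℝ)
    (h0 : ∀ i, i < k → |F i - G i| ≤ L) :
    |(∑ i ∈ range k, F i) / (k : ℝ) - (∑ i ∈ range k, G i) / (k : ℝ)| ≤ L := by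
  have hk' : (0 : ℝ) < k := by exact_mod_cast hk
  rw [← sub_div, ← Finset.sum_sub_distrib, abs_div, abs_of_pos hk', div_le_iff₀ hk']
  calc |∑ i ∈ range k, (F i - G i)| ≤ ∑ i ∈ range k, |F i - G i| := Finset.abs_sum_le_sum_abs _ _
    _ ≤ ∑ i ∈ range k, L := Finset.sum_le_sum (fun i hi => h0 i (Finset.mem_range.mp hi))
    _ = L * k := by
        rw [Finset.sum_const, Finset.card_range, nsmul_eq_mul]
        ring

end Vale.Agent.H91.CT
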