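import Vale.Agent.H91.CT.Rel
import Vale.Agent.H91.CT.Interval

/-!
P328 row R3: the Lipschitz step.  If `Y` is obtained from `X` by a unit move in rows `i, j`
between the columns `u, v`, then the heat-bath averages of the block in rows `i, j` and columns
`v, e` at `X` and at `Y` differ by at most the Lipschitz constant of `f` along unit moves in
rows `i, j` between two of the columns `u, v, e`.

Paper proof.  The `BlockRel i j v e`-class of `X` is `{Z_t}`, `t = Z i v` ranging over the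
integer interval `[w - s_e, min s_v w]` (`w = X i v + X i e`, `s_v = X i v + X j v`,
`s_e = X i e + X j e`; truncated subtraction).  For `Y` the same with `w - 1` instead of `w`
and the same `s_v, s_e`: the interval is `[lo - α, hi - β]`, `α, β ∈ {0, 1}`.  `Z_t` and
`Z'_{t-1}` differ by a unit move between `u, v`; `Z_t` and `Z'_t` differ by a unit move
between `u, e`.  Now apply `interval_coupling` / `interval_coupling_same` (four cases).
-/

namespace Vale.Agent.H91.CT

open Finset Vale.Agent.H90 Vale.Agent.H88.CT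

variable {m n : ℕ} {r : Fin m → ℕ} {c : Fin n → ℕ}

/-- Two functions that agree off two points have the same sum iff the sums over the two points
agree. -/
theorem sum_eq_iff_pair {α : Type*} [Fintype α] [DecidableEq α] (g g' : α → ℕ) (v e : α)
    (hve : v ≠ e) (h : ∀ l, l ≠ v → l ≠ e → g l = g' l) :
    (∑ l, g l = ∑ l, g' l) ↔ g v + g e = g' v + g' e := by
  have key : ∀ g : α → ℕ, ∑ l, g l = g v + g e + ∑ l ∈ (univ.erase v).erase e, g l := by
    intro g
    rw [← Finset.add_sum_erase univ g (mem_univ v),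
      ← Finset.add_sum_erase (univ.erase v) g (mem_erase.2 ⟨hve.symm, mem_univ e⟩)]
    ring
  rw [key g, key g']
  have hrest : ∑ l ∈ (univ.erase v).erase e, g l = ∑ l ∈ (univ.erase v).erase e, g' l := by
    refine Finset.sum_congr rfl (fun l hl => ?_)
    have h1 := mem_erase.1 hl
    exact h l (mem_erase.1 h1.2).1 h1.1
  rw [hrest]
  omega

/-- The entries of the table in the `BlockRel i j v e`-class of `X` whose `(i, v)`-entry
is `t`. -/
def tabFun (i j : Fin m) (v e : Fin n) (X : Fin m → Fin n → ℕ) (t : ℕ) : Fin m → Fin n → ℕ :=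
  fun k l =>
    if k = i then (if l = v then t else if l = e then X i v + X i e - t else X k l)
    else if k = j then
      (if l = v then X i v + X j v - t else if l = e then X j e + t - X i v else X k l)
    else X k l

theorem tabFun_iv (i j : Fin m) (v e : Fin n) (X : Fin m → Fin n → ℕ) (t : ℕ) :
    tabFun i j v e X t i v = t := by
  simp [tabFun]

theorem tabFun_ie (i j : Fin m) (v e : Fin n) (hve : v ≠ e) (X : Fin m → Fin n → ℕ) (t : ℕ) :
    tabFun i j v e X t i e = X i v + X i e - t := by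
  simp [tabFun, hve.symm]

theorem tabFun_jv (i j : Fin m) (hij : i ≠ j) (v e : Fin n) (X : Fin m → Fin n → ℕ) (t : ℕ) :
    tabFun i j v e X t j v = X i v + X j v - t := by
  simp [tabFun, hij.symm]

theorem tabFun_je (i j : Fin m) (hij : i ≠ j) (v e : Fin n) (hve : v ≠ e)
    (X : Fin m → Fin n → ℕ) (t : ℕ) :
    tabFun i j v e X t j e = X j e + t - X i v := by
  simp [tabFun, hij.symm, hve.symm]

theorem tabFun_off (i j : Fin m) (v e : Fin n) (X : Fin m → Fin n → ℕ) (t : ℕ) (k : Fin m)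
    (l : Fin n) (h : ¬ ((k = i ∨ k = j) ∧ (l = v ∨ l = e))) : tabFun i j v e X t k l = X k l := by
  unfold tabFun
  by_cases hki : k = i
  · have hlv : l ≠ v := fun hl => h ⟨Or.inl hki, Or.inl hl⟩
    have hle : l ≠ e := fun hl => h ⟨Or.inl hki, Or.inr hl⟩
    simp [hki, hlv, hle]
  · by_cases hkj : k = j
    · have hlv : l ≠ v := fun hl => h ⟨Or.inr hkj, Or.inl hl⟩
      have hle : l ≠ e := fun hl => h ⟨Or.inr hkj, Or.inr hl⟩
      simp [hkj, hlv, hle]
    · simp [hki, hkj]

theorem tabFun_margins (i j : Fin m) (hij : i ≠ j) (v e : Fin n) (hve : v ≠ e) (X : Omega r c)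
    (t : ℕ) (h1 : t ≤ X.1 i v + X.1 i e) (h2 : t ≤ X.1 i v + X.1 j v)
    (h3 : X.1 i v ≤ X.1 j e + t) :
    (∀ k, ∑ l, tabFun i j v e X.1 t k l = r k) ∧ (∀ l, ∑ k, tabFun i j v e X.1 t k l = c l) := by
  constructor
  · intro k
    rw [← X.2.1 k]
    rw [sum_eq_iff_pair (fun l => tabFun i j v e X.1 t k l) (fun l => X.1 k l) v e hve]
    · by_cases hki : k = i
      · subst hki
        rw [tabFun_iv, tabFun_ie _ _ _ _ hve]
        omega
      · by_cases hkj : k = j
        · subst hkj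
          rw [tabFun_jv _ _ hij, tabFun_je _ _ hij _ _ hve]
          omega
        · rw [tabFun_off, tabFun_off]
          · rintro ⟨h | h, _⟩
            · exact hki h
            · exact hkj h
          · rintro ⟨h | h, _⟩
            · exact hki h
            · exact hkj h
    · intro l hlv hle
      exact tabFun_off _ _ _ _ _ _ _ _ (fun h => h.2.elim hlv hle)
  · intro l
    rw [← X.2.2 l]
    rw [sum_eq_iff_pair (fun k => tabFun i j v e X.1 t k l) (fun k => X.1 k l) i j hij]
    · by_cases hlv : l = v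
      · subst hlv
        rw [tabFun_iv, tabFun_jv _ _ hij]
        omega
      · by_cases hle : l = e
        · subst hle
          rw [tabFun_ie _ _ _ _ hve, tabFun_je _ _ hij _ _ hve]
          omega
        · rw [tabFun_off, tabFun_off]
          · rintro ⟨_, h | h⟩
            · exact hlv h
            · exact hle h
          · rintro ⟨_, h | h⟩
            · exact hlv h
            · exact hle h
    · intro k hki hkj
      exact tabFun_off _ _ _ _ _ _ _ _ (fun h => h.1.elim hki hkj)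

/-- The table in the `BlockRel i j v e`-class of `X` whose `(i, v)`-entry is `t`
(junk value `X` when there is none). -/
noncomputable def tab (i j : Fin m) (hij : i ≠ j) (v e : Fin n) (hve : v ≠ e) (X : Omega r c)
    (t : ℕ) : Omega r c :=
  if h : t ≤ X.1 i v + X.1 i e ∧ t ≤ X.1 i v + X.1 j v ∧ X.1 i v ≤ X.1 j e + t then
    ⟨tabFun i j v e X.1 t, tabFun_margins i j hij v e hve X t h.1 h.2.1 h.2.2⟩
  else X

theorem tab_val (i j : Fin m) (hij : i ≠ j) (v e : Fin n) (hve : v ≠ e) (X : Omega r c)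
    (t : ℕ) (h : t ≤ X.1 i v + X.1 i e ∧ t ≤ X.1 i v + X.1 j v ∧ X.1 i v ≤ X.1 j e + t) :
    (tab i j hij v e hve X t).1 = tabFun i j v e X.1 t := by
  have h' : tab i j hij v e hve X t
      = ⟨tabFun i j v e X.1 t, tabFun_margins i j hij v e hve X t h.1 h.2.1 h.2.2⟩ := dif_pos h
  rw [h']

theorem tab_neg (i j : Fin m) (hij : i ≠ j) (v e : Fin n) (hve : v ≠ e) (X : Omega r c)
    (t : ℕ) (h : ¬ (t ≤ X.1 i v + X.1 i e ∧ t ≤ X.1 i v + X.1 j v ∧ X.1 i v ≤ X.1 j e + t)) :
    tab i j hij v e hve X t = X := dif_neg h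

theorem blockRel_tab (i j : Fin m) (hij : i ≠ j) (v e : Fin n) (hve : v ≠ e) (X : Omega r c)
    (t : ℕ) : BlockRel i j v e X (tab i j hij v e hve X t) := by
  intro k l hkl
  by_cases h : t ≤ X.1 i v + X.1 i e ∧ t ≤ X.1 i v + X.1 j v ∧ X.1 i v ≤ X.1 j e + t
  · rw [tab_val i j hij v e hve X t h, tabFun_off _ _ _ _ _ _ _ _ hkl]
  · rw [tab_neg i j hij v e hve X t h]

/-- The four relations between the block entries of two tables in the same block class. -/
theorem block_sums (i j : Fin m) (hij : i ≠ j) (v e : Fin n) (hve : v ≠ e) (X Z : Omega r c)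
    (hZ : BlockRel i j v e X Z) :
    Z.1 i v + Z.1 i e = X.1 i v + X.1 i e ∧ Z.1 j v + Z.1 j e = X.1 j v + X.1 j e ∧
      Z.1 i v + Z.1 j v = X.1 i v + X.1 j v ∧ Z.1 i e + Z.1 j e = X.1 i e + X.1 j e := by
  have hrow : ∀ k, Z.1 k v + Z.1 k e = X.1 k v + X.1 k e := by
    intro k
    refine (sum_eq_iff_pair (fun l => Z.1 k l) (fun l => X.1 k l) v e hve ?_).1 ?_
    · intro l hlv hle
      exact (hZ k l (fun h => h.2.elim hlv hle)).symm
    · rw [Z.2.1 k, X.2.1 k]
  have hcol : ∀ l, Z.1 i l + Z.1 j l = X.1 i l + X.1 j l := by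
    intro l
    refine (sum_eq_iff_pair (fun k => Z.1 k l) (fun k => X.1 k l) i j hij ?_).1 ?_
    · intro k hki hkj
      exact (hZ k l (fun h => h.1.elim hki hkj)).symm
    · rw [Z.2.2 l, X.2.2 l]
  exact ⟨hrow i, hrow j, hcol v, hcol e⟩

theorem tab_of_blockRel (i j : Fin m) (hij : i ≠ j) (v e : Fin n) (hve : v ≠ e) (X Z : Omega r c)
    (hZ : BlockRel i j v e X Z) :
    (Z.1 i v ≤ X.1 i v + X.1 i e ∧ Z.1 i v ≤ X.1 i v + X.1 j v ∧ X.1 i v ≤ X.1 j e + Z.1 i v) ∧
      tab i j hij v e hve X (Z.1 i v) = Z := by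
  obtain ⟨s1, s2, s3, s4⟩ := block_sums i j hij v e hve X Z hZ
  have hval : Z.1 i v ≤ X.1 i v + X.1 i e ∧ Z.1 i v ≤ X.1 i v + X.1 j v ∧
      X.1 i v ≤ X.1 j e + Z.1 i v := by
    refine ⟨?_, ?_, ?_⟩ <;> omega
  refine ⟨hval, ?_⟩
  apply Subtype.ext
  rw [tab_val i j hij v e hve X _ hval]
  funext k l
  by_cases hkl : (k = i ∨ k = j) ∧ (l = v ∨ l = e)
  · obtain ⟨hk | hk, hl | hl⟩ := hkl
    · subst hk; subst hl
      rw [tabFun_iv]
    · subst hk; subst hl
      rw [tabFun_ie _ _ _ _ hve]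
      omega
    · subst hk; subst hl
      rw [tabFun_jv _ _ hij]
      omega
    · subst hk; subst hl
      rw [tabFun_je _ _ hij _ _ hve]
      omega
  · rw [tabFun_off _ _ _ _ _ _ _ _ hkl]
    exact hZ k l hkl

/-- Sums over a block class as sums over the interval of values of the `(i, v)`-entry. -/
theorem sum_class (i j : Fin m) (hij : i ≠ j) (v e : Fin n) (hve : v ≠ e) (X : Omega r c)
    (g : Omega r c → ℝ) :
    ∑ Z ∈ univ.filter (fun Z => BlockRel i j v e X Z), g Z
      = ∑ t ∈ Finset.Ico (X.1 i v - X.1 j e)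
          (min (X.1 i v + X.1 i e) (X.1 i v + X.1 j v) + 1),
          g (tab i j hij v e hve X t) := by
  refine Finset.sum_nbij' (fun Z => Z.1 i v) (fun t => tab i j hij v e hve X t) ?_ ?_ ?_ ?_ ?_
  · intro Z hZ
    have hZ' : BlockRel i j v e X Z := (mem_filter.1 hZ).2
    have := (tab_of_blockRel i j hij v e hve X Z hZ').1
    rw [Finset.mem_Ico]
    omega
  · intro t _
    exact mem_filter.2 ⟨mem_univ _, blockRel_tab i j hij v e hve X t⟩
  · intro Z hZ
    have hZ' : BlockRel i j v e X Z := (mem_filter.1 hZ).2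
    exact (tab_of_blockRel i j hij v e hve X Z hZ').2
  · intro t ht
    rw [Finset.mem_Ico] at ht
    have hval : t ≤ X.1 i v + X.1 i e ∧ t ≤ X.1 i v + X.1 j v ∧ X.1 i v ≤ X.1 j e + t := by
      refine ⟨?_, ?_, ?_⟩ <;> omega
    show (tab i j hij v e hve X t).1 i v = t
    rw [tab_val i j hij v e hve X t hval, tabFun_iv]
  · intro Z hZ
    have hZ' : BlockRel i j v e X Z := (mem_filter.1 hZ).2
    show g Z = g (tab i j hij v e hve X (Z.1 i v))
    rw [(tab_of_blockRel i j hij v e hve X Z hZ').2]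

/-- The block average as an average over an integer interval. -/
theorem avg_class (i j : Fin m) (hij : i ≠ j) (v e : Fin n) (hve : v ≠ e) (f : Omega r c → ℝ)
    (X : Omega r c) :
    avgRel (BlockRel i j v e) f X =
      (∑ s ∈ range (min (X.1 i v + X.1 i e) (X.1 i v + X.1 j v) + 1 - (X.1 i v - X.1 j e)),
          f (tab i j hij v e hve X (X.1 i v - X.1 j e + s)))
        / ((min (X.1 i v + X.1 i e) (X.1 i v + X.1 j v) + 1 - (X.1 i v - X.1 j e) : ℕ) : ℝ) := by
  have hcard : ((univ.filter (fun Z => BlockRel i j v e X Z)).card : ℝ)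
      = ((min (X.1 i v + X.1 i e) (X.1 i v + X.1 j v) + 1 - (X.1 i v - X.1 j e) : ℕ) : ℝ) := by
    have h1 := sum_class i j hij v e hve X (fun _ => (1 : ℝ))
    simp only [Finset.sum_const, nsmul_eq_mul, mul_one, Nat.card_Ico] at h1
    exact h1
  unfold avgRel
  rw [hcard, sum_class i j hij v e hve X f, Finset.sum_Ico_eq_sum_range]

theorem lip_step (i j : Fin m) (u v e : Fin n) (hue : u ≠ e) (hve : v ≠ e)
    (f : Omega r c → ℝ) (L : ℝ)
    (hL : ∀ X Y : Omega r c, Step3 i j u v e X Y → |f X - f Y| ≤ L)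
    (X Y : Omega r c) (hXY : Move i j u v X Y) :
    |avgRel (BlockRel i j v e) f X - avgRel (BlockRel i j v e) f Y| ≤ L := by
  obtain ⟨hB, m1, m2, m3, m4⟩ := hXY
  have hij : i ≠ j := by
    rintro rfl
    omega
  have huv : u ≠ v := by
    rintro rfl
    omega
  have hLuv : ∀ Z Z' : Omega r c, Move i j u v Z Z' → |f Z - f Z'| ≤ L := fun Z Z' h =>
    hL Z Z' ⟨u, v, Or.inl rfl, Or.inr (Or.inl rfl), huv, h⟩
  have hLue : ∀ Z Z' : Omega r c, Move i j u e Z Z' → |f Z - f Z'| ≤ L := fun Z Z' h =>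
    hL Z Z' ⟨u, e, Or.inl rfl, Or.inr (Or.inr rfl), hue, h⟩
  -- entries of `Y` in terms of those of `X`
  have hYie : X.1 i e = Y.1 i e :=
    hB i e (fun h => h.2.elim (fun h' => hue h'.symm) (fun h' => hve h'.symm))
  have hYje : X.1 j e = Y.1 j e :=
    hB j e (fun h => h.2.elim (fun h' => hue h'.symm) (fun h' => hve h'.symm))
  -- the two kinds of unit moves between the block classes of `X` and `Y`
  have mv1 : ∀ t, t + 1 ≤ X.1 i v + X.1 i e → t + 1 ≤ X.1 i v + X.1 j v →
      X.1 i v ≤ X.1 j e + (t + 1) →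
      Move i j u v (tab i j hij v e hve X (t + 1)) (tab i j hij v e hve Y t) := by
    intro t h1 h2 h3
    have hvX : t + 1 ≤ X.1 i v + X.1 i e ∧ t + 1 ≤ X.1 i v + X.1 j v ∧
        X.1 i v ≤ X.1 j e + (t + 1) := ⟨h1, h2, h3⟩
    have hvY : t ≤ Y.1 i v + Y.1 i e ∧ t ≤ Y.1 i v + Y.1 j v ∧ Y.1 i v ≤ Y.1 j e + t := by
      refine ⟨?_, ?_, ?_⟩ <;> omega
    have eX := tab_val i j hij v e hve X (t + 1) hvX
    have eY := tab_val i j hij v e hve Y t hvY
    have offu : ∀ k, ¬ ((k = i ∨ k = j) ∧ (u = v ∨ u = e)) :=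
      fun k h => h.2.elim huv hue
    refine ⟨?_, ?_, ?_, ?_, ?_⟩
    · intro k l hkl
      rw [eX, eY]
      by_cases hkl' : (k = i ∨ k = j) ∧ (l = v ∨ l = e)
      · obtain ⟨hk, hl⟩ := hkl'
        have hl' : l = e := hl.resolve_left (fun h => hkl ⟨hk, Or.inr h⟩)
        subst hl'
        rcases hk with hk | hk
        · subst hk
          rw [tabFun_ie _ _ _ _ hve, tabFun_ie _ _ _ _ hve]
          omega
        · subst hk
          rw [tabFun_je _ _ hij _ _ hve, tabFun_je _ _ hij _ _ hve]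
          omega
      · rw [tabFun_off _ _ _ _ _ _ _ _ hkl', tabFun_off _ _ _ _ _ _ _ _ hkl']
        exact hB k l hkl
    · rw [eX, eY, tabFun_off _ _ _ _ _ _ _ _ (offu i), tabFun_off _ _ _ _ _ _ _ _ (offu i)]
      exact m1
    · rw [eX, eY, tabFun_jv _ _ hij, tabFun_jv _ _ hij]
      omega
    · rw [eX, eY, tabFun_iv, tabFun_iv]
    · rw [eX, eY, tabFun_off _ _ _ _ _ _ _ _ (offu j), tabFun_off _ _ _ _ _ _ _ _ (offu j)]
      exact m4
  have mv2 : ∀ t, t + 1 ≤ X.1 i v + X.1 i e → t ≤ X.1 i v + X.1 j v →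
      X.1 i v ≤ X.1 j e + t →
      Move i j u e (tab i j hij v e hve X t) (tab i j hij v e hve Y t) := by
    intro t h1 h2 h3
    have hvX : t ≤ X.1 i v + X.1 i e ∧ t ≤ X.1 i v + X.1 j v ∧
        X.1 i v ≤ X.1 j e + t := ⟨by omega, h2, h3⟩
    have hvY : t ≤ Y.1 i v + Y.1 i e ∧ t ≤ Y.1 i v + Y.1 j v ∧ Y.1 i v ≤ Y.1 j e + t := by
      refine ⟨?_, ?_, ?_⟩ <;> omega
    have eX := tab_val i j hij v e hve X t hvX
    have eY := tab_val i j hij v e hve Y t hvY
    have offu : ∀ k, ¬ ((k = i ∨ k = j) ∧ (u = v ∨ u = e)) :=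
      fun k h => h.2.elim huv hue
    refine ⟨?_, ?_, ?_, ?_, ?_⟩
    · intro k l hkl
      rw [eX, eY]
      by_cases hkl' : (k = i ∨ k = j) ∧ (l = v ∨ l = e)
      · obtain ⟨hk, hl⟩ := hkl'
        have hl' : l = v := hl.resolve_right (fun h => hkl ⟨hk, Or.inr h⟩)
        subst hl'
        rcases hk with hk | hk
        · subst hk
          rw [tabFun_iv, tabFun_iv]
        · subst hk
          rw [tabFun_jv _ _ hij, tabFun_jv _ _ hij]
          omega
      · rw [tabFun_off _ _ _ _ _ _ _ _ hkl', tabFun_off _ _ _ _ _ _ _ _ hkl']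
        refine hB k l (fun h => hkl' ⟨h.1, ?_⟩)
        rcases h.2 with h' | h'
        · exact absurd ⟨h.1, Or.inl h'⟩ hkl
        · exact Or.inl h'
    · rw [eX, eY, tabFun_off _ _ _ _ _ _ _ _ (offu i), tabFun_off _ _ _ _ _ _ _ _ (offu i)]
      exact m1
    · rw [eX, eY, tabFun_je _ _ hij _ _ hve, tabFun_je _ _ hij _ _ hve]
      omega
    · rw [eX, eY, tabFun_ie _ _ _ _ hve, tabFun_ie _ _ _ _ hve]
      omega
    · rw [eX, eY, tabFun_off _ _ _ _ _ _ _ _ (offu j), tabFun_off _ _ _ _ _ _ _ _ (offu j)]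
      exact m4
  rw [avg_class i j hij v e hve f X, avg_class i j hij v e hve f Y]
  -- four cases
  rcases Nat.lt_or_ge (Y.1 j e) (X.1 i v) with hα | hα <;>
    rcases Nat.lt_or_ge (X.1 j v) (X.1 i e) with hβ | hβ
  · -- `(α, β) = (1, 0)`: the interval of `Y` has one more point (at the bottom)
    have eK : min (X.1 i v + X.1 i e) (X.1 i v + X.1 j v) + 1 - (X.1 i v - X.1 j e)
        = X.1 j v + X.1 j e + 1 := by omega
    have eK' : min (Y.1 i v + Y.1 i e) (Y.1 i v + Y.1 j v) + 1 - (Y.1 i v - Y.1 j e)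
        = (X.1 j v + X.1 j e + 1) + 1 := by omega
    rw [eK, eK']
    have := interval_coupling (X.1 j v + X.1 j e + 1) (Nat.succ_pos _)
      (fun s => f (tab i j hij v e hve X (X.1 i v - X.1 j e + s)))
      (fun s => f (tab i j hij v e hve Y (Y.1 i v - Y.1 j e + s))) L ?_ ?_
    · rw [Nat.cast_add_one (X.1 j v + X.1 j e + 1)]
      exact this
    · intro s hs
      have e1 : X.1 i v - X.1 j e + s = (Y.1 i v - Y.1 j e + s) + 1 := by omega
      rw [e1]
      exact hLuv _ _ (mv1 _ (by omega) (by omega) (by omega))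
    · intro s hs
      have e1 : Y.1 i v - Y.1 j e + (s + 1) = X.1 i v - X.1 j e + s := by omega
      rw [e1]
      exact hLue _ _ (mv2 _ (by omega) (by omega) (by omega))
  · -- `(α, β) = (1, 1)`: same number of points, shifted by one
    have eK : min (X.1 i v + X.1 i e) (X.1 i v + X.1 j v) + 1 - (X.1 i v - X.1 j e)
        = X.1 i e + X.1 j e + 1 := by omega
    have eK' : min (Y.1 i v + Y.1 i e) (Y.1 i v + Y.1 j v) + 1 - (Y.1 i v - Y.1 j e)
        = X.1 i e + X.1 j e + 1 := by omega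
    rw [eK, eK']
    refine interval_coupling_same (X.1 i e + X.1 j e + 1) (Nat.succ_pos _)
      (fun s => f (tab i j hij v e hve X (X.1 i v - X.1 j e + s)))
      (fun s => f (tab i j hij v e hve Y (Y.1 i v - Y.1 j e + s))) L ?_
    intro s hs
    have e1 : X.1 i v - X.1 j e + s = (Y.1 i v - Y.1 j e + s) + 1 := by omega
    show |f (tab i j hij v e hve X (X.1 i v - X.1 j e + s))
      - f (tab i j hij v e hve Y (Y.1 i v - Y.1 j e + s))| ≤ L
    rw [e1]
    exact hLuv _ _ (mv1 _ (by omega) (by omega) (by omega))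
  · -- `(α, β) = (0, 0)`: the same interval
    have eK : min (X.1 i v + X.1 i e) (X.1 i v + X.1 j v) + 1 - (X.1 i v - X.1 j e)
        = X.1 i v + X.1 j v + 1 := by omega
    have eK' : min (Y.1 i v + Y.1 i e) (Y.1 i v + Y.1 j v) + 1 - (Y.1 i v - Y.1 j e)
        = X.1 i v + X.1 j v + 1 := by omega
    rw [eK, eK']
    refine interval_coupling_same (X.1 i v + X.1 j v + 1) (Nat.succ_pos _)
      (fun s => f (tab i j hij v e hve X (X.1 i v - X.1 j e + s)))
      (fun s => f (tab i j hij v e hve Y (Y.1 i v - Y.1 j e + s))) L ?_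
    intro s hs
    have e1 : Y.1 i v - Y.1 j e + s = X.1 i v - X.1 j e + s := by omega
    show |f (tab i j hij v e hve X (X.1 i v - X.1 j e + s))
      - f (tab i j hij v e hve Y (Y.1 i v - Y.1 j e + s))| ≤ L
    rw [e1]
    exact hLue _ _ (mv2 _ (by omega) (by omega) (by omega))
  · -- `(α, β) = (0, 1)`: the interval of `X` has one more point (at the top)
    have eK : min (X.1 i v + X.1 i e) (X.1 i v + X.1 j v) + 1 - (X.1 i v - X.1 j e)
        = (Y.1 i v + X.1 i e + 1) + 1 := by omega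
    have eK' : min (Y.1 i v + Y.1 i e) (Y.1 i v + Y.1 j v) + 1 - (Y.1 i v - Y.1 j e)
        = Y.1 i v + X.1 i e + 1 := by omega
    rw [eK, eK', abs_sub_comm]
    have := interval_coupling (Y.1 i v + X.1 i e + 1) (Nat.succ_pos _)
      (fun s => f (tab i j hij v e hve Y (Y.1 i v - Y.1 j e + s)))
      (fun s => f (tab i j hij v e hve X (X.1 i v - X.1 j e + s))) L ?_ ?_
    · rw [Nat.cast_add_one (Y.1 i v + X.1 i e + 1)]
      exact this
    · intro s hs
      have e1 : Y.1 i v - Y.1 j e + s = X.1 i v - X.1 j e + s := by omega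
      show |f (tab i j hij v e hve Y (Y.1 i v - Y.1 j e + s))
        - f (tab i j hij v e hve X (X.1 i v - X.1 j e + s))| ≤ L
      rw [e1, abs_sub_comm]
      exact hLue _ _ (mv2 _ (by omega) (by omega) (by omega))
    · intro s hs
      have e1 : X.1 i v - X.1 j e + (s + 1) = (Y.1 i v - Y.1 j e + s) + 1 := by omega
      show |f (tab i j hij v e hve Y (Y.1 i v - Y.1 j e + s))
        - f (tab i j hij v e hve X (X.1 i v - X.1 j e + (s + 1)))| ≤ L
      rw [e1, abs_sub_comm]
      exact hLuv _ _ (mv1 _ (by omega) (by omega) (by omega))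

end Vale.Agent.H91.CT
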