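import Vale.Agent.H88.CT.Defs

/-!
P328: the explicit surplus inequality on classes of two-rowed contingency tables (definitions
only).
-/

namespace Vale.Agent.H91.CT

open Finset Vale.Agent.H90 Vale.Agent.H88.CT

/-- Depth of the block in columns `a, b` of a two-row table: the number of tables with the same
entries outside the block, minus one. -/
def depth2 {n : ℕ} {r : Fin 2 → ℕ} {c : Fin n → ℕ} (a b : Fin n) (X : Omega r c) : ℕ :=
  min (min (X.1 0 a + X.1 0 b) (X.1 1 a + X.1 1 b)) (min (c a) (c b))

/-- The surplus inequality on classes of `2 x n` tables, in closed form: for every function `f`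
of zero sum, the sum over the ordered pairs of distinct columns `a, b` and the depths `d ≥ 1`
of the squared sum of `f` over the tables of depth `≥ d`, divided by `d (d + 1)` times the
number of tables of level `d`, is at most
the sum over the ordered pairs of the block Dirichlet forms minus twice the sum of squares. -/
def SurHyp2 : Prop :=
  ∀ (n : ℕ) (r : Fin 2 → ℕ) (c : Fin n → ℕ) (f : Omega r c → ℝ), ∑ X, f X = 0 →
    ∑ a : Fin n, ∑ b : Fin n, (if a ≠ b then
        ∑ d ∈ Finset.Icc 1 (min (c a) (c b)),
          (∑ X ∈ univ.filter (fun X : Omega r c => d ≤ depth2 a b X), f X) ^ 2 /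
            ((d : ℝ) * (d + 1) *
              ((univ.filter (fun X : Omega r c => min (X.1 0 a) (X.1 1 b) = d)).card : ℝ))
      else 0)
      ≤ ∑ a : Fin n, ∑ b : Fin n, (if a ≠ b then
          ∑ X, (f X - avgRel (BlockRel 0 1 a b) f X) ^ 2 else 0)
        - 2 * ∑ X, f X ^ 2

end Vale.Agent.H91.CT
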