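import Vale.Agent.H91.CT.Lift2
import Vale.Agent.H91.CT.SurDefs
import Vale.Agent.H91.CT.LipStep
import Vale.Agent.H91.CT.Chain

/-!
P328 row L6: the explicit surplus inequality on two-row classes gives the lift hypothesis on
two-row classes (explicit optimal lifts in Helmert form).

Conventions for a class of `2 x n` tables, an ordered pair of columns `a ≠ b`:
`tau X = min (X 0 a) (X 1 b)` (level), `depth2 a b X = min (X 0 a + X 0 b) (X 1 a + X 1 b)
(c a) (c b)` (the `BlockRel 0 1 a b`-class of `X` has `depth2 a b X + 1` tables, on which `tau`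
takes each value `0, …, depth2 a b X` exactly once), `N d` = number of tables of level `d`
(= number of block classes of depth `≥ d`), `Γ d` = sum of `f` over the tables of depth `≥ d`.

Paper proof.  Given `f` of zero sum put, for the ordered pair `a, b`,
`w X = (avgRel (BlockRel 0 1 a b) f) X - ∑ j ∈ Icc 1 (depth2 a b X),
   Γ j / (j (j + 1) N j) * (if tau X = j then j else if tau X < j then -1 else 0)`.
* Block averages: the correction has zero sum on every block class (`j - j = 0`).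
* Level sets: the sum of `avgRel .. f` over level `t` is `G t` := sum over the block classes of
  depth `≥ t` of the class mean; the correction contributes `- Γ t / (t + 1) + ∑ j > t,
  Γ j / (j (j + 1))`; with `Y t = ∑ j ≥ t, G j` one has `Γ t / (t (t + 1)) = Y t / t -
  Y (t + 1) / (t + 1)` and the total telescopes to `0` (for `t = 0` use `∑ f = 0`).
* Norm: the corrections for different `j` are orthogonal to each other and to functions
  constant on block classes, and the `j`-th has square norm `Γ j ^ 2 / (j (j + 1) N j)`; so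
  `∑ w ^ 2 = ∑ (avgRel .. f) ^ 2 + penalty`, and `∑ (avgRel .. f) ^ 2 + ∑ (f - avgRel .. f) ^ 2
  = ∑ f ^ 2`.  Summing over the ordered pairs and using `SurHyp2` gives the bound
  `n (n - 1) - 2` times `∑ f ^ 2`.
-/

namespace Vale.Agent.H91.CT

open Finset Vale.Agent.H90 Vale.Agent.H88.CT

namespace Sur2Aux

set_option linter.unusedSectionVars false

/-- The Helmert function of index `j`: `j` at `j`, `-1` below `j`, `0` above. -/
noncomputable def hh (j s : ℕ) : ℝ := if s = j then (j : ℝ) else if s < j then -1 else 0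

theorem hh_self (j : ℕ) : hh j j = j := by simp [hh]

theorem hh_lt {j s : ℕ} (h : s < j) : hh j s = -1 := by
  have h1 : s ≠ j := Nat.ne_of_lt h
  simp [hh, h, h1]

theorem hh_gt {j s : ℕ} (h : j < s) : hh j s = 0 := by
  have h1 : s ≠ j := Nat.ne_of_gt h
  have h2 : ¬ s < j := by omega
  simp [hh, h1, h2]

theorem sum_hh {j D : ℕ} (hj : j ≤ D) : ∑ s ∈ range (D + 1), hh j s = 0 := by
  have hsub : range (j + 1) ⊆ range (D + 1) := by
    intro s hs
    rw [mem_range] at hs ⊢
    omega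
  rw [← Finset.sum_subset hsub (fun s hs hns => hh_gt (by
    rw [mem_range] at hs hns; omega))]
  rw [Finset.sum_range_succ, hh_self]
  rw [Finset.sum_congr rfl (fun s hs => hh_lt (mem_range.1 hs))]
  simp

theorem sum_hh_div (t D : ℕ) :
    ∑ j ∈ Icc 1 D, hh j t / ((j : ℝ) * (j + 1))
      = (if t ≤ D then 1 / ((D : ℝ) + 1) else 0) - (if t = 0 then 1 else 0) := by
  induction D with
  | zero =>
    by_cases ht : t = 0
    · subst ht; simp
    · have h1 : ¬ t ≤ 0 := by omega
      simp [ht]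
  | succ D ih =>
    rw [Finset.sum_Icc_succ_top (by omega), ih]
    rcases lt_trichotomy t (D + 1) with h | h | h
    · have a1 : t ≤ D := by omega
      have a2 : t ≤ D + 1 := by omega
      rw [hh_lt h, if_pos a1, if_pos a2]
      push_cast
      field_simp
      ring
    · subst h
      have a1 : ¬ (D + 1 ≤ D) := by omega
      have a2 : ¬ (D + 1 = 0) := by omega
      rw [hh_self, if_neg a1, if_pos le_rfl, if_neg a2]
      push_cast
      field_simp
      ring
    · have a1 : ¬ t ≤ D := by omega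
      have a2 : ¬ t ≤ D + 1 := by omega
      rw [hh_gt h, if_neg a1, if_neg a2]
      simp

theorem sum_corr (κ : ℕ → ℝ) (D : ℕ) :
    ∑ s ∈ range (D + 1), ∑ j ∈ Icc 1 D, κ j * hh j s = 0 := by
  rw [Finset.sum_comm]
  refine Finset.sum_eq_zero (fun j hj => ?_)
  rw [← Finset.mul_sum, sum_hh (mem_Icc.1 hj).2, mul_zero]

theorem sum_corr_sq (κ : ℕ → ℝ) (D : ℕ) :
    ∑ s ∈ range (D + 1), (∑ j ∈ Icc 1 D, κ j * hh j s) ^ 2
      = ∑ j ∈ Icc 1 D, κ j ^ 2 * ((j : ℝ) * (j + 1)) := by
  induction D with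
  | zero => simp
  | succ D ih =>
    rw [Finset.sum_range_succ, Finset.sum_Icc_succ_top (by omega) (fun j => κ j ^ 2 * ((j : ℝ) * (j + 1))),
      ← ih]
    have h1 : ∑ j ∈ Icc 1 (D + 1), κ j * hh j (D + 1) = κ (D + 1) * ((D : ℝ) + 1) := by
      rw [Finset.sum_Icc_succ_top (by omega), hh_self]
      rw [Finset.sum_eq_zero (fun j hj => by
        rw [hh_gt (by have := (mem_Icc.1 hj).2; omega), mul_zero])]
      push_cast
      ring
    have h2 : ∀ s ∈ range (D + 1), (∑ j ∈ Icc 1 (D + 1), κ j * hh j s) ^ 2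
        = (∑ j ∈ Icc 1 D, κ j * hh j s) ^ 2
          - 2 * κ (D + 1) * (∑ j ∈ Icc 1 D, κ j * hh j s) + κ (D + 1) ^ 2 := by
      intro s hs
      rw [Finset.sum_Icc_succ_top (by omega), hh_lt (by have := mem_range.1 hs; omega)]
      ring
    rw [Finset.sum_congr rfl h2, h1, Finset.sum_add_distrib, Finset.sum_sub_distrib,
      ← Finset.mul_sum, sum_corr]
    simp only [Finset.sum_const, card_range, nsmul_eq_mul]
    push_cast
    ring

section abs

variable {Ω : Type*} [Fintype Ω] [DecidableEq Ω] (R : Ω → Ω → Prop) [DecidableRel R]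
  (T D : Ω → ℕ)

theorem class_card
    (hCL : ∀ (X : Ω) (G : ℕ → ℝ),
      ∑ Y ∈ univ.filter (fun Y => R X Y), G (T Y) = ∑ s ∈ range (D X + 1), G s) (X : Ω) :
    ((univ.filter (fun Y => R X Y)).card : ℝ) = (D X : ℝ) + 1 := by
  have h := hCL X (fun _ => 1)
  simp only [Finset.sum_const, nsmul_eq_mul, mul_one, card_range] at h
  rw [h]
  push_cast
  ring

/-- Class summation: the sum of a class-invariant function times a function of depth and level
only sees the average of the latter over the levels `0, …, D`. -/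
theorem cs (hR : Equivalence R) (hD : ∀ X Y, R X Y → D X = D Y)
    (hCL : ∀ (X : Ω) (G : ℕ → ℝ),
      ∑ Y ∈ univ.filter (fun Y => R X Y), G (T Y) = ∑ s ∈ range (D X + 1), G s)
    (g : Ω → ℝ) (hg : ∀ X Y, R X Y → g X = g Y) (ψ : ℕ → ℕ → ℝ) :
    ∑ X, g X * ψ (D X) (T X)
      = ∑ X, g X * ((∑ s ∈ range (D X + 1), ψ (D X) s) / ((D X : ℝ) + 1)) := by
  rw [← TransferAux.sum_avgRel R hR (fun X => g X * ψ (D X) (T X))]
  refine Finset.sum_congr rfl (fun X _ => ?_)
  unfold avgRel
  rw [class_card R T D hCL X]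
  have h : ∑ Y ∈ univ.filter (fun Y => R X Y), g Y * ψ (D Y) (T Y)
      = g X * ∑ s ∈ range (D X + 1), ψ (D X) s := by
    rw [← hCL X (ψ (D X)), Finset.mul_sum]
    refine Finset.sum_congr rfl (fun Y hY => ?_)
    have hXY : R X Y := (mem_filter.1 hY).2
    rw [hg X Y hXY, hD X Y hXY]
  rw [h, mul_div_assoc]

/-- Sum of `f` over the points of depth at least `d`. -/
noncomputable def Gam (f : Ω → ℝ) (d : ℕ) : ℝ := ∑ X ∈ univ.filter (fun X => d ≤ D X), f X

/-- Number of points of level `d`. -/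
noncomputable def Nn (d : ℕ) : ℝ := ((univ.filter (fun X => T X = d)).card : ℝ)

/-- Coefficient of the `d`-th Helmert function in the optimal lift. -/
noncomputable def kap (f : Ω → ℝ) (d : ℕ) : ℝ :=
  Gam D f d / ((d : ℝ) * (d + 1) * Nn T d)

/-- The correction: a combination of Helmert functions of the level inside each class. -/
noncomputable def corr (f : Ω → ℝ) (X : Ω) : ℝ :=
  ∑ j ∈ Icc 1 (D X), kap T D f j * hh j (T X)

theorem Nn_eq (hR : Equivalence R) (hD : ∀ X Y, R X Y → D X = D Y)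
    (hCL : ∀ (X : Ω) (G : ℕ → ℝ),
      ∑ Y ∈ univ.filter (fun Y => R X Y), G (T Y) = ∑ s ∈ range (D X + 1), G s) (d : ℕ) :
    Nn T d = ∑ X, (if d ≤ D X then (1 : ℝ) else 0) / ((D X : ℝ) + 1) := by
  have h := cs R T D hR hD hCL (fun _ => 1) (fun _ _ _ => rfl)
    (fun _ s => if s = d then (1 : ℝ) else 0)
  simp only [one_mul] at h
  unfold Nn
  rw [Finset.card_filter]
  push_cast
  rw [h]
  refine Finset.sum_congr rfl (fun X _ => ?_)
  rw [Finset.sum_ite_eq']
  simp only [mem_range, Nat.lt_succ_iff]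

theorem swap (M : ℕ) (hM : ∀ X, D X ≤ M) (a : ℕ → ℝ) (b : Ω → ℝ) :
    ∑ X, (∑ j ∈ Icc 1 (D X), a j) * b X
      = ∑ j ∈ Icc 1 M, a j * ∑ X, (if j ≤ D X then (1 : ℝ) else 0) * b X := by
  have h1 : ∀ X, ∑ j ∈ Icc 1 (D X), a j = ∑ j ∈ Icc 1 M, if j ≤ D X then a j else 0 := by
    intro X
    rw [← Finset.sum_filter]
    refine Finset.sum_congr ?_ (fun _ _ => rfl)
    ext j
    simp only [mem_Icc, mem_filter]
    have := hM X
    omega
  simp only [h1, Finset.sum_mul, Finset.mul_sum]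
  rw [Finset.sum_comm]
  refine Finset.sum_congr rfl (fun j _ => Finset.sum_congr rfl (fun X _ => ?_))
  split_ifs <;> ring

theorem Gam_eq_zero (hR : Equivalence R) (hD : ∀ X Y, R X Y → D X = D Y)
    (hCL : ∀ (X : Ω) (G : ℕ → ℝ),
      ∑ Y ∈ univ.filter (fun Y => R X Y), G (T Y) = ∑ s ∈ range (D X + 1), G s)
    (f : Ω → ℝ) (d : ℕ) (h0 : Nn T d = 0) : Gam D f d = 0 := by
  rw [Nn_eq R T D hR hD hCL d] at h0
  have hnn : ∀ X ∈ (univ : Finset Ω),
      0 ≤ (if d ≤ D X then (1 : ℝ) else 0) / ((D X : ℝ) + 1) := by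
    intro X _
    have hp : (0 : ℝ) < (D X : ℝ) + 1 := by positivity
    split_ifs
    · exact div_nonneg zero_le_one hp.le
    · simp
  have hz := (Finset.sum_eq_zero_iff_of_nonneg hnn).1 h0
  unfold Gam
  refine Finset.sum_eq_zero (fun X hX => ?_)
  exfalso
  have hX' : d ≤ D X := (mem_filter.1 hX).2
  have h1 := hz X (mem_univ X)
  rw [if_pos hX'] at h1
  have hpos : (0 : ℝ) < 1 / ((D X : ℝ) + 1) := by positivity
  linarith

theorem kap_mul (hR : Equivalence R) (hD : ∀ X Y, R X Y → D X = D Y)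
    (hCL : ∀ (X : Ω) (G : ℕ → ℝ),
      ∑ Y ∈ univ.filter (fun Y => R X Y), G (T Y) = ∑ s ∈ range (D X + 1), G s)
    (f : Ω → ℝ) (d : ℕ) (hd : 1 ≤ d) :
    kap T D f d * Nn T d = Gam D f d / ((d : ℝ) * (d + 1)) := by
  unfold kap
  by_cases h0 : Nn T d = 0
  · rw [Gam_eq_zero R T D hR hD hCL f d h0, h0]
    simp
  · have hd' : (d : ℝ) ≠ 0 := by
      have : d ≠ 0 := by omega
      exact_mod_cast this
    have hd1 : (d : ℝ) + 1 ≠ 0 := by positivity
    field_simp

theorem kap_sq (f : Ω → ℝ) (d : ℕ) (hd : 1 ≤ d) :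
    kap T D f d ^ 2 * ((d : ℝ) * (d + 1)) * Nn T d
      = Gam D f d ^ 2 / ((d : ℝ) * (d + 1) * Nn T d) := by
  unfold kap
  by_cases h0 : Nn T d = 0
  · rw [h0]
    simp
  · have hd' : (d : ℝ) ≠ 0 := by
      have : d ≠ 0 := by omega
      exact_mod_cast this
    have hd1 : (d : ℝ) + 1 ≠ 0 := by positivity
    field_simp

theorem corr_class (hD : ∀ X Y, R X Y → D X = D Y)
    (hCL : ∀ (X : Ω) (G : ℕ → ℝ),
      ∑ Y ∈ univ.filter (fun Y => R X Y), G (T Y) = ∑ s ∈ range (D X + 1), G s)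
    (f : Ω → ℝ) (X : Ω) :
    ∑ Y ∈ univ.filter (fun Y => R X Y), corr T D f Y = 0 := by
  have h : ∀ Y ∈ univ.filter (fun Y => R X Y),
      corr T D f Y = (fun s => ∑ j ∈ Icc 1 (D X), kap T D f j * hh j s) (T Y) := by
    intro Y hY
    show ∑ j ∈ Icc 1 (D Y), _ = ∑ j ∈ Icc 1 (D X), _
    rw [← hD X Y (mem_filter.1 hY).2]
  rw [Finset.sum_congr rfl h, hCL X (fun s => ∑ j ∈ Icc 1 (D X), kap T D f j * hh j s),
    sum_corr]

theorem avg_corr (hD : ∀ X Y, R X Y → D X = D Y)
    (hCL : ∀ (X : Ω) (G : ℕ → ℝ),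
      ∑ Y ∈ univ.filter (fun Y => R X Y), G (T Y) = ∑ s ∈ range (D X + 1), G s)
    (f : Ω → ℝ) : avgRel R (corr T D f) = 0 := by
  funext X
  unfold avgRel
  rw [corr_class R T D hD hCL f X]
  simp

theorem corr_sq (hR : Equivalence R) (hD : ∀ X Y, R X Y → D X = D Y)
    (hCL : ∀ (X : Ω) (G : ℕ → ℝ),
      ∑ Y ∈ univ.filter (fun Y => R X Y), G (T Y) = ∑ s ∈ range (D X + 1), G s)
    (M : ℕ) (hM : ∀ X, D X ≤ M) (f : Ω → ℝ) :
    ∑ X, corr T D f X ^ 2
      = ∑ d ∈ Icc 1 M, Gam D f d ^ 2 / ((d : ℝ) * (d + 1) * Nn T d) := by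
  have h := cs R T D hR hD hCL (fun _ => 1) (fun _ _ _ => rfl)
    (fun E s => (∑ j ∈ Icc 1 E, kap T D f j * hh j s) ^ 2)
  simp only [one_mul] at h
  have h' : ∑ X, corr T D f X ^ 2
      = ∑ X, (∑ j ∈ Icc 1 (D X), kap T D f j ^ 2 * ((j : ℝ) * (j + 1)))
          * (1 / ((D X : ℝ) + 1)) := by
    unfold corr
    rw [h]
    refine Finset.sum_congr rfl (fun X _ => ?_)
    rw [sum_corr_sq, mul_one_div]
  rw [h', swap D M hM]
  refine Finset.sum_congr rfl (fun d hd => ?_)
  have e : ∑ X, (if d ≤ D X then (1 : ℝ) else 0) * (1 / ((D X : ℝ) + 1)) = Nn T d := by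
    rw [Nn_eq R T D hR hD hCL d]
    refine Finset.sum_congr rfl (fun X _ => ?_)
    rw [mul_one_div]
  rw [e, ← kap_sq T D f d (mem_Icc.1 hd).1]

theorem level_sum (hR : Equivalence R) (hD : ∀ X Y, R X Y → D X = D Y)
    (hCL : ∀ (X : Ω) (G : ℕ → ℝ),
      ∑ Y ∈ univ.filter (fun Y => R X Y), G (T Y) = ∑ s ∈ range (D X + 1), G s)
    (M : ℕ) (hM : ∀ X, D X ≤ M) (f : Ω → ℝ) (hf : ∑ X, f X = 0) (t : ℕ) :
    ∑ X ∈ univ.filter (fun X => T X = t), (avgRel R f X - corr T D f X) = 0 := by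
  rw [Finset.sum_filter]
  have hG : ∀ X Y, R X Y → (if t ≤ D X then (1 : ℝ) else 0) / ((D X : ℝ) + 1)
      = (if t ≤ D Y then (1 : ℝ) else 0) / ((D Y : ℝ) + 1) := by
    intro X Y h
    rw [hD X Y h]
  have t1 : ∑ X, avgRel R f X * (if T X = t then (1 : ℝ) else 0)
      = ∑ X, f X * ((if t ≤ D X then (1 : ℝ) else 0) / ((D X : ℝ) + 1)) := by
    have h := cs R T D hR hD hCL (avgRel R f) (fun X Y hXY => avgRel_of_rel hR f hXY)
      (fun _ s => if s = t then (1 : ℝ) else 0)
    rw [h]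
    have h2 : ∀ X, (∑ s ∈ range (D X + 1), if s = t then (1 : ℝ) else 0)
        = if t ≤ D X then 1 else 0 := by
      intro X
      rw [Finset.sum_ite_eq']
      simp only [mem_range, Nat.lt_succ_iff]
    simp only [h2]
    have h3 := avgRel_dot hR f (fun X => (if t ≤ D X then (1 : ℝ) else 0) / ((D X : ℝ) + 1))
    rw [avgRel_eq_self hR _ hG] at h3
    exact h3.symm
  have t2 : ∑ X, (if T X = t then (1 : ℝ) else 0) * corr T D f X
      = ∑ X, f X * ((if t ≤ D X then (1 : ℝ) else 0) / ((D X : ℝ) + 1)) := by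
    have h := cs R T D hR hD hCL (fun _ => 1) (fun _ _ _ => rfl)
      (fun E s => (if s = t then (1 : ℝ) else 0) * ∑ j ∈ Icc 1 E, kap T D f j * hh j s)
    simp only [one_mul] at h
    have h' : ∑ X, (if T X = t then (1 : ℝ) else 0) * corr T D f X
        = ∑ X, (∑ j ∈ Icc 1 (D X), kap T D f j * hh j t) * (1 / ((D X : ℝ) + 1)) := by
      unfold corr
      rw [h]
      refine Finset.sum_congr rfl (fun X _ => ?_)
      rw [mul_one_div]
      congr 1
      have e : ∀ s ∈ range (D X + 1),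
          (if s = t then (1 : ℝ) else 0) * ∑ j ∈ Icc 1 (D X), kap T D f j * hh j s
            = if s = t then ∑ j ∈ Icc 1 (D X), kap T D f j * hh j t else 0 := by
        intro s _
        by_cases hs : s = t
        · subst hs
          simp
        · simp [hs]
      rw [Finset.sum_congr rfl e, Finset.sum_ite_eq']
      by_cases ht : t ∈ range (D X + 1)
      · rw [if_pos ht]
      · rw [if_neg ht]
        symm
        refine Finset.sum_eq_zero (fun j hj => ?_)
        rw [hh_gt (by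
          have := (mem_Icc.1 hj).2
          rw [mem_range] at ht
          omega), mul_zero]
    rw [h', swap D M hM]
    have e1 : ∀ j ∈ Icc 1 M,
        kap T D f j * hh j t * ∑ X, (if j ≤ D X then (1 : ℝ) else 0) * (1 / ((D X : ℝ) + 1))
          = hh j t / ((j : ℝ) * (j + 1)) * ∑ X, (if j ≤ D X then (1 : ℝ) else 0) * f X := by
      intro j hj
      have e : ∑ X, (if j ≤ D X then (1 : ℝ) else 0) * (1 / ((D X : ℝ) + 1)) = Nn T j := by
        rw [Nn_eq R T D hR hD hCL j]
        refine Finset.sum_congr rfl (fun X _ => ?_)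
        rw [mul_one_div]
      have e' : ∑ X, (if j ≤ D X then (1 : ℝ) else 0) * f X = Gam D f j := by
        unfold Gam
        rw [Finset.sum_filter]
        refine Finset.sum_congr rfl (fun X _ => ?_)
        split_ifs <;> simp
      rw [e, e', mul_right_comm, kap_mul R T D hR hD hCL f j (mem_Icc.1 hj).1]
      ring
    rw [Finset.sum_congr rfl e1, ← swap D M hM (fun j => hh j t / ((j : ℝ) * (j + 1))) f]
    simp only [sum_hh_div]
    have e2 : ∀ X, ((if t ≤ D X then 1 / ((D X : ℝ) + 1) else 0)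
          - (if t = 0 then (1 : ℝ) else 0)) * f X
        = f X * ((if t ≤ D X then (1 : ℝ) else 0) / ((D X : ℝ) + 1))
          - (if t = 0 then (1 : ℝ) else 0) * f X := by
      intro X
      split_ifs <;> ring
    simp only [e2]
    rw [Finset.sum_sub_distrib, ← Finset.mul_sum, hf, mul_zero, sub_zero]
  have e3 : ∀ X, (if T X = t then avgRel R f X - corr T D f X else 0)
      = avgRel R f X * (if T X = t then (1 : ℝ) else 0)
        - (if T X = t then (1 : ℝ) else 0) * corr T D f X := by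
    intro X
    split_ifs <;> ring
  simp only [e3]
  rw [Finset.sum_sub_distrib, t1, t2, sub_self]

/-- The optimal lift on a layered family of classes. -/
theorem exists_lift (hR : Equivalence R) (hD : ∀ X Y, R X Y → D X = D Y)
    (hCL : ∀ (X : Ω) (G : ℕ → ℝ),
      ∑ Y ∈ univ.filter (fun Y => R X Y), G (T Y) = ∑ s ∈ range (D X + 1), G s)
    (M : ℕ) (hM : ∀ X, D X ≤ M) (f : Ω → ℝ) (hf : ∑ X, f X = 0) :
    ∃ w : Ω → ℝ, (∀ t : ℕ, ∑ X ∈ univ.filter (fun X => T X = t), w X = 0) ∧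
      avgRel R w = avgRel R f ∧
      ∑ X, w X ^ 2 = ∑ X, avgRel R f X ^ 2
        + ∑ d ∈ Icc 1 M, (∑ X ∈ univ.filter (fun X => d ≤ D X), f X) ^ 2 /
            ((d : ℝ) * (d + 1) * ((univ.filter (fun X => T X = d)).card : ℝ)) := by
  refine ⟨fun X => avgRel R f X - corr T D f X, level_sum R T D hR hD hCL M hM f hf, ?_, ?_⟩
  · have e : (fun X => avgRel R f X - corr T D f X) = avgRel R f - corr T D f := rfl
    rw [e, avgRel_sub, avgRel_idem hR, avg_corr R T D hD hCL f, sub_zero]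
  · have hcross : ∑ X, avgRel R f X * corr T D f X = 0 := by
      have h := avgRel_dot hR f (corr T D f)
      rw [avg_corr R T D hD hCL f, dot_zero_right] at h
      exact h.symm
    have e : ∀ X, (avgRel R f X - corr T D f X) ^ 2
        = avgRel R f X ^ 2 - 2 * (avgRel R f X * corr T D f X) + corr T D f X ^ 2 := by
      intro X
      ring
    simp only [e]
    rw [Finset.sum_add_distrib, Finset.sum_sub_distrib, ← Finset.mul_sum, hcross,
      corr_sq R T D hR hD hCL M hM f]
    simp only [Gam, Nn]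
    ring

end abs

end Sur2Aux

/-- The depth is constant on block classes. -/
theorem depth2_eq {n : ℕ} {r : Fin 2 → ℕ} {c : Fin n → ℕ} (a b : Fin n) (hab : a ≠ b)
    (X Y : Omega r c) (h : BlockRel 0 1 a b X Y) : depth2 a b X = depth2 a b Y := by
  have h01 : (0 : Fin 2) ≠ 1 := by decide
  obtain ⟨s1, s2, _, _⟩ := block_sums 0 1 h01 a b hab X Y h
  unfold depth2
  rw [s1, s2]

/-- On a block class of depth `D` the level runs through `0, …, D` exactly once. -/
theorem class_level {n : ℕ} {r : Fin 2 → ℕ} {c : Fin n → ℕ} (a b : Fin n) (hab : a ≠ b)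
    (X : Omega r c) (G : ℕ → ℝ) :
    ∑ Y ∈ univ.filter (fun Y => BlockRel 0 1 a b X Y), G (min (Y.1 0 a) (Y.1 1 b))
      = ∑ s ∈ range (depth2 a b X + 1), G s := by
  have h01 : (0 : Fin 2) ≠ 1 := by decide
  rw [sum_class 0 1 h01 a b hab X (fun Y => G (min (Y.1 0 a) (Y.1 1 b))),
    Finset.sum_Ico_eq_sum_range]
  have hca : c a = X.1 0 a + X.1 1 a := by rw [← X.2.2 a, Fin.sum_univ_two]
  have hcb : c b = X.1 0 b + X.1 1 b := by rw [← X.2.2 b, Fin.sum_univ_two]
  have hlen : min (X.1 0 a + X.1 0 b) (X.1 0 a + X.1 1 a) + 1 - (X.1 0 a - X.1 1 b)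
      = depth2 a b X + 1 := by
    unfold depth2
    rw [hca, hcb]
    omega
  rw [hlen]
  refine Finset.sum_congr rfl (fun s hs => ?_)
  have hs' := mem_range.1 hs
  have hval : X.1 0 a - X.1 1 b + s ≤ X.1 0 a + X.1 0 b ∧
      X.1 0 a - X.1 1 b + s ≤ X.1 0 a + X.1 1 a ∧
      X.1 0 a ≤ X.1 1 b + (X.1 0 a - X.1 1 b + s) := by
    unfold depth2 at hs'
    rw [hca, hcb] at hs'
    refine ⟨?_, ?_, ?_⟩ <;> omega
  show G (min ((tab 0 1 h01 a b hab X (X.1 0 a - X.1 1 b + s)).1 0 a)
    ((tab 0 1 h01 a b hab X (X.1 0 a - X.1 1 b + s)).1 1 b)) = G s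
  rw [tab_val 0 1 h01 a b hab X _ hval, tabFun_iv, tabFun_je 0 1 h01 a b hab]
  congr 1
  omega

theorem liftHyp2_of_surHyp2 (h : SurHyp2) : LiftHyp2 := by
  intro n r c f hf
  have key : ∀ a b : Fin n, a ≠ b → ∃ w : Omega r c → ℝ,
      (∀ t : ℕ, ∑ X ∈ univ.filter (fun X : Omega r c => min (X.1 0 a) (X.1 1 b) = t),
        w X = 0) ∧
      avgRel (BlockRel 0 1 a b) w = avgRel (BlockRel 0 1 a b) f ∧
      ∑ X, w X ^ 2 = ∑ X, avgRel (BlockRel 0 1 a b) f X ^ 2
        + ∑ d ∈ Finset.Icc 1 (min (c a) (c b)),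
          (∑ X ∈ univ.filter (fun X : Omega r c => d ≤ depth2 a b X), f X) ^ 2 /
            ((d : ℝ) * (d + 1) *
              ((univ.filter (fun X : Omega r c => min (X.1 0 a) (X.1 1 b) = d)).card : ℝ)) := by
    intro a b hab
    exact Sur2Aux.exists_lift (BlockRel 0 1 a b)
      (fun X : Omega r c => min (X.1 0 a) (X.1 1 b)) (depth2 a b)
      (blockRel_equiv 0 1 a b) (fun X Y hXY => depth2_eq a b hab X Y hXY)
      (class_level a b hab) (min (c a) (c b)) (fun X => Nat.min_le_right _ _) f hf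
  choose! w hw using key
  refine ⟨w, fun a b hab => ⟨(hw a b hab).1, (hw a b hab).2.1⟩, ?_⟩
  have hS := h n r c f hf
  have hpy : ∀ a b : Fin n, ∑ X, avgRel (BlockRel 0 1 a b) f X ^ 2
      = ∑ X, f X ^ 2 - ∑ X, (f X - avgRel (BlockRel 0 1 a b) f X) ^ 2 := by
    intro a b
    have e1 := avgRel_dot (blockRel_equiv (r := r) (c := c) 0 1 a b) f
      (avgRel (BlockRel 0 1 a b) f)
    rw [avgRel_idem (blockRel_equiv 0 1 a b)] at e1
    unfold dot at e1
    have e2 : ∀ X, (f X - avgRel (BlockRel 0 1 a b) f X) ^ 2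
        = f X ^ 2 - 2 * (f X * avgRel (BlockRel 0 1 a b) f X)
          + avgRel (BlockRel 0 1 a b) f X * avgRel (BlockRel 0 1 a b) f X := by
      intro X
      ring
    have e3 : ∀ X, avgRel (BlockRel 0 1 a b) f X ^ 2
        = avgRel (BlockRel 0 1 a b) f X * avgRel (BlockRel 0 1 a b) f X := by
      intro X
      ring
    simp only [e2, e3]
    rw [Finset.sum_add_distrib, Finset.sum_sub_distrib, ← Finset.mul_sum, e1]
    ring
  have hterm : ∀ a b : Fin n, (if a ≠ b then ∑ X, w a b X ^ 2 else 0)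
      = (if a ≠ b then (1 : ℝ) else 0) * ∑ X, f X ^ 2
        - (if a ≠ b then ∑ X, (f X - avgRel (BlockRel 0 1 a b) f X) ^ 2 else 0)
        + (if a ≠ b then
            ∑ d ∈ Finset.Icc 1 (min (c a) (c b)),
              (∑ X ∈ univ.filter (fun X : Omega r c => d ≤ depth2 a b X), f X) ^ 2 /
                ((d : ℝ) * (d + 1) *
                  ((univ.filter (fun X : Omega r c => min (X.1 0 a) (X.1 1 b) = d)).card : ℝ))
          else 0) := by
    intro a b
    by_cases hab : a ≠ b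
    · simp only [if_pos hab]
      rw [(hw a b hab).2.2, hpy a b]
      ring
    · simp only [if_neg hab]
      ring
  simp only [hterm, Finset.sum_add_distrib, Finset.sum_sub_distrib, ← Finset.sum_mul]
  rw [count_ne n]
  linarith

end Vale.Agent.H91.CT
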