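import Vale.Agent.H91.CT.Final
import Vale.Agent.H91.CT.LiftAC
import Vale.Agent.H91.CT.LiftCol
import Vale.Agent.H91.CT.Sur2

/-!
P328: the anticommutator route from the lift hypothesis.
-/

namespace Vale.Agent.H91.CT

open Finset Vale.Agent.H90 Vale.Agent.H88.CT Vale.Agent.H12

theorem acHyp_of_liftHyp (h : LiftHyp) : ACHyp :=
  acHyp_of_lift h (liftHypCol_of_liftHyp h)

/-- Main conditional theorem, lift route. -/
theorem main_lift (h : LiftHyp) {m n : ℕ} (hm : 2 ≤ m) (hn : 2 ≤ n) (r : Fin m → ℕ)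
    (c : Fin n → ℕ) :
    (∀ f : Omega r c → ℝ, ∑ X, f X = 0 →
      2 / ((m : ℝ) * (m - 1) * ((n : ℝ) * (n - 1))) * ∑ X, f X ^ 2
        ≤ (1 / 2 : ℝ) * ∑ X, ∑ Y, blockChain r c X Y * (f X - f Y) ^ 2) ∧
    ∀ (k t : ℕ), m ^ 2 * n ^ 2 * (m * n * (Nat.log 2 (∑ i, r i) + 1) + 2 * k) ≤ t →
      ∀ X : Omega r c,
        (1 / 2 : ℝ) * ∑ Y, |(MixCore.lazy (blockChain r c) ^ t) X Y
          - 1 / (Fintype.card (Omega r c) : ℝ)| ≤ (1 / 2 : ℝ) ^ k :=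
  main_AC (acHyp_of_liftHyp h) hm hn r c

/-- Main conditional theorem, from the lift hypothesis on two-row classes. -/
theorem main_lift2 (h : LiftHyp2) {m n : ℕ} (hm : 2 ≤ m) (hn : 2 ≤ n) (r : Fin m → ℕ)
    (c : Fin n → ℕ) :
    (∀ f : Omega r c → ℝ, ∑ X, f X = 0 →
      2 / ((m : ℝ) * (m - 1) * ((n : ℝ) * (n - 1))) * ∑ X, f X ^ 2
        ≤ (1 / 2 : ℝ) * ∑ X, ∑ Y, blockChain r c X Y * (f X - f Y) ^ 2) ∧
    ∀ (k t : ℕ), m ^ 2 * n ^ 2 * (m * n * (Nat.log 2 (∑ i, r i) + 1) + 2 * k) ≤ t →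
      ∀ X : Omega r c,
        (1 / 2 : ℝ) * ∑ Y, |(MixCore.lazy (blockChain r c) ^ t) X Y
          - 1 / (Fintype.card (Omega r c) : ℝ)| ≤ (1 / 2 : ℝ) ^ k :=
  main_lift (liftHyp_of_liftHyp2 h) hm hn r c

/-- Main conditional theorem, from the explicit surplus inequality on two-row classes. -/
theorem main_sur2 (h : SurHyp2) {m n : ℕ} (hm : 2 ≤ m) (hn : 2 ≤ n) (r : Fin m → ℕ)
    (c : Fin n → ℕ) :
    (∀ f : Omega r c → ℝ, ∑ X, f X = 0 →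
      2 / ((m : ℝ) * (m - 1) * ((n : ℝ) * (n - 1))) * ∑ X, f X ^ 2
        ≤ (1 / 2 : ℝ) * ∑ X, ∑ Y, blockChain r c X Y * (f X - f Y) ^ 2) ∧
    ∀ (k t : ℕ), m ^ 2 * n ^ 2 * (m * n * (Nat.log 2 (∑ i, r i) + 1) + 2 * k) ≤ t →
      ∀ X : Omega r c,
        (1 / 2 : ℝ) * ∑ Y, |(MixCore.lazy (blockChain r c) ^ t) X Y
          - 1 / (Fintype.card (Omega r c) : ℝ)| ≤ (1 / 2 : ℝ) ^ k :=
  main_lift2 (liftHyp2_of_surHyp2 h) hm hn r c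

end Vale.Agent.H91.CT
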