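import Vale.Agent.H91.CT.TauDefs
import Vale.Agent.H91.CT.Transfer

/-!
P328 row L5: the lift hypothesis on two-row classes gives the lift hypothesis in fibre form.

Paper proof.  Fix a class `Omega r c`, rows `i ≠ j` and `f`.  Every `RowRel i j`-class is the
image of an embedding of a two-row class `Omega ![r i, r j] c'` (`c' l = X0 i l + X0 j l`;
replace the rows `i, j`), as in `TransferAux.put` of Transfer.lean for three rows.  Under the
embedding `BlockRel i j a b` corresponds to `BlockRel 0 1 a b` and `tau i j a b` to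
`min (T 0 a) (T 1 b)`, and `f - avgRel (RowRel i j) f` pulls back to a function of zero sum.
Choose a representative of every `RowRel i j`-class (so that the two-row class and the lifts
given by `LiftHyp2` depend only on the class), define `w a b` on each class by transport, and
sum the norm bounds over the classes (`TransferAux.sum_le_of_class`).
-/

namespace Vale.Agent.H91.CT

open Finset Vale.Agent.H90 Vale.Agent.H88.CT

/-- The lift hypothesis on classes of `2 x n` tables (primal form of the surplus inequality):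
every function `f` of zero sum has, for each ordered pair of distinct columns `a, b`, a lift
`w a b` with zero sum on every level set `min (X 0 a) (X 1 b) = t`, with the same averages as
`f` over the classes of the `2 x 2` block in columns `a, b`, and such that the sums of squares
add up to at most `n (n - 1) - 2` times the sum of squares of `f`. -/
def LiftHyp2 : Prop :=
  ∀ (n : ℕ) (r : Fin 2 → ℕ) (c : Fin n → ℕ) (f : Omega r c → ℝ), ∑ X, f X = 0 →
    ∃ w : Fin n → Fin n → Omega r c → ℝ,
      (∀ a b : Fin n, a ≠ b →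
        (∀ t : ℕ, ∑ X ∈ univ.filter (fun X : Omega r c => min (X.1 0 a) (X.1 1 b) = t),
          w a b X = 0) ∧
        avgRel (BlockRel 0 1 a b) (w a b) = avgRel (BlockRel 0 1 a b) f) ∧
      ∑ a : Fin n, ∑ b : Fin n, (if a ≠ b then ∑ X, w a b X ^ 2 else 0)
        ≤ ((n : ℝ) * (n - 1) - 2) * ∑ X, f X ^ 2

namespace Lift2Aux

section generic

variable {Ω : Type*} [Fintype Ω]

/-- The complementary projection of `f` has zero sum on every class. -/
theorem sum_class_Qrel (T : Ω → Ω → Prop) [DecidableRel T] (hT : Equivalence T) (f : Ω → ℝ)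
    (X0 : Ω) : ∑ X ∈ univ.filter (fun X => T X0 X), Qrel T f X = 0 := by
  have h1 : ∀ X ∈ univ.filter (fun X => T X0 X), Qrel T f X = f X - avgRel T f X0 := by
    intro X hX
    simp only [mem_filter, mem_univ, true_and] at hX
    unfold Qrel
    rw [Pi.sub_apply, ← avgRel_of_rel hT f hX]
  rw [Finset.sum_congr rfl h1, Finset.sum_sub_distrib, Finset.sum_const, nsmul_eq_mul]
  have hpos := card_class_pos hT X0
  have e : ((univ.filter (fun X => T X0 X)).card : ℝ) * avgRel T f X0
      = ∑ X ∈ univ.filter (fun X => T X0 X), f X := by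
    unfold avgRel
    field_simp
  rw [e, sub_self]

end generic

variable {m n : ℕ}

/-- The row sums of the two rows. -/
def r2 (r : Fin m → ℕ) (i j : Fin m) : Fin 2 → ℕ := ![r i, r j]

/-- Replace the rows i, j of a matrix by the two rows of a 2 x n matrix. -/
def putFun (X0 : Fin m → Fin n → ℕ) (i j : Fin m) (Z : Fin 2 → Fin n → ℕ) :
    Fin m → Fin n → ℕ :=
  fun q l => if q = i then Z 0 l else if q = j then Z 1 l else X0 q l

theorem putFun_i (X0 : Fin m → Fin n → ℕ) (i j : Fin m) (Z : Fin 2 → Fin n → ℕ) :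
    putFun X0 i j Z i = Z 0 := by
  funext l
  simp [putFun]

theorem putFun_j (X0 : Fin m → Fin n → ℕ) (i j : Fin m) (hij : i ≠ j)
    (Z : Fin 2 → Fin n → ℕ) : putFun X0 i j Z j = Z 1 := by
  funext l
  simp [putFun, hij.symm]

theorem putFun_other (X0 : Fin m → Fin n → ℕ) (i j : Fin m) (Z : Fin 2 → Fin n → ℕ)
    (q : Fin m) (h1 : q ≠ i) (h2 : q ≠ j) : putFun X0 i j Z q = X0 q := by
  funext l
  simp [putFun, h1, h2]

theorem putFun_add (X0 : Fin m → Fin n → ℕ) (i j : Fin m) (hij : i ≠ j)
    (Z : Fin 2 → Fin n → ℕ) (q : Fin m) (l : Fin n) :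
    putFun X0 i j Z q l + ((if q = i then X0 i l else 0) + (if q = j then X0 j l else 0))
      = X0 q l + ((if q = i then Z 0 l else 0) + (if q = j then Z 1 l else 0)) := by
  by_cases h1 : q = i
  · subst h1
    rw [putFun_i, if_pos rfl, if_pos rfl, if_neg hij, if_neg hij]
    omega
  · by_cases h2 : q = j
    · subst h2
      rw [putFun_j X0 i q hij, if_neg h1, if_neg h1, if_pos rfl, if_pos rfl]
      omega
    · rw [putFun_other X0 i j Z q h1 h2, if_neg h1, if_neg h1, if_neg h2, if_neg h2]

theorem putFun_col (X0 : Fin m → Fin n → ℕ) (i j : Fin m) (hij : i ≠ j)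
    (Z : Fin 2 → Fin n → ℕ) (l : Fin n) :
    ∑ q, putFun X0 i j Z q l + (X0 i l + X0 j l)
      = ∑ q, X0 q l + (Z 0 l + Z 1 l) := by
  have h := Finset.sum_congr (s₁ := (Finset.univ : Finset (Fin m))) rfl
    (fun q _ => putFun_add X0 i j hij Z q l)
  simp only [Finset.sum_add_distrib, Finset.sum_ite_eq', Finset.mem_univ, if_true] at h
  exact h

variable {r : Fin m → ℕ} {c : Fin n → ℕ}

/-- The column sums of the two rows of X0. -/
def c2 (X0 : Omega r c) (i j : Fin m) : Fin n → ℕ :=
  fun l => X0.1 i l + X0.1 j l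

/-- The embedding of the two-row class: replace the rows i, j of X0. -/
def put (X0 : Omega r c) (i j : Fin m) (hij : i ≠ j)
    (Z : Omega (r2 r i j) (c2 X0 i j)) : Omega r c :=
  Subtype.mk (putFun X0.1 i j Z.1) (by
    constructor
    · intro q
      by_cases h1 : q = i
      · subst h1
        rw [putFun_i]
        exact Z.2.1 0
      · by_cases h2 : q = j
        · subst h2
          rw [putFun_j X0.1 i q hij]
          exact Z.2.1 1
        · rw [putFun_other X0.1 i j Z.1 q h1 h2]
          exact X0.2.1 q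
    · intro l
      have h := putFun_col X0.1 i j hij Z.1 l
      have hZ := Z.2.2 l
      rw [Fin.sum_univ_two] at hZ
      have hX := X0.2.2 l
      unfold c2 at hZ
      omega)

theorem put_val (X0 : Omega r c) (i j : Fin m) (hij : i ≠ j)
    (Z : Omega (r2 r i j) (c2 X0 i j)) :
    (put X0 i j hij Z).1 = putFun X0.1 i j Z.1 := rfl

theorem put_inj (X0 : Omega r c) (i j : Fin m) (hij : i ≠ j) :
    Function.Injective (put X0 i j hij) := by
  intro Z Z' h
  have h' : putFun X0.1 i j Z.1 = putFun X0.1 i j Z'.1 := congrArg Subtype.val h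
  apply Subtype.ext
  funext q
  have e0 : Z.1 0 = Z'.1 0 := by
    have := congrFun h' i
    rw [putFun_i, putFun_i] at this
    exact this
  have e1 : Z.1 1 = Z'.1 1 := by
    have := congrFun h' j
    rw [putFun_j X0.1 i j hij, putFun_j X0.1 i j hij] at this
    exact this
  fin_cases q
  · exact e0
  · exact e1

/-- Every put table is in the class of X0. -/
theorem row_put (X0 : Omega r c) (i j : Fin m) (hij : i ≠ j)
    (Z : Omega (r2 r i j) (c2 X0 i j)) : RowRel i j X0 (put X0 i j hij Z) := by
  intro q h1 h2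
  rw [put_val, putFun_other X0.1 i j Z.1 q h1 h2]

theorem putFun_of_row (X0 Y : Omega r c) (i j : Fin m) (hij : i ≠ j)
    (hT : RowRel i j X0 Y) :
    putFun X0.1 i j ![Y.1 i, Y.1 j] = Y.1 := by
  funext q
  by_cases h1 : q = i
  · subst h1
    rw [putFun_i]
    rfl
  · by_cases h2 : q = j
    · subst h2
      rw [putFun_j X0.1 i q hij]
      rfl
    · rw [putFun_other X0.1 i j _ q h1 h2]
      exact hT q h1 h2

/-- Every table of the class of X0 is a put table. -/
theorem exists_put (X0 Y : Omega r c) (i j : Fin m) (hij : i ≠ j)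
    (hT : RowRel i j X0 Y) : ∃ Z, put X0 i j hij Z = Y := by
  have hval := putFun_of_row X0 Y i j hij hT
  have hrow : ∀ q : Fin 2, ∑ l, ![Y.1 i, Y.1 j] q l = r2 r i j q := by
    intro q
    fin_cases q
    · exact Y.2.1 i
    · exact Y.2.1 j
  have hcol : ∀ l, ∑ q : Fin 2, ![Y.1 i, Y.1 j] q l = c2 X0 i j l := by
    intro l
    rw [Fin.sum_univ_two]
    have h := putFun_col X0.1 i j hij ![Y.1 i, Y.1 j] l
    rw [hval] at h
    have hX := X0.2.2 l
    have hY := Y.2.2 l
    unfold c2
    omega
  refine ⟨Subtype.mk ![Y.1 i, Y.1 j] ⟨hrow, hcol⟩, ?_⟩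
  exact Subtype.ext hval

theorem mem_class_iff (X0 : Omega r c) (i j : Fin m) (hij : i ≠ j) (Y : Omega r c) :
    Y ∈ univ.filter (fun X => RowRel i j X0 X) ↔ ∃ Z, put X0 i j hij Z = Y := by
  simp only [mem_filter, mem_univ, true_and]
  constructor
  · intro hT
    exact exists_put X0 Y i j hij hT
  · rintro ⟨Z, rfl⟩
    exact row_put X0 i j hij Z

/-- The class of a put table under a relation finer than RowRel stays in the image. -/
theorem exists_of_rel (X0 : Omega r c) (i j : Fin m) (hij : i ≠ j)
    (R : Omega r c → Omega r c → Prop)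
    (hle : ∀ X Y, R X Y → RowRel i j X Y)
    (Z : Omega (r2 r i j) (c2 X0 i j)) (Y : Omega r c)
    (h : R (put X0 i j hij Z) Y) : ∃ Z', put X0 i j hij Z' = Y :=
  exists_put X0 Y i j hij
    ((rowRel_equiv i j).trans (row_put X0 i j hij Z) (hle _ _ h))

theorem rel_block (X0 : Omega r c) (i j : Fin m) (hij : i ≠ j) (a b : Fin n)
    (Z Z' : Omega (r2 r i j) (c2 X0 i j)) :
    BlockRel 0 1 a b Z Z' ↔
      BlockRel i j a b (put X0 i j hij Z) (put X0 i j hij Z') := by
  constructor
  · intro h q l hn
    rw [put_val, put_val]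
    by_cases h1 : q = i
    · rw [h1, putFun_i, putFun_i]
      exact h 0 l (fun hc => hn ⟨Or.inl h1, hc.2⟩)
    · by_cases h2 : q = j
      · rw [h2, putFun_j X0.1 i j hij, putFun_j X0.1 i j hij]
        exact h 1 l (fun hc => hn ⟨Or.inr h2, hc.2⟩)
      · rw [putFun_other X0.1 i j Z.1 q h1 h2, putFun_other X0.1 i j Z'.1 q h1 h2]
  · intro h
    have k0 : ∀ l, ¬ (l = a ∨ l = b) → Z.1 0 l = Z'.1 0 l := by
      intro l hn
      have := h i l (fun hc => hn hc.2)
      rw [put_val, put_val, putFun_i, putFun_i] at this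
      exact this
    have k1 : ∀ l, ¬ (l = a ∨ l = b) → Z.1 1 l = Z'.1 1 l := by
      intro l hn
      have := h j l (fun hc => hn hc.2)
      rw [put_val, put_val, putFun_j X0.1 i j hij, putFun_j X0.1 i j hij] at this
      exact this
    intro q l hn
    fin_cases q
    · exact k0 l (fun hc => hn ⟨Or.inl rfl, hc⟩)
    · exact k1 l (fun hc => hn ⟨Or.inr rfl, hc⟩)

theorem tau_put (X0 : Omega r c) (i j : Fin m) (hij : i ≠ j) (a b : Fin n)
    (Z : Omega (r2 r i j) (c2 X0 i j)) :
    tau i j a b (put X0 i j hij Z) = min (Z.1 0 a) (Z.1 1 b) := by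
  unfold tau
  rw [put_val, putFun_i, putFun_j X0.1 i j hij]

theorem rel_tau (X0 : Omega r c) (i j : Fin m) (hij : i ≠ j) (a b : Fin n)
    (Z Z' : Omega (r2 r i j) (c2 X0 i j)) :
    min (Z.1 0 a) (Z.1 1 b) = min (Z'.1 0 a) (Z'.1 1 b) ↔
      TauRowRel i j a b (put X0 i j hij Z) (put X0 i j hij Z') := by
  unfold TauRowRel
  rw [tau_put, tau_put]
  constructor
  · intro h
    exact ⟨(rowRel_equiv i j).trans ((rowRel_equiv i j).symm (row_put X0 i j hij Z))
      (row_put X0 i j hij Z'), h⟩
  · intro h
    exact h.2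

/-- Reading a family indexed by the representative at a put table. -/
theorem dite_put_eq (i j : Fin m) (hij : i ≠ j)
    (F : (Y : Omega r c) → Omega (r2 r i j) (c2 Y i j) → ℝ)
    (X0 X0' : Omega r c) (e : X0' = X0) (Z : Omega (r2 r i j) (c2 X0 i j)) :
    (if hX : ∃ Z', put X0' i j hij Z' = put X0 i j hij Z then F X0' (Classical.choose hX)
      else 0) = F X0 Z := by
  subst e
  have hX : ∃ Z', put X0' i j hij Z' = put X0' i j hij Z := ⟨Z, rfl⟩
  rw [dif_pos hX, put_inj X0' i j hij (Classical.choose_spec hX)]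

end Lift2Aux

open Lift2Aux in
theorem liftHyp_of_liftHyp2 (h : LiftHyp2) : LiftHyp := by
  classical
  intro m n r c i j hij f
  have eR := rowRel_equiv (r := r) (c := c) i j
  obtain ⟨g, hg⟩ : ∃ g : Omega r c → ℝ, g = Qrel (RowRel i j) f := ⟨_, rfl⟩
  -- representatives of the classes
  let s : Setoid (Omega r c) := Setoid.mk (RowRel i j) eR
  obtain ⟨rep, hrep1, hrep2⟩ : ∃ rep : Omega r c → Omega r c,
      (∀ X, RowRel i j (rep X) X) ∧ (∀ X Y, RowRel i j X Y → rep X = rep Y) := by
    refine ⟨fun X => (Quotient.mk s X).out, fun X => ?_, fun X Y hXY => ?_⟩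
    · exact Quotient.exact (Quotient.out_eq (Quotient.mk s X))
    · have e : Quotient.mk s X = Quotient.mk s Y := Quotient.sound hXY
      show (Quotient.mk s X).out = (Quotient.mk s Y).out
      rw [e]
  have hrep3 : ∀ X, rep (rep X) = rep X := fun X => hrep2 _ _ (hrep1 X)
  -- the pulled back functions have zero sum
  have hz : ∀ X0 : Omega r c, ∑ Z, g (put X0 i j hij Z) = 0 := by
    intro X0
    rw [← TransferAux.sum_class_embed (put X0 i j hij) (put_inj X0 i j hij)
      (univ.filter (fun X => RowRel i j X0 X)) (mem_class_iff X0 i j hij) g, hg]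
    exact sum_class_Qrel (RowRel i j) eR f X0
  have hex := fun X0 : Omega r c =>
    h n (r2 r i j) (c2 X0 i j) (fun Z => g (put X0 i j hij Z)) (hz X0)
  choose w2 hw2 using hex
  -- the global lifts
  obtain ⟨w, hwdef⟩ : ∃ w : Fin n → Fin n → Omega r c → ℝ, ∀ a b X, w a b X =
      (if hX : ∃ Z, put (rep X) i j hij Z = X then w2 (rep X) a b (Classical.choose hX)
        else 0) := ⟨_, fun _ _ _ => rfl⟩
  have hkey : ∀ (a b : Fin n) (X0 : Omega r c), rep X0 = X0 →
      ∀ Z, w a b (put X0 i j hij Z) = w2 X0 a b Z := by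
    intro a b X0 hX0 Z
    have hr : rep (put X0 i j hij Z) = X0 := by
      rw [← hrep2 X0 _ (row_put X0 i j hij Z)]
      exact hX0
    rw [hwdef]
    exact dite_put_eq i j hij (fun Y => w2 Y a b) X0 _ hr Z
  refine ⟨w, fun a b hab => ⟨?_, ?_⟩, ?_⟩
  · -- zero mean on the level sets
    funext X
    have hX0 := hrep3 X
    obtain ⟨Z, hZ⟩ := exists_put (rep X) X i j hij (hrep1 X)
    rw [← hZ, TransferAux.avgRel_embed (put (rep X) i j hij) (put_inj (rep X) i j hij)
      (TauRowRel i j a b)
      (fun Z Z' : Omega (r2 r i j) (c2 (rep X) i j) =>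
        min (Z.1 0 a) (Z.1 1 b) = min (Z'.1 0 a) (Z'.1 1 b))
      (rel_tau (rep X) i j hij a b)
      (exists_of_rel (rep X) i j hij _ (fun _ _ hh => hh.1)) (w a b) Z]
    have e1 : (fun W => w a b (put (rep X) i j hij W)) = w2 (rep X) a b :=
      funext (fun W => hkey a b (rep X) hX0 W)
    rw [e1]
    have h0 := ((hw2 (rep X)).1 a b hab).1 (min (Z.1 0 a) (Z.1 1 b))
    have h1 : ∑ W ∈ univ.filter (fun W : Omega (r2 r i j) (c2 (rep X) i j) =>
        min (Z.1 0 a) (Z.1 1 b) = min (W.1 0 a) (W.1 1 b)), w2 (rep X) a b W = 0 := by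
      rw [← h0]
      exact Finset.sum_congr (Finset.filter_congr (fun _ _ => eq_comm)) (fun _ _ => rfl)
    unfold avgRel
    rw [h1, zero_div]
    rfl
  · -- the block averages
    funext X
    have hX0 := hrep3 X
    obtain ⟨Z, hZ⟩ := exists_put (rep X) X i j hij (hrep1 X)
    have e1 : (fun W => w a b (put (rep X) i j hij W)) = w2 (rep X) a b :=
      funext (fun W => hkey a b (rep X) hX0 W)
    have hemb : ∀ F : Omega r c → ℝ, avgRel (BlockRel i j a b) F (put (rep X) i j hij Z)
        = avgRel (BlockRel 0 1 a b) (fun W => F (put (rep X) i j hij W)) Z := fun F =>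
      TransferAux.avgRel_embed (put (rep X) i j hij) (put_inj (rep X) i j hij)
        (BlockRel i j a b) (BlockRel 0 1 a b) (rel_block (rep X) i j hij a b)
        (exists_of_rel (rep X) i j hij _ (blockRel_le_rowRel i j a b)) F Z
    have hstep : avgRel (BlockRel i j a b) (w a b) X = avgRel (BlockRel i j a b) g X := by
      rw [← hZ, hemb (w a b), hemb g, e1, ((hw2 (rep X)).1 a b hab).2]
    have hinv : avgRel (BlockRel i j a b) (avgRel (RowRel i j) f) = avgRel (RowRel i j) f :=
      avgRel_eq_self (blockRel_equiv i j a b) _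
        (fun x y hxy => avgRel_of_rel eR f (blockRel_le_rowRel i j a b x y hxy))
    rw [hstep, hg]
    unfold Qrel
    rw [avgRel_sub, hinv]
  · -- the norm bound, class by class
    have hA : ∑ a : Fin n, ∑ b : Fin n, (if a ≠ b then dot (w a b) (w a b) else 0)
        = ∑ X, ∑ a : Fin n, ∑ b : Fin n, (if a ≠ b then (w a b X) ^ 2 else 0) := by
      have e1 : ∀ a b : Fin n, (if a ≠ b then dot (w a b) (w a b) else 0)
          = ∑ X, (if a ≠ b then (w a b X) ^ 2 else 0) := by
        intro a b
        by_cases hab : a ≠ b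
        · simp only [if_pos hab]
          unfold dot
          exact Finset.sum_congr rfl (fun X _ => by ring)
        · simp only [if_neg hab, Finset.sum_const_zero]
      simp only [e1]
      rw [Finset.sum_congr rfl (fun a _ => Finset.sum_comm), Finset.sum_comm]
    have hB : ((n : ℝ) * (n - 1) - 2) * dot (Qrel (RowRel i j) f) (Qrel (RowRel i j) f)
        = ∑ X, ((n : ℝ) * (n - 1) - 2) * (g X) ^ 2 := by
      rw [← hg]
      unfold dot
      rw [Finset.mul_sum]
      exact Finset.sum_congr rfl (fun X _ => by ring)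
    rw [hA, hB]
    refine TransferAux.sum_le_of_class (RowRel (r := r) (c := c) i j) eR _ _ (fun X1 => ?_)
    have hX0 := hrep3 X1
    rw [class_eq eR (eR.symm (hrep1 X1)),
      TransferAux.sum_class_embed (put (rep X1) i j hij) (put_inj (rep X1) i j hij) _
        (mem_class_iff (rep X1) i j hij),
      TransferAux.sum_class_embed (put (rep X1) i j hij) (put_inj (rep X1) i j hij) _
        (mem_class_iff (rep X1) i j hij)]
    have e1 : ∑ Z, (∑ a : Fin n, ∑ b : Fin n,
          (if a ≠ b then (w a b (put (rep X1) i j hij Z)) ^ 2 else 0))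
        = ∑ a : Fin n, ∑ b : Fin n, (if a ≠ b then ∑ Z, (w2 (rep X1) a b Z) ^ 2 else 0) := by
      rw [Finset.sum_comm]
      refine Finset.sum_congr rfl (fun a _ => ?_)
      rw [Finset.sum_comm]
      refine Finset.sum_congr rfl (fun b _ => ?_)
      by_cases hab : a ≠ b
      · simp only [if_pos hab, hkey a b (rep X1) hX0]
      · simp only [if_neg hab, Finset.sum_const_zero]
    have e2 : ∑ Z, ((n : ℝ) * (n - 1) - 2) * (g (put (rep X1) i j hij Z)) ^ 2
        = ((n : ℝ) * (n - 1) - 2) * ∑ Z, (g (put (rep X1) i j hij Z)) ^ 2 :=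
      (Finset.mul_sum _ _ _).symm
    rw [e1, e2]
    exact (hw2 (rep X1)).2

end Vale.Agent.H91.CT
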