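import Vale.Agent.H90.KTV.Abs

/-!
P328, anticommutator route: the abstract local inequality.  For symmetric operators `S, A, B`
with `A`, `B` commuting idempotents, vectors `a` (fixed by `A` and `S`), `a'` (fixed by `B` and
`S`) and lifts `w1` (killed by `A`), `w2` (killed by `B`) with `S w2 - S w1 = a - a'`:
`|a - a'|^2 ≤ |w1|^2 + |w2|^2`.
-/

namespace Vale.Agent.H91.CT

open Finset Vale.Agent.H90

theorem dot_sq_le {Ω : Type*} [Fintype Ω] (f g : Ω → ℝ) :
    dot f g ^ 2 ≤ dot f f * dot g g := by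
  unfold dot
  have h := Finset.sum_mul_sq_le_sq_mul_sq (Finset.univ : Finset Ω) f g
  have e1 : ∑ x, f x * f x = ∑ x, f x ^ 2 :=
    Finset.sum_congr rfl (fun x _ => by ring)
  have e2 : ∑ x, g x * g x = ∑ x, g x ^ 2 :=
    Finset.sum_congr rfl (fun x _ => by ring)
  rw [e1, e2]
  exact h

theorem loc_abs {Ω : Type*} [Fintype Ω] (S A B : (Ω → ℝ) → (Ω → ℝ))
    (hS : ∀ f g, dot f (S g) = dot (S f) g)
    (hA : ∀ f g, dot f (A g) = dot (A f) g)
    (hB : ∀ f g, dot f (B g) = dot (B f) g)
    (hAA : ∀ f, A (A f) = A f) (hBB : ∀ f, B (B f) = B f)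
    (hAB : ∀ f, A (B f) = B (A f))
    (a a' w1 w2 : Ω → ℝ)
    (ha : A a = a) (hSa : S a = a) (ha' : B a' = a') (hSa' : S a' = a')
    (hw1 : A w1 = 0) (hw2 : B w2 = 0) (hSw : S w2 - S w1 = a - a') :
    dot (a - a') (a - a') ≤ dot w1 w1 + dot w2 w2 := by
  -- the projections of `a`, `a'`
  set p := B a with hp
  set p' := A a' with hp'
  -- orthogonality relations
  have h1 : dot a' w2 = 0 := by
    rw [← ha', ← hB, hw2, dot_zero_right]
  have h2 : dot a w1 = 0 := by
    rw [← ha, ← hA, hw1, dot_zero_right]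
  have h3 : dot p w2 = 0 := by
    rw [hp, ← hB, hw2, dot_zero_right]
  have h4 : dot p' w1 = 0 := by
    rw [hp', ← hA, hw1, dot_zero_right]
  -- `|z|^2 = <a, w2> + <a', w1>`
  have hz : dot (a - a') (a - a') = dot a w2 + dot a' w1 := by
    have e : dot (a - a') (a - a') = dot (a - a') (S w2 - S w1) := by rw [hSw]
    rw [e, dot_sub_right, dot_sub_left, dot_sub_left, hS a w2, hS a' w2, hS a w1, hS a' w1,
      hSa, hSa', h1, h2]
    ring
  have hz' : dot (a - a') (a - a') = dot (a - p) w2 + dot (a' - p') w1 := by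
    rw [hz, dot_sub_left, dot_sub_left, h3, h4]; ring
  -- norms of the projections
  have hap : dot a p = dot p p := by
    have : dot a p = dot a (B p) := by rw [hp, hBB]
    rw [this, hB]
  have hap' : dot a' p' = dot p' p' := by
    have : dot a' p' = dot a' (A p') := by rw [hp', hAA]
    rw [this, hA]
  have hu : dot (a - p) (a - p) = dot a a - dot p p := by
    rw [dot_sub_left, dot_sub_right, dot_sub_right, dot_comm p a, hap]; ring
  have hu' : dot (a' - p') (a' - p') = dot a' a' - dot p' p' := by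
    rw [dot_sub_left, dot_sub_right, dot_sub_right, dot_comm p' a', hap']; ring
  -- `<a, a'> = <p, p'>`
  have hpA : A p = p := by
    rw [hp]
    calc A (B a) = B (A a) := hAB a
      _ = B a := by rw [ha]
  have haa : dot a a' = dot p p' := by
    calc dot a a' = dot a (B a') := by rw [ha']
      _ = dot p a' := by rw [hB]
      _ = dot (A p) a' := by rw [hpA]
      _ = dot p p' := by rw [← hA]
  have hsum : dot (a - p) (a - p) + dot (a' - p') (a' - p') ≤ dot (a - a') (a - a') := by
    have e : dot (a - a') (a - a') = dot a a - 2 * dot a a' + dot a' a' := by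
      rw [dot_sub_left, dot_sub_right, dot_sub_right, dot_comm a' a]; ring
    rw [hu, hu', e, haa]
    have hn : 0 ≤ dot (p - p') (p - p') := dot_self_nonneg _
    have e2 : dot (p - p') (p - p') = dot p p - 2 * dot p p' + dot p' p' := by
      rw [dot_sub_left, dot_sub_right, dot_sub_right, dot_comm p' p]; ring
    linarith
  -- Cauchy-Schwarz
  set Z := dot (a - a') (a - a') with hZ
  set W := dot w1 w1 + dot w2 w2 with hW
  have hZnn : 0 ≤ Z := dot_self_nonneg _
  have hWnn : 0 ≤ W := add_nonneg (dot_self_nonneg _) (dot_self_nonneg _)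
  have c1 := dot_sq_le (a - p) w2
  have c2 := dot_sq_le (a' - p') w1
  have hU1 : 0 ≤ dot (a - p) (a - p) := dot_self_nonneg _
  have hU2 : 0 ≤ dot (a' - p') (a' - p') := dot_self_nonneg _
  have hW1 : 0 ≤ dot w1 w1 := dot_self_nonneg _
  have hW2 : 0 ≤ dot w2 w2 := dot_self_nonneg _
  have key : Z ^ 2 ≤ Z * W := by
    have hsq : (dot (a - p) w2 + dot (a' - p') w1) ^ 2
        ≤ (dot (a - p) (a - p) + dot (a' - p') (a' - p')) * (dot w2 w2 + dot w1 w1) := by
      set x1 := dot (a - p) w2
      set x2 := dot (a' - p') w1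
      set U1 := dot (a - p) (a - p)
      set U2 := dot (a' - p') (a' - p')
      set V2 := dot w2 w2
      set V1 := dot w1 w1
      have hx : 2 * (x1 * x2) ≤ U1 * V1 + U2 * V2 := by
        have hm : (x1 * x2) ^ 2 ≤ (U1 * V1) * (U2 * V2) := by
          have : (x1 * x2) ^ 2 = x1 ^ 2 * x2 ^ 2 := by ring
          rw [this]
          calc x1 ^ 2 * x2 ^ 2 ≤ (U1 * V2) * (U2 * V1) :=
                mul_le_mul c1 c2 (sq_nonneg _) (mul_nonneg hU1 hW2)
            _ = (U1 * V1) * (U2 * V2) := by ring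
        have hP : 0 ≤ U1 * V1 := mul_nonneg hU1 hW1
        have hQ : 0 ≤ U2 * V2 := mul_nonneg hU2 hW2
        by_contra hcon
        have hlt : U1 * V1 + U2 * V2 < 2 * (x1 * x2) := lt_of_not_ge hcon
        have h5 : (U1 * V1 + U2 * V2) * (U1 * V1 + U2 * V2) < (2 * (x1 * x2)) * (2 * (x1 * x2)) :=
          mul_self_lt_mul_self (add_nonneg hP hQ) hlt
        nlinarith [sq_nonneg (U1 * V1 - U2 * V2)]
      nlinarith
    calc Z ^ 2 = (dot (a - p) w2 + dot (a' - p') w1) ^ 2 := by rw [← hz']
      _ ≤ (dot (a - p) (a - p) + dot (a' - p') (a' - p')) * (dot w2 w2 + dot w1 w1) := hsq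
      _ ≤ Z * W := by
          rw [hW, add_comm (dot w1 w1)]
          exact mul_le_mul_of_nonneg_right hsum (add_nonneg hW2 hW1)
  rcases hZnn.lt_or_eq with hpos | h0
  · have : Z * Z ≤ Z * W := by rw [← sq]; exact key
    exact le_of_mul_le_mul_left this hpos
  · rw [← h0]; exact hWnn

end Vale.Agent.H91.CT
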