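import Vale.Agent.H91.CT.TauSq
import Vale.Agent.H91.CT.LocAbs

/-!
P328 row L2: the local inequality (LOC) on a class of tables, for any lifts.

Paper proof.  `loc_abs` (LocAbs.lean) with `S = avgRel (BlockRel i j a b)`,
`A = avgRel (TauRowRel i j a b)`, `B = avgRel (TauColRel i j a b)` (symmetric idempotents,
commuting by `Vale.Agent.H90.avgRel_comm` with `tau_sq`, `tau_uniq`),
`a = avgRel (RowRel i j) f` (invariant under `RowRel`, hence fixed by `A` and `S`),
`a' = avgRel (ColRel a b) f`, `w1 = w`, `w2 = w'`; then `a - a' = Qrel (ColRel a b) f -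
Qrel (RowRel i j) f` and expanding the square gives the claim.
-/

namespace Vale.Agent.H91.CT

open Finset Vale.Agent.H90 Vale.Agent.H88.CT

variable {m n : ℕ} {r : Fin m → ℕ} {c : Fin n → ℕ}

theorem loc_global (i j : Fin m) (hij : i ≠ j) (a b : Fin n) (hab : a ≠ b)
    (f w w' : Omega r c → ℝ)
    (hw : avgRel (TauRowRel i j a b) w = 0)
    (hSw : avgRel (BlockRel i j a b) w = avgRel (BlockRel i j a b) f - avgRel (RowRel i j) f)
    (hw' : avgRel (TauColRel i j a b) w' = 0)
    (hSw' : avgRel (BlockRel i j a b) w'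
      = avgRel (BlockRel i j a b) f - avgRel (ColRel a b) f) :
    dot (Qrel (RowRel i j) f) (Qrel (RowRel i j) f)
        + dot (Qrel (ColRel a b) f) (Qrel (ColRel a b) f) - dot w w - dot w' w'
      ≤ 2 * dot (Qrel (RowRel i j) f) (Qrel (ColRel a b) f) := by
  classical
  have eS := blockRel_equiv (r := r) (c := c) i j a b
  have eA := tauRowRel_equiv (r := r) (c := c) i j a b
  have eB := tauColRel_equiv (r := r) (c := c) i j a b
  have eR := rowRel_equiv (r := r) (c := c) i j
  have eC := colRel_equiv (r := r) (c := c) a b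
  -- the two coarse averages
  set u := avgRel (RowRel i j) f with hu
  set v := avgRel (ColRel a b) f with hv
  have hAu : avgRel (TauRowRel i j a b) u = u :=
    avgRel_eq_self eA u (fun x y hxy => avgRel_of_rel eR f hxy.1)
  have hSu : avgRel (BlockRel i j a b) u = u :=
    avgRel_eq_self eS u (fun x y hxy => avgRel_of_rel eR f (blockRel_le_rowRel i j a b x y hxy))
  have hBv : avgRel (TauColRel i j a b) v = v :=
    avgRel_eq_self eB v (fun x y hxy => avgRel_of_rel eC f hxy.1)
  have hSv : avgRel (BlockRel i j a b) v = v :=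
    avgRel_eq_self eS v (fun x y hxy => avgRel_of_rel eC f (blockRel_le_colRel i j a b x y hxy))
  have hdiff : avgRel (BlockRel i j a b) w' - avgRel (BlockRel i j a b) w = u - v := by
    rw [hSw, hSw']
    abel
  have key := loc_abs (avgRel (BlockRel i j a b)) (avgRel (TauRowRel i j a b))
    (avgRel (TauColRel i j a b))
    (fun f g => avgRel_dot eS f g) (fun f g => avgRel_dot eA f g) (fun f g => avgRel_dot eB f g)
    (fun f => avgRel_idem eA f) (fun f => avgRel_idem eB f)
    (fun f => avgRel_comm eA eB (tau_sq i j hij a b hab) (tau_uniq i j hij a b hab) f)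
    u v w w' hAu hSu hBv hSv hw hw' hdiff
  have hQ : Qrel (ColRel a b) f - Qrel (RowRel i j) f = u - v := by
    unfold Qrel
    rw [← hu, ← hv]
    abel
  have hexp : dot (u - v) (u - v)
      = dot (Qrel (RowRel i j) f) (Qrel (RowRel i j) f)
        + dot (Qrel (ColRel a b) f) (Qrel (ColRel a b) f)
        - 2 * dot (Qrel (RowRel i j) f) (Qrel (ColRel a b) f) := by
    rw [← hQ, dot_sub_left, dot_sub_right, dot_sub_right,
      dot_comm (Qrel (ColRel a b) f) (Qrel (RowRel i j) f)]
    ring
  linarith

end Vale.Agent.H91.CT
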