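import Vale.Agent.H91.CT.Basic

/-!
P328 row R1a: the fibre relations are equivalences, their symmetries and inclusions.
-/

namespace Vale.Agent.H91.CT

open Finset Vale.Agent.H90 Vale.Agent.H88.CT

variable {m n : ℕ} {r : Fin m → ℕ} {c : Fin n → ℕ}

theorem allRel_equiv : Equivalence (AllRel (r := r) (c := c)) :=
  ⟨fun _ => trivial, fun _ => trivial, fun _ _ => trivial⟩

theorem rowRel_equiv (i j : Fin m) : Equivalence (RowRel (r := r) (c := c) i j) :=
  ⟨fun _ _ _ _ => rfl, fun h k hi hj => (h k hi hj).symm,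
    fun h1 h2 k hi hj => (h1 k hi hj).trans (h2 k hi hj)⟩

theorem colRel_equiv (a b : Fin n) : Equivalence (ColRel (r := r) (c := c) a b) :=
  ⟨fun _ _ _ _ _ => rfl, fun h k l ha hb => (h k l ha hb).symm,
    fun h1 h2 k l ha hb => (h1 k l ha hb).trans (h2 k l ha hb)⟩

theorem triRel_equiv (i j k : Fin m) : Equivalence (TriRel (r := r) (c := c) i j k) :=
  ⟨fun _ _ _ _ _ => rfl, fun h l hi hj hk => (h l hi hj hk).symm,
    fun h1 h2 l hi hj hk => (h1 l hi hj hk).trans (h2 l hi hj hk)⟩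

theorem blockRel_equiv (i j : Fin m) (a b : Fin n) :
    Equivalence (BlockRel (r := r) (c := c) i j a b) :=
  ⟨fun _ _ _ _ => rfl, fun h k l hn => (h k l hn).symm,
    fun h1 h2 k l hn => (h1 k l hn).trans (h2 k l hn)⟩

theorem block3Rel_equiv (i j : Fin m) (a b d : Fin n) :
    Equivalence (Block3Rel (r := r) (c := c) i j a b d) :=
  ⟨fun _ _ _ _ => rfl, fun h k l hn => (h k l hn).symm,
    fun h1 h2 k l hn => (h1 k l hn).trans (h2 k l hn)⟩

theorem rowRel_symm (i j : Fin m) (X Y : Omega r c) : RowRel i j X Y ↔ RowRel j i X Y :=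
  ⟨fun h k hj hi => h k hi hj, fun h k hi hj => h k hj hi⟩

theorem colRel_symm (a b : Fin n) (X Y : Omega r c) : ColRel a b X Y ↔ ColRel b a X Y :=
  ⟨fun h k l hb ha => h k l ha hb, fun h k l ha hb => h k l hb ha⟩

theorem blockRel_symm_col (i j : Fin m) (a b : Fin n) (X Y : Omega r c) :
    BlockRel i j a b X Y ↔ BlockRel i j b a X Y :=
  ⟨fun h k l hn => h k l (fun hc => hn ⟨hc.1, hc.2.symm⟩),
    fun h k l hn => h k l (fun hc => hn ⟨hc.1, hc.2.symm⟩)⟩

theorem blockRel_symm_row (i j : Fin m) (a b : Fin n) (X Y : Omega r c) :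
    BlockRel i j a b X Y ↔ BlockRel j i a b X Y :=
  ⟨fun h k l hn => h k l (fun hc => hn ⟨hc.1.symm, hc.2⟩),
    fun h k l hn => h k l (fun hc => hn ⟨hc.1.symm, hc.2⟩)⟩

theorem blockRel_le_rowRel (i j : Fin m) (a b : Fin n) (X Y : Omega r c)
    (h : BlockRel i j a b X Y) : RowRel i j X Y := by
  intro k hi hj
  funext l
  exact h k l (fun hc => hc.1.elim hi hj)

theorem blockRel_le_colRel (i j : Fin m) (a b : Fin n) (X Y : Omega r c)
    (h : BlockRel i j a b X Y) : ColRel a b X Y := by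
  intro k l ha hb
  exact h k l (fun hc => hc.2.elim ha hb)

theorem blockRel_le_block3_ab (i j : Fin m) (a b d : Fin n) (X Y : Omega r c)
    (h : BlockRel i j a b X Y) : Block3Rel i j a b d X Y := by
  intro k l hn
  exact h k l (fun hc => hn ⟨hc.1, hc.2.elim Or.inl (fun hb => Or.inr (Or.inl hb))⟩)

theorem blockRel_le_block3_bd (i j : Fin m) (a b d : Fin n) (X Y : Omega r c)
    (h : BlockRel i j b d X Y) : Block3Rel i j a b d X Y := by
  intro k l hn
  exact h k l (fun hc => hn ⟨hc.1, hc.2.elim (fun hb => Or.inr (Or.inl hb))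
    (fun hd => Or.inr (Or.inr hd))⟩)

theorem blockRel_le_block3_da (i j : Fin m) (a b d : Fin n) (X Y : Omega r c)
    (h : BlockRel i j d a X Y) : Block3Rel i j a b d X Y := by
  intro k l hn
  exact h k l (fun hc => hn ⟨hc.1, hc.2.elim (fun hd => Or.inr (Or.inr hd)) Or.inl⟩)

theorem rowRel_le_triRel_ij (i j k : Fin m) (X Y : Omega r c) (h : RowRel i j X Y) :
    TriRel i j k X Y := by
  intro l hi hj _
  exact h l hi hj

theorem rowRel_le_triRel_jk (i j k : Fin m) (X Y : Omega r c) (h : RowRel j k X Y) :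
    TriRel i j k X Y := by
  intro l _ hj hk
  exact h l hj hk

theorem rowRel_le_triRel_ki (i j k : Fin m) (X Y : Omega r c) (h : RowRel k i X Y) :
    TriRel i j k X Y := by
  intro l hi _ hk
  exact h l hk hi

theorem move_blockRel (i j : Fin m) (a b : Fin n) (X Y : Omega r c) (h : Move i j a b X Y) :
    BlockRel i j a b X Y := h.1

/-- A unit move read backwards. -/
theorem move_symm (i j : Fin m) (a b : Fin n) (X Y : Omega r c) :
    Move i j a b X Y ↔ Move i j b a Y X := by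
  constructor
  · rintro ⟨h1, h2, h3, h4, h5⟩
    exact ⟨fun k l hn => (h1 k l (fun hc => hn ⟨hc.1, hc.2.symm⟩)).symm, h4, h5, h2, h3⟩
  · rintro ⟨h1, h2, h3, h4, h5⟩
    exact ⟨fun k l hn => (h1 k l (fun hc => hn ⟨hc.1, hc.2.symm⟩)).symm, h4, h5, h2, h3⟩

/-- A unit move with the two rows exchanged. -/
theorem move_swap (i j : Fin m) (a b : Fin n) (X Y : Omega r c) :
    Move i j a b X Y ↔ Move j i b a X Y := by
  constructor
  · rintro ⟨h1, h2, h3, h4, h5⟩
    exact ⟨fun k l hn => h1 k l (fun hc => hn ⟨hc.1.symm, hc.2.symm⟩), h3, h2, h5, h4⟩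
  · rintro ⟨h1, h2, h3, h4, h5⟩
    exact ⟨fun k l hn => h1 k l (fun hc => hn ⟨hc.1.symm, hc.2.symm⟩), h3, h2, h5, h4⟩

end Vale.Agent.H91.CT
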