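import Vale.Agent.H91.CT.Basic

/-!
P328, anticommutator route: the latent level `tau` of a `2 x 2` block, the refined fibre
relations, and the lift hypothesis (primal form of the one-dimensional surplus inequality).
-/

namespace Vale.Agent.H91.CT

open Finset Vale.Agent.H90 Vale.Agent.H88.CT

variable {m n : ℕ} {r : Fin m → ℕ} {c : Fin n → ℕ}

/-- The latent level of the block in rows `i, j` and columns `a, b`: the smaller of the two
diagonal entries. -/
def tau (i j : Fin m) (a b : Fin n) (X : Omega r c) : ℕ := min (X.1 i a) (X.1 j b)

/-- Same row-pair fibre and same level of the block. -/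
def TauRowRel (i j : Fin m) (a b : Fin n) (X Y : Omega r c) : Prop :=
  RowRel i j X Y ∧ tau i j a b X = tau i j a b Y

instance (i j : Fin m) (a b : Fin n) : DecidableRel (TauRowRel (r := r) (c := c) i j a b) :=
  fun X Y => by unfold TauRowRel; infer_instance

/-- Same column-pair fibre and same level of the block. -/
def TauColRel (i j : Fin m) (a b : Fin n) (X Y : Omega r c) : Prop :=
  ColRel a b X Y ∧ tau i j a b X = tau i j a b Y

instance (i j : Fin m) (a b : Fin n) : DecidableRel (TauColRel (r := r) (c := c) i j a b) :=
  fun X Y => by unfold TauColRel; infer_instance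

/-- The lift hypothesis (primal form of the surplus inequality of two-row fibres): inside every
class and for every pair of rows `i ≠ j`, every function `f` has, for each ordered pair of
distinct columns `a, b`, a lift `w a b` with zero mean on the level sets of the block inside the
row-pair fibres, whose block average is that of `f` minus the row-pair average of `f`, and such
that the squared norms add up to at most `n (n - 1) - 2` times the row-pair Dirichlet form. -/
def LiftHyp : Prop :=
  ∀ (m n : ℕ) (r : Fin m → ℕ) (c : Fin n → ℕ) (i j : Fin m), i ≠ j →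
    ∀ f : Omega r c → ℝ, ∃ w : Fin n → Fin n → Omega r c → ℝ,
      (∀ a b : Fin n, a ≠ b →
        avgRel (TauRowRel i j a b) (w a b) = 0 ∧
        avgRel (BlockRel i j a b) (w a b)
          = avgRel (BlockRel i j a b) f - avgRel (RowRel i j) f) ∧
      ∑ a : Fin n, ∑ b : Fin n, (if a ≠ b then dot (w a b) (w a b) else 0)
        ≤ ((n : ℝ) * (n - 1) - 2) * dot (Qrel (RowRel i j) f) (Qrel (RowRel i j) f)

/-- The transposed lift hypothesis (column pairs). -/
def LiftHypCol : Prop :=
  ∀ (m n : ℕ) (r : Fin m → ℕ) (c : Fin n → ℕ) (a b : Fin n), a ≠ b →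
    ∀ f : Omega r c → ℝ, ∃ w : Fin m → Fin m → Omega r c → ℝ,
      (∀ i j : Fin m, i ≠ j →
        avgRel (TauColRel i j a b) (w i j) = 0 ∧
        avgRel (BlockRel i j a b) (w i j)
          = avgRel (BlockRel i j a b) f - avgRel (ColRel a b) f) ∧
      ∑ i : Fin m, ∑ j : Fin m, (if i ≠ j then dot (w i j) (w i j) else 0)
        ≤ ((m : ℝ) * (m - 1) - 2) * dot (Qrel (ColRel a b) f) (Qrel (ColRel a b) f)

end Vale.Agent.H91.CT
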