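import Vale.Agent.H91.CT.TauDefs
import Vale.Agent.H91.CT.Rel

/-!
P328 row L1: the refined relations `TauRowRel`, `TauColRel` (same row-pair / column-pair fibre
and same level `tau = min (X i a) (X j b)` of the block) are equivalences, they intersect in the
identity, and they satisfy the commutation square: given the level, the row arm and the column
arm of the cross are independent.

Paper proof of `tau_sq`.  Let `t` be the common level of `X, Y, Z`.  `W` is `X` outside the
columns `a, b`, `Z` on the columns `a, b` outside the rows `i, j`, and on the block it is the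
unique `2 x 2` table with the forced margins and level `t`: with `x = X i a + X i b`,
`x' = X j a + X j b` (block row sums, those of `X`) and `y = Z i a + Z j a`,
`y' = Z i b + Z j b` (block column sums, those of `Z`), `x + x' = y + y'`,
`W i a = t + (x - y')`, `W j b = t + (y' - x)`, `W i b = min x y' - t`, `W j a = min y x' - t`
(truncated subtractions).  This is legal because `t ≤ X i a ≤ x`, `t ≤ X j b ≤ x'`,
`t ≤ Z i a ≤ y`, `t ≤ Z j b ≤ y'`; the level of `W` is `t` since one of `x - y'`, `y' - x` is `0`.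
`tau_uniq`: `X, Y` agree outside the block, so the block of `Y` is the block of `X` shifted by
some `δ` along `e_ia - e_ib - e_ja + e_jb`, and the level shifts by `δ` as well.
-/

namespace Vale.Agent.H91.CT

open Finset Vale.Agent.H90 Vale.Agent.H88.CT

variable {m n : ℕ} {r : Fin m → ℕ} {c : Fin n → ℕ}

namespace TauSqAux

/-- Two functions that agree off two points have the same sum iff the sums over the two points
agree. -/
theorem sum_pair {α : Type*} [Fintype α] [DecidableEq α] (g g' : α → ℕ) (v e : α)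
    (hve : v ≠ e) (h : ∀ l, l ≠ v → l ≠ e → g l = g' l) :
    (∑ l, g l = ∑ l, g' l) ↔ g v + g e = g' v + g' e := by
  have key : ∀ g : α → ℕ, ∑ l, g l = g v + g e + ∑ l ∈ (univ.erase v).erase e, g l := by
    intro g
    rw [← Finset.add_sum_erase univ g (mem_univ v),
      ← Finset.add_sum_erase (univ.erase v) g (mem_erase.2 ⟨hve.symm, mem_univ e⟩)]
    ring
  rw [key g, key g']
  have hrest : ∑ l ∈ (univ.erase v).erase e, g l = ∑ l ∈ (univ.erase v).erase e, g' l := by
    refine Finset.sum_congr rfl (fun l hl => ?_)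
    have h1 := mem_erase.1 hl
    exact h l (mem_erase.1 h1.2).1 h1.1
  rw [hrest]
  omega

/-- Entries of the glued table: `X` outside the columns `a, b`, `Z` on the columns `a, b` outside
the rows `i, j`, and four prescribed entries on the block. -/
def glueFun (i j : Fin m) (a b : Fin n) (X Z : Fin m → Fin n → ℕ) (wia wib wja wjb : ℕ) :
    Fin m → Fin n → ℕ :=
  fun k l =>
    if k = i then (if l = a then wia else if l = b then wib else X k l)
    else if k = j then (if l = a then wja else if l = b then wjb else X k l)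
    else (if l = a ∨ l = b then Z k l else X k l)

theorem glueFun_ia (i j : Fin m) (a b : Fin n) (X Z : Fin m → Fin n → ℕ) (wia wib wja wjb : ℕ) :
    glueFun i j a b X Z wia wib wja wjb i a = wia := by
  simp [glueFun]

theorem glueFun_ib (i j : Fin m) (a b : Fin n) (hab : a ≠ b) (X Z : Fin m → Fin n → ℕ)
    (wia wib wja wjb : ℕ) : glueFun i j a b X Z wia wib wja wjb i b = wib := by
  simp [glueFun, hab.symm]

theorem glueFun_ja (i j : Fin m) (hij : i ≠ j) (a b : Fin n) (X Z : Fin m → Fin n → ℕ)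
    (wia wib wja wjb : ℕ) : glueFun i j a b X Z wia wib wja wjb j a = wja := by
  simp [glueFun, hij.symm]

theorem glueFun_jb (i j : Fin m) (hij : i ≠ j) (a b : Fin n) (hab : a ≠ b)
    (X Z : Fin m → Fin n → ℕ) (wia wib wja wjb : ℕ) :
    glueFun i j a b X Z wia wib wja wjb j b = wjb := by
  simp [glueFun, hij.symm, hab.symm]

theorem glueFun_col (i j : Fin m) (a b : Fin n) (X Z : Fin m → Fin n → ℕ) (wia wib wja wjb : ℕ)
    (k : Fin m) (l : Fin n) (hla : l ≠ a) (hlb : l ≠ b) :
    glueFun i j a b X Z wia wib wja wjb k l = X k l := by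
  unfold glueFun
  by_cases hki : k = i
  · simp [hki, hla, hlb]
  · by_cases hkj : k = j
    · simp [hkj, hla, hlb]
    · simp [hki, hkj, hla, hlb]

theorem glueFun_row (i j : Fin m) (a b : Fin n) (X Z : Fin m → Fin n → ℕ) (wia wib wja wjb : ℕ)
    (k : Fin m) (l : Fin n) (hki : k ≠ i) (hkj : k ≠ j) (hl : l = a ∨ l = b) :
    glueFun i j a b X Z wia wib wja wjb k l = Z k l := by
  unfold glueFun
  simp [hki, hkj, hl]

/-- The glued table has the margins of the class. -/
theorem glueFun_margins (i j : Fin m) (hij : i ≠ j) (a b : Fin n) (hab : a ≠ b)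
    (X Z : Omega r c) (hXZ : ∀ k l, k ≠ i → k ≠ j → l ≠ a → l ≠ b → X.1 k l = Z.1 k l)
    (wia wib wja wjb : ℕ)
    (e1 : wia + wib = X.1 i a + X.1 i b) (e2 : wja + wjb = X.1 j a + X.1 j b)
    (e3 : wia + wja = Z.1 i a + Z.1 j a) (e4 : wib + wjb = Z.1 i b + Z.1 j b) :
    (∀ k, ∑ l, glueFun i j a b X.1 Z.1 wia wib wja wjb k l = r k) ∧
      (∀ l, ∑ k, glueFun i j a b X.1 Z.1 wia wib wja wjb k l = c l) := by
  constructor
  · intro k
    by_cases hki : k = i
    · subst hki
      rw [← X.2.1 k]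
      rw [sum_pair (fun l => glueFun k j a b X.1 Z.1 wia wib wja wjb k l)
        (fun l => X.1 k l) a b hab]
      · show glueFun k j a b X.1 Z.1 wia wib wja wjb k a
          + glueFun k j a b X.1 Z.1 wia wib wja wjb k b = X.1 k a + X.1 k b
        rw [glueFun_ia, glueFun_ib _ _ _ _ hab]
        exact e1
      · intro l hla hlb
        exact glueFun_col _ _ _ _ _ _ _ _ _ _ _ _ hla hlb
    · by_cases hkj : k = j
      · subst hkj
        rw [← X.2.1 k]
        rw [sum_pair (fun l => glueFun i k a b X.1 Z.1 wia wib wja wjb k l)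
          (fun l => X.1 k l) a b hab]
        · show glueFun i k a b X.1 Z.1 wia wib wja wjb k a
            + glueFun i k a b X.1 Z.1 wia wib wja wjb k b = X.1 k a + X.1 k b
          rw [glueFun_ja _ _ hij, glueFun_jb _ _ hij _ _ hab]
          exact e2
        · intro l hla hlb
          exact glueFun_col _ _ _ _ _ _ _ _ _ _ _ _ hla hlb
      · rw [← Z.2.1 k]
        refine Finset.sum_congr rfl (fun l _ => ?_)
        by_cases hl : l = a ∨ l = b
        · exact glueFun_row _ _ _ _ _ _ _ _ _ _ _ _ hki hkj hl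
        · rw [not_or] at hl
          rw [glueFun_col _ _ _ _ _ _ _ _ _ _ _ _ hl.1 hl.2]
          exact hXZ k l hki hkj hl.1 hl.2
  · intro l
    by_cases hla : l = a
    · subst hla
      rw [← Z.2.2 l]
      rw [sum_pair (fun k => glueFun i j l b X.1 Z.1 wia wib wja wjb k l)
        (fun k => Z.1 k l) i j hij]
      · show glueFun i j l b X.1 Z.1 wia wib wja wjb i l
          + glueFun i j l b X.1 Z.1 wia wib wja wjb j l = Z.1 i l + Z.1 j l
        rw [glueFun_ia, glueFun_ja _ _ hij]
        exact e3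
      · intro k hki hkj
        exact glueFun_row _ _ _ _ _ _ _ _ _ _ _ _ hki hkj (Or.inl rfl)
    · by_cases hlb : l = b
      · subst hlb
        rw [← Z.2.2 l]
        rw [sum_pair (fun k => glueFun i j a l X.1 Z.1 wia wib wja wjb k l)
          (fun k => Z.1 k l) i j hij]
        · show glueFun i j a l X.1 Z.1 wia wib wja wjb i l
            + glueFun i j a l X.1 Z.1 wia wib wja wjb j l = Z.1 i l + Z.1 j l
          rw [glueFun_ib _ _ _ _ hab, glueFun_jb _ _ hij _ _ hab]
          exact e4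
        · intro k hki hkj
          exact glueFun_row _ _ _ _ _ _ _ _ _ _ _ _ hki hkj (Or.inr rfl)
      · rw [← X.2.2 l]
        refine Finset.sum_congr rfl (fun k _ => ?_)
        exact glueFun_col _ _ _ _ _ _ _ _ _ _ _ _ hla hlb

/-- Two tables in the same row-pair fibre have the same column sums over the two rows. -/
theorem rowRel_col_sums (i j : Fin m) (hij : i ≠ j) (X Y : Omega r c) (h : RowRel i j X Y)
    (l : Fin n) : X.1 i l + X.1 j l = Y.1 i l + Y.1 j l := by
  refine (sum_pair (fun k => X.1 k l) (fun k => Y.1 k l) i j hij ?_).1 ?_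
  · intro k hki hkj
    rw [h k hki hkj]
  · rw [X.2.2 l, Y.2.2 l]

/-- Two tables in the same column-pair fibre have the same row sums over the two columns. -/
theorem colRel_row_sums (a b : Fin n) (hab : a ≠ b) (X Y : Omega r c) (h : ColRel a b X Y)
    (k : Fin m) : X.1 k a + X.1 k b = Y.1 k a + Y.1 k b := by
  refine (sum_pair (fun l => X.1 k l) (fun l => Y.1 k l) a b hab ?_).1 ?_
  · intro l hla hlb
    exact h k l hla hlb
  · rw [X.2.1 k, Y.2.1 k]

end TauSqAux

open TauSqAux

theorem tauRowRel_equiv (i j : Fin m) (a b : Fin n) :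
    Equivalence (TauRowRel (r := r) (c := c) i j a b) :=
  ⟨fun X => ⟨(rowRel_equiv i j).refl X, rfl⟩,
    fun h => ⟨(rowRel_equiv i j).symm h.1, h.2.symm⟩,
    fun h1 h2 => ⟨(rowRel_equiv i j).trans h1.1 h2.1, h1.2.trans h2.2⟩⟩

theorem tauColRel_equiv (i j : Fin m) (a b : Fin n) :
    Equivalence (TauColRel (r := r) (c := c) i j a b) :=
  ⟨fun X => ⟨(colRel_equiv a b).refl X, rfl⟩,
    fun h => ⟨(colRel_equiv a b).symm h.1, h.2.symm⟩,
    fun h1 h2 => ⟨(colRel_equiv a b).trans h1.1 h2.1, h1.2.trans h2.2⟩⟩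

theorem tau_uniq (i j : Fin m) (hij : i ≠ j) (a b : Fin n) (hab : a ≠ b) (X Y : Omega r c)
    (h1 : TauRowRel i j a b X Y) (h2 : TauColRel i j a b X Y) : X = Y := by
  obtain ⟨hrow, htau⟩ := h1
  obtain ⟨hcol, -⟩ := h2
  have ca := rowRel_col_sums i j hij X Y hrow a
  have cb := rowRel_col_sums i j hij X Y hrow b
  have ri := colRel_row_sums a b hab X Y hcol i
  have rj := colRel_row_sums a b hab X Y hcol j
  have ht : min (X.1 i a) (X.1 j b) = min (Y.1 i a) (Y.1 j b) := htau
  apply Subtype.ext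
  funext k l
  by_cases hl : l = a ∨ l = b
  · by_cases hk : k = i ∨ k = j
    · rcases hk with rfl | rfl <;> rcases hl with rfl | rfl <;> omega
    · rw [not_or] at hk
      rw [hrow k hk.1 hk.2]
  · rw [not_or] at hl
    exact hcol k l hl.1 hl.2

theorem tau_sq (i j : Fin m) (hij : i ≠ j) (a b : Fin n) (hab : a ≠ b) (X Y Z : Omega r c)
    (h1 : TauRowRel i j a b X Y) (h2 : TauColRel i j a b Y Z) :
    ∃ W : Omega r c, TauColRel i j a b X W ∧ TauRowRel i j a b W Z := by
  obtain ⟨hrow, htau1⟩ := h1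
  obtain ⟨hcol, htau2⟩ := h2
  have ca := rowRel_col_sums i j hij X Y hrow a
  have cb := rowRel_col_sums i j hij X Y hrow b
  have ri := colRel_row_sums a b hab Y Z hcol i
  have rj := colRel_row_sums a b hab Y Z hcol j
  have ht1 : min (X.1 i a) (X.1 j b) = min (Y.1 i a) (Y.1 j b) := htau1
  have ht2 : min (Y.1 i a) (Y.1 j b) = min (Z.1 i a) (Z.1 j b) := htau2
  have hXZ : ∀ k l, k ≠ i → k ≠ j → l ≠ a → l ≠ b → X.1 k l = Z.1 k l := by
    intro k l hki hkj hla hlb
    rw [hrow k hki hkj]
    exact hcol k l hla hlb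
  -- the block entries
  obtain ⟨t, ht⟩ : ∃ t : ℕ, t = min (X.1 i a) (X.1 j b) := ⟨_, rfl⟩
  obtain ⟨x, hx⟩ : ∃ x : ℕ, x = X.1 i a + X.1 i b := ⟨_, rfl⟩
  obtain ⟨x', hx'⟩ : ∃ x' : ℕ, x' = X.1 j a + X.1 j b := ⟨_, rfl⟩
  obtain ⟨y, hy⟩ : ∃ y : ℕ, y = Z.1 i a + Z.1 j a := ⟨_, rfl⟩
  obtain ⟨y', hy'⟩ : ∃ y' : ℕ, y' = Z.1 i b + Z.1 j b := ⟨_, rfl⟩
  have e1 : (t + (x - y')) + (min x y' - t) = X.1 i a + X.1 i b := by omega
  have e2 : (min y x' - t) + (t + (y' - x)) = X.1 j a + X.1 j b := by omega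
  have e3 : (t + (x - y')) + (min y x' - t) = Z.1 i a + Z.1 j a := by omega
  have e4 : (min x y' - t) + (t + (y' - x)) = Z.1 i b + Z.1 j b := by omega
  have e5 : min (t + (x - y')) (t + (y' - x)) = t := by omega
  refine ⟨⟨glueFun i j a b X.1 Z.1 (t + (x - y')) (min x y' - t) (min y x' - t) (t + (y' - x)),
    glueFun_margins i j hij a b hab X Z hXZ _ _ _ _ e1 e2 e3 e4⟩, ⟨?_, ?_⟩, ⟨?_, ?_⟩⟩
  · intro k l hla hlb
    exact (glueFun_col _ _ _ _ _ _ _ _ _ _ _ _ hla hlb).symm
  · show min (X.1 i a) (X.1 j b)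
      = min (glueFun i j a b X.1 Z.1 (t + (x - y')) (min x y' - t) (min y x' - t)
          (t + (y' - x)) i a)
        (glueFun i j a b X.1 Z.1 (t + (x - y')) (min x y' - t) (min y x' - t)
          (t + (y' - x)) j b)
    rw [glueFun_ia, glueFun_jb _ _ hij _ _ hab, e5, ht]
  · intro k hki hkj
    funext l
    show glueFun i j a b X.1 Z.1 (t + (x - y')) (min x y' - t) (min y x' - t)
        (t + (y' - x)) k l = Z.1 k l
    by_cases hl : l = a ∨ l = b
    · exact glueFun_row _ _ _ _ _ _ _ _ _ _ _ _ hki hkj hl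
    · rw [not_or] at hl
      rw [glueFun_col _ _ _ _ _ _ _ _ _ _ _ _ hl.1 hl.2]
      exact hXZ k l hki hkj hl.1 hl.2
  · show min (glueFun i j a b X.1 Z.1 (t + (x - y')) (min x y' - t) (min y x' - t)
          (t + (y' - x)) i a)
        (glueFun i j a b X.1 Z.1 (t + (x - y')) (min x y' - t) (min y x' - t)
          (t + (y' - x)) j b)
      = min (Z.1 i a) (Z.1 j b)
    rw [glueFun_ia, glueFun_jb _ _ hij _ _ hab, e5, ht, ht1, ht2]

end Vale.Agent.H91.CT
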